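import Vale.Agent.P237B.Seg
import Vale.Agent.P230.L.BM

/-! Brunn-Minkowski inequality for compact convex sets.

PLAN.
* bm_mid': transport `Vale.Agent.P230.L.bm_mid` along `PiLp.volume_preserving_toLp (Fin n)`
  (preimages under `WithLp.toLp 2`).
* bm_one: translate so that 0 ∈ A and 0 ∈ B (or use points a₀ ∈ A, b₀ ∈ B directly).
  C t = (1-t) • A + t • B is compact; midpoints of C s and C t lie in C ((s+t)/2) (convexity), so
  T = {t ∈ [0,1] | 1 ≤ vol (C t)} is midpoint closed and contains 0, 1.  T is closed: for t ∈ (0,1)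
  and s ∈ [0,1], C s ⊆ c • C t with c = max ((1-s)/(1-t)) (s/t) (0 ∈ A, B and convexity), so
  vol (C s) ≤ c^n vol (C t), and c → 1 as s → t.  `Vale.Agent.P230.L.BMAux.mem_of_mid`.
* bm: α = 0 or β = 0: A + B contains a translate of B or A.  Otherwise apply bm_one to α⁻¹ • A,
  β⁻¹ • B, t = β/(α+β): C t = (α+β)⁻¹ • (A + B); `vol_smul`. -/

namespace Vale.Agent.P237B

open MeasureTheory Metric Set
open scoped Pointwise

variable {n : ℕ}

theorem bm_mid' {A B C : Set (E n)} (hA : IsCompact A) (hB : IsCompact B) (hC : IsCompact C)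
    (h : ∀ a ∈ A, ∀ b ∈ B, (1 / 2 : ℝ) • (a + b) ∈ C) : vol A * vol B ≤ vol C ^ 2 := by
  have hp := PiLp.volume_preserving_toLp (Fin n)
  have e : ∀ {X : Set (E n)}, IsCompact X → volume (WithLp.toLp 2 ⁻¹' X) = volume X :=
    fun hX => hp.measure_preimage hX.measurableSet.nullMeasurableSet
  have h1 := Vale.Agent.P230.L.bm_mid (ι := Fin n) (A := WithLp.toLp 2 ⁻¹' A)
    (B := WithLp.toLp 2 ⁻¹' B) (C := WithLp.toLp 2 ⁻¹' C) (hp.measurable hA.measurableSet)
    (hp.measurable hB.measurableSet) (hp.measurable hC.measurableSet)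
    (by rw [e hA]; exact hA.measure_lt_top.ne) (by rw [e hB]; exact hB.measure_lt_top.ne)
    (fun a ha b hb => h _ ha _ hb)
  rw [e hA, e hB, e hC] at h1
  unfold vol
  rw [← ENNReal.toReal_mul, ← ENNReal.toReal_pow]
  exact ENNReal.toReal_mono (ENNReal.pow_ne_top hC.measure_lt_top.ne) h1

namespace BM

theorem isCompact_comb {A B : Set (E n)} (hA : IsCompact A) (hB : IsCompact B) (t : ℝ) :
    IsCompact ((1 - t) • A + t • B) :=
  (hA.smul _).add (hB.smul _)

theorem isClosed_level {A B : Set (E n)} (hA : IsCompact A) (hB : IsCompact B) :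
    IsClosed {t : ℝ | 1 ≤ vol ((1 - t) • A + t • B)} := by
  rw [← isOpen_compl_iff, isOpen_iff_mem_nhds]
  intro s hs
  have hs' : volume ((1 - s) • A + s • B) < 1 := by
    have h1 : vol ((1 - s) • A + s • B) < 1 := not_le.1 hs
    exact (ENNReal.toReal_lt_toReal (isCompact_comb hA hB s).measure_lt_top.ne
      ENNReal.one_ne_top).1 h1
  obtain ⟨U, hU, hUo, hUl⟩ := Set.exists_isOpen_lt_of_lt _ 1 hs'
  have h2 : ∀ᶠ t in nhds s, ∀ p ∈ A ×ˢ B, (1 - t) • p.1 + t • p.2 ∈ U := by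
    refine (hA.prod hB).eventually_forall_of_forall_eventually
      (P := fun (t : ℝ) (p : E n × E n) => (1 - t) • p.1 + t • p.2 ∈ U) fun p hp => ?_
    have hc : Continuous fun z : ℝ × (E n × E n) => (1 - z.1) • z.2.1 + z.1 • z.2.2 := by
      fun_prop
    exact hc.continuousAt.eventually_mem (hUo.mem_nhds
      (hU (add_mem_add (smul_mem_smul_set hp.1) (smul_mem_smul_set hp.2))))
  filter_upwards [h2] with t ht
  have h3 : (1 - t) • A + t • B ⊆ U := by
    rintro _ ⟨_, ⟨a, ha, rfl⟩, _, ⟨b, hb, rfl⟩, rfl⟩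
    exact ht (a, b) ⟨ha, hb⟩
  have h4 := (measure_mono (μ := volume) h3).trans_lt hUl
  have h5 : vol ((1 - t) • A + t • B) < 1 :=
    (ENNReal.toReal_lt_toReal (isCompact_comb hA hB t).measure_lt_top.ne ENNReal.one_ne_top).2 h4
  exact not_le.2 h5

theorem le_vol_add {A B : Set (E n)} (hA : IsCompact A) (hB : IsCompact B) (hB0 : B.Nonempty) :
    vol A ≤ vol (A + B) := by
  obtain ⟨b, hb⟩ := hB0
  rw [← vol_translate A b]
  refine vol_mono ?_ (hA.add hB)
  rintro _ ⟨a, ha, rfl⟩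
  exact ⟨a, ha, b, hb, add_comm _ _⟩

end BM

open BM

theorem bm_one {A B : Set (E n)} (hA : IsCompact A) (hA' : Convex ℝ A) (hB : IsCompact B)
    (hB' : Convex ℝ B) (h1 : 1 ≤ vol A) (h2 : 1 ≤ vol B) {t : ℝ} (ht0 : 0 ≤ t) (ht1 : t ≤ 1) :
    1 ≤ vol ((1 - t) • A + t • B) := by
  have hne : ∀ {X : Set (E n)}, 1 ≤ vol X → X.Nonempty := fun {X} hX => by
    rcases X.eq_empty_or_nonempty with rfl | h
    · simp [vol] at hX
      linarith
    · exact h
  have key := Vale.Agent.P230.L.BMAux.mem_of_mid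
    (T := Icc 0 1 ∩ {t : ℝ | 1 ≤ vol ((1 - t) • A + t • B)})
    (isClosed_Icc.inter (isClosed_level hA hB)) ⟨⟨le_rfl, zero_le_one⟩, ?_⟩
    ⟨⟨zero_le_one, le_rfl⟩, ?_⟩ ?_ ht0 ht1
  · exact key.2
  · change 1 ≤ vol (((1 : ℝ) - 0) • A + (0 : ℝ) • B)
    rw [sub_zero, one_smul]
    exact h1.trans (le_vol_add hA (hB.smul _) (hne h2).smul_set)
  · change 1 ≤ vol (((1 : ℝ) - 1) • A + (1 : ℝ) • B)
    rw [one_smul, add_comm]
    exact h2.trans (le_vol_add hB (hA.smul _) (hne h1).smul_set)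
  · rintro a ⟨⟨ha0, ha1⟩, ha⟩ b ⟨⟨hb0, hb1⟩, hb⟩
    refine ⟨⟨by linarith, by linarith⟩, ?_⟩
    have h3 := bm_mid' (isCompact_comb hA hB a) (isCompact_comb hA hB b)
      (isCompact_comb hA hB ((a + b) / 2)) (by
        intro x hx y hy
        have e1 : (1 - (a + b) / 2) • A = ((1 - a) / 2) • A + ((1 - b) / 2) • A := by
          rw [← hA'.add_smul (by linarith) (by linarith)]
          congr 1
          ring
        have e2 : ((a + b) / 2) • B = (a / 2) • B + (b / 2) • B := by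
          rw [← hB'.add_smul (by linarith) (by linarith)]
          congr 1
          ring
        rw [e1, e2]
        obtain ⟨_, ⟨p, hp, rfl⟩, _, ⟨q, hq, rfl⟩, rfl⟩ := hx
        obtain ⟨_, ⟨p', hp', rfl⟩, _, ⟨q', hq', rfl⟩, rfl⟩ := hy
        refine ⟨_, add_mem_add (smul_mem_smul_set hp) (smul_mem_smul_set hp'), _,
          add_mem_add (smul_mem_smul_set hq) (smul_mem_smul_set hq'), ?_⟩
        simp only
        module)
    have h4 : 1 ≤ vol ((1 - (a + b) / 2) • A + ((a + b) / 2) • B) ^ 2 :=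
      (one_le_mul_of_one_le_of_one_le ha hb).trans h3
    exact (one_le_sq_iff₀ (vol_nonneg _)).1 h4

theorem bm [NeZero n] {A B : Set (E n)} (hA : IsCompact A) (hA' : Convex ℝ A) (hA0 : A.Nonempty)
    (hB : IsCompact B) (hB' : Convex ℝ B) (hB0 : B.Nonempty) {α β : ℝ} (hα : 0 ≤ α) (hβ : 0 ≤ β)
    (h1 : α ^ n ≤ vol A) (h2 : β ^ n ≤ vol B) : (α + β) ^ n ≤ vol (A + B) := by
  rcases hα.eq_or_lt with rfl | hα
  · rw [zero_add, add_comm]
    exact h2.trans (le_vol_add hB hA hA0)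
  rcases hβ.eq_or_lt with rfl | hβ
  · rw [add_zero]
    exact h1.trans (le_vol_add hA hB hB0)
  have hs : 0 < α + β := add_pos hα hβ
  have e : ∀ {X : Set (E n)} {c : ℝ}, 0 < c → c ^ n ≤ vol X → 1 ≤ vol (c⁻¹ • X) :=
    fun {X c} hc h => by
      rw [vol_smul _ (inv_nonneg.2 hc.le), inv_pow, ← div_eq_inv_mul, le_div_iff₀ (pow_pos hc _),
        one_mul]
      exact h
  have h3 := bm_one (hA.smul α⁻¹) (hA'.smul _) (hB.smul β⁻¹) (hB'.smul _) (e hα h1) (e hβ h2)
    (t := β / (α + β)) (by positivity) (by rw [div_le_one hs]; linarith)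
  have e1 : (1 - β / (α + β)) • α⁻¹ • A + (β / (α + β)) • β⁻¹ • B = (α + β)⁻¹ • (A + B) := by
    rw [smul_smul, smul_smul, smul_add]
    congr 2 <;> field_simp
    ring
  rw [e1, vol_smul _ (inv_nonneg.2 hs.le), inv_pow, ← div_eq_inv_mul, le_div_iff₀ (pow_pos hs _),
    one_mul] at h3
  exact h3

end Vale.Agent.P237B
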