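import Vale.Agent.P237B.Sph

/-! Functions that are locally Lipschitz off the origin, homogeneous functions, coordinate
derivatives.

PLAN.
* fderiv_eq_sum: v = ∑ i, v i • single i 1 (`EuclideanSpace.basisFun`, `OrthonormalBasis.sum_repr`),
  `map_sum`.  gradient_apply: `inner_gradient_left`, `EuclideanSpace.inner_single_right`.
* D_const_mul holds without differentiability (`fderiv_const_smul_field` or cases c = 0, c ≠ 0).
* D_norm: ‖x‖ = √(‖x‖^2), `hasStrictFDerivAt_norm_sq`, `HasFDerivAt.sqrt`.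
* LL.comp₂ is the basic closure property (`ContDiffAt.exists_lipschitzOnWith`,
  `LipschitzOnWith.comp`, `LipschitzOnWith.prodMk`, continuity of Φ, Ψ at x); comp, mul, div_norm
  follow (the norm is 1-Lipschitz).  measurable: `measurable_of_continuousOn_compl_singleton`.
* Hom.D_smul: Φ y = r^d Φ (r⁻¹ • y) for all y; chain rule at r • u.
* euler: differentiate t ↦ Φ (t • u) = t^d Φ u at t = 1 (eventually equal near 1), `fderiv_eq_sum`.
* LL.bdd: compactness of the sphere (`IsCompact.induction_on`, or a finite subcover by interiors of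
  the sets s), `norm_fderiv_le_of_lipschitzOn`. -/

namespace Vale.Agent.P237B

open MeasureTheory Metric Set Filter Topology
open scoped RealInnerProductSpace ENNReal NNReal

variable {n : ℕ}

/-- Locally Lipschitz away from the origin. -/
def LL (Φ : E n → ℝ) : Prop :=
  ∀ x, x ≠ 0 → ∃ C : ℝ≥0, ∃ s ∈ 𝓝 x, LipschitzOnWith C Φ s

/-- Positively homogeneous of degree `d`. -/
def Hom (d : ℕ) (Φ : E n → ℝ) : Prop :=
  ∀ (x : E n) (r : ℝ), 0 < r → Φ (r • x) = r ^ d * Φ x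

/-- The `i`-th derivative. -/
noncomputable def D (Φ : E n → ℝ) (i : Fin n) (u : E n) : ℝ :=
  fderiv ℝ Φ u (EuclideanSpace.single i 1)

theorem fderiv_eq_sum (Φ : E n → ℝ) (u v : E n) : fderiv ℝ Φ u v = ∑ i, v i * D Φ i u := by
  conv_lhs => rw [← (EuclideanSpace.basisFun (Fin n) ℝ).sum_repr v, map_sum]
  refine Finset.sum_congr rfl fun i _ => ?_
  rw [map_smul, EuclideanSpace.basisFun_repr, EuclideanSpace.basisFun_apply, smul_eq_mul, D]

theorem gradient_apply (Φ : E n → ℝ) (u : E n) (i : Fin n) : gradient Φ u i = D Φ i u := by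
  rw [D, ← inner_gradient_left, EuclideanSpace.inner_single_right]
  simp

theorem measurable_D (Φ : E n → ℝ) (i : Fin n) : Measurable (D Φ i) := by
  exact measurable_fderiv_apply_const ℝ Φ _

theorem D_mul {Φ Ψ : E n → ℝ} {u : E n} (h1 : DifferentiableAt ℝ Φ u)
    (h2 : DifferentiableAt ℝ Ψ u) (i : Fin n) :
    D (fun x => Φ x * Ψ x) i u = D Φ i u * Ψ u + Φ u * D Ψ i u := by
  unfold D
  rw [fderiv_fun_mul h1 h2]
  simp only [ContinuousLinearMap.add_apply, ContinuousLinearMap.smul_apply, smul_eq_mul]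
  ring

theorem D_const_mul (c : ℝ) (Φ : E n → ℝ) (i : Fin n) (u : E n) :
    D (fun x => c * Φ x) i u = c * D Φ i u := by
  have := congrFun (fderiv_const_smul_field (𝕜 := ℝ) (f := Φ) c) u
  unfold D
  rw [show (fun x => c * Φ x) = c • Φ from rfl, this]
  rfl

theorem D_comp {Φ : E n → ℝ} {g : ℝ → ℝ} {g' : ℝ} {u : E n} (h1 : DifferentiableAt ℝ Φ u)
    (h2 : HasDerivAt g g' (Φ u)) (i : Fin n) :
    D (fun x => g (Φ x)) i u = g' * D Φ i u := by
  unfold D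
  rw [show (fun x => g (Φ x)) = g ∘ Φ from rfl, (h2.comp_hasFDerivAt u h1.hasFDerivAt).fderiv]
  rfl

theorem D_norm {u : E n} (hu : u ≠ 0) (i : Fin n) : D (fun x => ‖x‖) i u = u i / ‖u‖ := by
  have h0 : 0 < ‖u‖ := norm_pos_iff.2 hu
  have h1 := (hasStrictFDerivAt_norm_sq u).hasFDerivAt.sqrt (by positivity)
  simp only [Real.sqrt_sq (norm_nonneg _)] at h1
  unfold D
  rw [h1.fderiv]
  simp [EuclideanSpace.inner_single_right]
  field_simp

theorem LL.of_lipschitz {Φ : E n → ℝ} {C : ℝ≥0} (h : LipschitzWith C Φ) : LL Φ := by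
  exact fun x _ => ⟨C, univ, univ_mem, h.lipschitzOnWith⟩

theorem LL.of_contDiff {Φ : E n → ℝ} (h : ∀ x, x ≠ 0 → ContDiffAt ℝ 1 Φ x) : LL Φ := by
  exact fun x hx => (h x hx).exists_lipschitzOnWith

theorem LL.continuousOn {Φ : E n → ℝ} (h : LL Φ) : ContinuousOn Φ {0}ᶜ := by
  intro x hx
  obtain ⟨C, s, hs, hC⟩ := h x hx
  exact (hC.continuousOn.continuousAt hs).continuousWithinAt

theorem LL.measurable {Φ : E n → ℝ} (h : LL Φ) : Measurable Φ := by
  exact measurable_of_continuousOn_compl_singleton 0 h.continuousOn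

theorem LL.comp₂ {Φ Ψ : E n → ℝ} (h1 : LL Φ) (h2 : LL Ψ) {g : ℝ × ℝ → ℝ}
    (hg : ∀ x, x ≠ 0 → ContDiffAt ℝ 1 g (Φ x, Ψ x)) : LL fun x => g (Φ x, Ψ x) := by
  intro x hx
  obtain ⟨C1, s1, hs1, hC1⟩ := h1 x hx
  obtain ⟨C2, s2, hs2, hC2⟩ := h2 x hx
  obtain ⟨C, t, ht, hC⟩ := (hg x hx).exists_lipschitzOnWith
  have hc : ContinuousAt (fun y => (Φ y, Ψ y)) x :=
    (hC1.continuousOn.continuousAt hs1).prodMk (hC2.continuousOn.continuousAt hs2)
  refine ⟨C * max C1 C2, (s1 ∩ s2) ∩ (fun y => (Φ y, Ψ y)) ⁻¹' t,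
    inter_mem (inter_mem hs1 hs2) (hc ht), ?_⟩
  exact hC.comp ((hC1.mono fun y hy => hy.1.1).prodMk (hC2.mono fun y hy => hy.1.2))
    fun y hy => hy.2

theorem LL.comp {Φ : E n → ℝ} (h : LL Φ) {g : ℝ → ℝ}
    (hg : ∀ x, x ≠ 0 → ContDiffAt ℝ 1 g (Φ x)) : LL fun x => g (Φ x) := by
  exact h.comp₂ h (g := fun p => g p.1) fun x hx => (hg x hx).comp (Φ x, Φ x) contDiffAt_fst

theorem LL.mul {Φ Ψ : E n → ℝ} (h1 : LL Φ) (h2 : LL Ψ) : LL fun x => Φ x * Ψ x := by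
  exact h1.comp₂ h2 (g := fun p => p.1 * p.2) fun x _ => contDiffAt_fst.mul contDiffAt_snd

theorem LL.div_norm {Φ : E n → ℝ} (h : LL Φ) : LL fun x => Φ x / ‖x‖ := by
  exact h.comp₂ (LL.of_lipschitz lipschitzWith_one_norm) (g := fun p => p.1 / p.2) fun x hx =>
    contDiffAt_fst.div contDiffAt_snd (norm_ne_zero_iff.2 hx)

theorem Hom.mul {Φ Ψ : E n → ℝ} {d k : ℕ} (h1 : Hom d Φ) (h2 : Hom k Ψ) :
    Hom (d + k) fun x => Φ x * Ψ x := by
  intro x r hr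
  simp only [h1 x r hr, h2 x r hr]
  ring

theorem Calc.hasFDerivAt_smul {Φ : E n → ℝ} {d : ℕ} (h : Hom d Φ) {u : E n}
    (hu : DifferentiableAt ℝ Φ u) {r : ℝ} (hr : 0 < r) :
    HasFDerivAt Φ ((r ^ d / r) • fderiv ℝ Φ u) (r • u) := by
  have e : Φ = fun y => r ^ d * Φ (r⁻¹ • y) := by
    funext y
    rw [← h _ r hr, smul_inv_smul₀ hr.ne']
  have h1 : HasFDerivAt Φ (fderiv ℝ Φ u) (r⁻¹ • r • u) := by
    rw [inv_smul_smul₀ hr.ne']; exact hu.hasFDerivAt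
  have h2 := (h1.comp (r • u) ((hasFDerivAt_id (r • u)).const_smul r⁻¹)).const_mul (r ^ d)
  conv => enter [1]; rw [e]
  refine h2.congr_fderiv ?_
  ext v
  simp [div_eq_mul_inv, mul_assoc]

theorem Hom.differentiableAt_smul {Φ : E n → ℝ} {d : ℕ} (h : Hom d Φ) {u : E n}
    (hu : DifferentiableAt ℝ Φ u) {r : ℝ} (hr : 0 < r) : DifferentiableAt ℝ Φ (r • u) := by
  exact (Calc.hasFDerivAt_smul h hu hr).differentiableAt

theorem Hom.D_smul {Φ : E n → ℝ} {d : ℕ} (h : Hom d Φ) {u : E n}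
    (hu : DifferentiableAt ℝ Φ u) {r : ℝ} (hr : 0 < r) (i : Fin n) :
    D Φ i (r • u) = r ^ d / r * D Φ i u := by
  unfold D
  rw [(Calc.hasFDerivAt_smul h hu hr).fderiv]
  rfl

theorem Hom.euler {Φ : E n → ℝ} {d : ℕ} (h : Hom d Φ) {u : E n}
    (hu : DifferentiableAt ℝ Φ u) : ∑ i, u i * D Φ i u = d * Φ u := by
  rw [← fderiv_eq_sum]
  have h1 : HasDerivAt (fun t : ℝ => Φ (t • u)) (fderiv ℝ Φ u u) 1 := by
    have h2 : HasDerivAt (fun t : ℝ => t • u) u 1 := by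
      simpa using (hasDerivAt_id (1 : ℝ)).smul_const u
    exact hu.hasFDerivAt.comp_hasDerivAt_of_eq 1 h2 (one_smul _ _).symm
  have h3 : HasDerivAt (fun t : ℝ => t ^ d * Φ u) (d * Φ u) 1 := by
    simpa using (hasDerivAt_pow d (1 : ℝ)).mul_const (Φ u)
  refine h1.unique (h3.congr_of_eventuallyEq ?_)
  filter_upwards [lt_mem_nhds (zero_lt_one' ℝ)] with t ht using h u t ht

theorem LL.bdd {Φ : E n → ℝ} (h : LL Φ) :
    ∃ C, ∀ u : E n, ‖u‖ = 1 → |Φ u| ≤ C ∧ ‖fderiv ℝ Φ u‖ ≤ C ∧ ∀ i, |D Φ i u| ≤ C := by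
  have hs : sphere (0 : E n) 1 ⊆ {0}ᶜ := fun x hx => ne_zero_of_mem_unit_sphere ⟨x, hx⟩
  obtain ⟨C, hC⟩ := (isCompact_sphere (0 : E n) 1).exists_bound_of_continuousOn
    (h.continuousOn.mono hs)
  obtain ⟨C', hC'⟩ : ∃ C' : ℝ, ∀ u ∈ sphere (0 : E n) 1, ‖fderiv ℝ Φ u‖ ≤ C' := by
    refine (isCompact_sphere (0 : E n) 1).induction_on
      (p := fun t => ∃ C' : ℝ, ∀ u ∈ t, ‖fderiv ℝ Φ u‖ ≤ C') ⟨0, by simp⟩
      (fun s t hst ⟨c, hc⟩ => ⟨c, fun u hu => hc u (hst hu)⟩)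
      (fun s t ⟨c, hc⟩ ⟨c', hc'⟩ => ⟨max c c', fun u hu => hu.elim
        (fun hu => (hc u hu).trans (le_max_left _ _)) fun hu => (hc' u hu).trans (le_max_right _ _)⟩)
      fun x hx => ?_
    obtain ⟨c, s, hs', hc⟩ := h x (hs hx)
    exact ⟨interior s, mem_nhdsWithin_of_mem_nhds (interior_mem_nhds.2 hs'), c, fun u hu =>
      norm_fderiv_le_of_lipschitzOn ℝ (mem_interior_iff_mem_nhds.1 hu) hc⟩
  refine ⟨max C C', fun u hu => ?_⟩
  have hu' := mem_sphere_zero_iff_norm.2 hu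
  refine ⟨(hC u hu').trans (le_max_left _ _), (hC' u hu').trans (le_max_right _ _), fun i => ?_⟩
  refine ((fderiv ℝ Φ u).le_opNorm _).trans ?_
  rw [EuclideanSpace.norm_single, norm_one, mul_one]
  exact (hC' u hu').trans (le_max_right _ _)

end Vale.Agent.P237B
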