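import Vale.Agent.P237B.EqA

/-! Equality in the Brunn-Minkowski inequality for two convex bodies forces homothety. -/

namespace Vale.Agent.P237B

open MeasureTheory Metric Set Filter Topology
open scoped Pointwise RealInnerProductSpace

variable {n : ℕ} [NeZero n] {K L : Set (E n)}

namespace EqG

theorem cut (hK : IsBody K) (hL : IsBody L) {α β θ s t : ℝ} (hα : 0 < α) (hβ : 0 < β)
    (hα' : α ^ n = vol K) (hβ' : β ^ n = vol L) (h : vol (K + L) ≤ (α + β) ^ n) {w : E n}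
    (hw : w ≠ 0) (h0 : 0 < θ) (h1 : θ < 1) (hs : vol (K ∩ {y | s ≤ ⟪y, w⟫}) = θ * vol K)
    (ht : vol (L ∩ {y | t ≤ ⟪y, w⟫}) = θ * vol L) {x y ν : E n} (hx : x ∈ K)
    (hm : ∀ z ∈ K, ⟪z, ν⟫ ≤ ⟪x, ν⟫) (hy : y ∈ L) (hu : ∀ z ∈ L, ⟪y, ν⟫ ≤ ⟪z, ν⟫ → z = y) :
    (s ≤ ⟪x, w⟫ ∧ t ≤ ⟪y, w⟫) ∨ (⟪x, w⟫ ≤ s ∧ ⟪y, w⟫ ≤ t) := by
  have k1 := EqA.up hK.1 hK.2.1 w s
  have k2 := EqA.dn hK.1 hK.2.1 w s
  have b1 := EqA.up hL.1 hL.2.1 w t
  have b2 := EqA.dn hL.1 hL.2.1 w t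
  have h2 := EqA.bmθ k1 b1 hα hβ h0 (hα' ▸ hs) (hβ' ▸ ht)
  have h3 := EqA.bmθ k2 b2 hα hβ (sub_pos.2 h1) (hα' ▸ EqA.split hK.1 hK.2.1 hw hs)
    (hβ' ▸ EqA.split hL.1 hL.2.1 hw ht)
  have h4 := EqA.union (k1.1.add b1.1) (k2.1.add b2.1) hw (s := s + t)
    (by
      rintro _ ⟨a, ha, b, hb, rfl⟩
      rw [inner_add_left]
      exact add_le_add ha.2 hb.2)
    (by
      rintro _ ⟨a, ha, b, hb, rfl⟩
      rw [inner_add_left]
      exact add_le_add ha.2 hb.2)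
  have h5 := EqA.full (S := K + L) ⟨hK.1.add hL.1, hK.2.1.add hL.2.1,
    (hK.2.2.add ⟨y, hy⟩).mono subset_interior_add_left⟩
    ((k1.1.add b1.1).union (k2.1.add b2.1)).isClosed
    (union_subset (add_subset_add inter_subset_left inter_subset_left)
      (add_subset_add inter_subset_left inter_subset_left)) (by linarith)
  have top : ∀ a ∈ K, ∀ b ∈ L, a + b = x + y → a = x ∧ b = y := fun a ha b hb e => by
    have e1 := congrArg (fun z => ⟪z, ν⟫) e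
    simp only [inner_add_left] at e1
    have e2 := hu b hb (by linarith [hm a ha])
    exact ⟨add_right_cancel (e2 ▸ e), e2⟩
  rcases h5 (add_mem_add hx hy) with ⟨a, ha, b, hb, e⟩ | ⟨a, ha, b, hb, e⟩
  · obtain ⟨rfl, rfl⟩ := top a ha.1 b hb.1 e
    exact Or.inl ⟨ha.2, hb.2⟩
  · obtain ⟨rfl, rfl⟩ := top a ha.1 b hb.1 e
    exact Or.inr ⟨ha.2, hb.2⟩

theorem not_lt (hK : IsBody K) (hL : IsBody L) {α β : ℝ} (hα : 0 < α) (hβ : 0 < β)
    (hα' : α ^ n = vol K) (hβ' : β ^ n = vol L) (h : vol (K + L) ≤ (α + β) ^ n)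
    {x y ν x' y' ν' w : E n} (hx : x ∈ K) (hm : ∀ z ∈ K, ⟪z, ν⟫ ≤ ⟪x, ν⟫) (hy : y ∈ L)
    (hu : ∀ z ∈ L, ⟪y, ν⟫ ≤ ⟪z, ν⟫ → z = y) (hx' : x' ∈ K) (hm' : ∀ z ∈ K, ⟪z, ν'⟫ ≤ ⟪x', ν'⟫)
    (hy' : y' ∈ L) (hu' : ∀ z ∈ L, ⟪y', ν'⟫ ≤ ⟪z, ν'⟫ → z = y') (hw : ⟪y, w⟫ = ⟪y', w⟫) :
    ⟪x, w⟫ ≤ ⟪x', w⟫ := by
  by_contra hlt
  rw [not_le] at hlt
  have hw0 : w ≠ 0 := by
    rintro rfl
    simp at hlt
  have hv := hK.vol_pos
  have h1 : ∀ s, ⟪x', w⟫ < s → s < ⟪x, w⟫ → vol (L ∩ {z | ⟪y, w⟫ ≤ ⟪z, w⟫}) =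
      vol (K ∩ {z | s ≤ ⟪z, w⟫}) / vol K * vol L := fun s h2 h3 => by
    have h4 := div_pos ((vol_nonneg _).trans_lt (eq_slab hK hx hx' h2.le h3 le_rfl)) hv
    have h5 := (div_lt_one hv).2
      ((eq_slab hK hx hx' le_rfl h2 h3.le).trans_le (vol_mono inter_subset_left hK.1))
    obtain ⟨t, ht⟩ := eq_level hL.1 hw0 h4.le h5.le
    have h6 := (cut hK hL hα hβ hα' hβ' h hw0 h4 h5 (div_mul_cancel₀ _ hv.ne').symm ht hx
      hm hy hu).resolve_right fun h => not_le.2 h3 h.1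
    have h7 := (cut hK hL hα hβ hα' hβ' h hw0 h4 h5 (div_mul_cancel₀ _ hv.ne').symm ht hx'
      hm' hy' hu').resolve_left fun h => not_le.2 h2 h.1
    rw [← ht, le_antisymm h6.2 (hw ▸ h7.2)]
  have h2 := (h1 ((2 * ⟪x', w⟫ + ⟪x, w⟫) / 3) (by linarith) (by linarith)).symm.trans
    (h1 ((⟪x', w⟫ + 2 * ⟪x, w⟫) / 3) (by linarith) (by linarith))
  rw [mul_left_inj' hL.vol_pos.ne', div_left_inj' hv.ne'] at h2
  exact (eq_slab hK hx hx' (by linarith) (by linarith) (by linarith)).ne' h2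

omit [NeZero n] in
theorem support (hK : IsCompact K) (h0 : K.Nonempty) : ∃ x : E n → E n, (∀ ν, x ν ∈ K) ∧
    (∀ ν, ∀ z ∈ K, ⟪z, ν⟫ ≤ ⟪x ν, ν⟫) ∧ ∃ C, LipschitzWith C fun ν => ⟪x ν, ν⟫ := by
  choose x hx hm using fun ν : E n =>
    hK.exists_isMaxOn h0 (f := fun y => ⟪y, ν⟫) (by fun_prop)
  obtain ⟨R, hR⟩ := hK.isBounded.exists_norm_le
  refine ⟨x, hx, fun ν z hz => hm ν hz, R.toNNReal, LipschitzWith.of_le_add_mul _ fun ν ν' => ?_⟩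
  have h1 : ⟪x ν, ν'⟫ ≤ ⟪x ν', ν'⟫ := hm ν' (hx ν)
  have h2 := real_inner_le_norm (x ν) (ν - ν')
  have h3 := mul_le_mul_of_nonneg_right ((hR _ (hx ν)).trans (Real.le_coe_toNNReal R))
    (norm_nonneg (ν - ν'))
  rw [inner_sub_right] at h2
  rw [dist_eq_norm]
  linarith

omit [NeZero n] in
theorem unique {y : E n → E n} (hm : ∀ ν, ∀ z ∈ L, ⟪z, ν⟫ ≤ ⟪y ν, ν⟫) {ν : E n}
    (hd : DifferentiableAt ℝ (fun ν => ⟪y ν, ν⟫) ν) (hy : y ν ∈ L) {z : E n} (hz : z ∈ L)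
    (h : ⟪y ν, ν⟫ ≤ ⟪z, ν⟫) : z = y ν := by
  have key : ∀ z ∈ L, ⟪y ν, ν⟫ ≤ ⟪z, ν⟫ → fderiv ℝ (fun ν => ⟪y ν, ν⟫) ν = innerSL ℝ z := by
    intro z hz h
    have h1 : IsLocalMin (fun ν => ⟪y ν, ν⟫ - innerSL ℝ z ν) ν :=
      Eventually.of_forall fun μ => by
        have := hm μ z hz
        simp only [innerSL_apply_apply]
        linarith
    exact sub_eq_zero.1 (h1.hasFDerivAt_eq_zero (hd.hasFDerivAt.sub (innerSL ℝ z).hasFDerivAt))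
  exact innerSL_inj.1 ((key z hz h).symm.trans (key _ hy le_rfl))

omit [NeZero n] in
theorem tri {a b c : ℝ} {p q : E n} (hq : q ∉ ℝ ∙ p) (hp : p ≠ 0)
    (e : a • p - b • q = c • (p - q)) : b = a := by
  have e1 : (a - c) • p = (b - c) • q := by linear_combination (norm := module) e
  have h1 : b = c := by
    by_contra h
    exact hq (Submodule.mem_span_singleton.2 ⟨(b - c)⁻¹ * (a - c), by
      rw [mul_smul, e1, inv_smul_smul₀ (sub_ne_zero.2 h)]⟩)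
  rw [h1, sub_self, zero_smul, smul_eq_zero, sub_eq_zero] at e1
  exact h1.trans (e1.resolve_right hp).symm

omit [NeZero n] in
theorem affine {D : Set (E n)} {x y : E n → E n}
    (h : ∀ ν ∈ D, ∀ ν' ∈ D, ∃ a : ℝ, x ν - x ν' = a • (y ν - y ν')) {ν₁ ν₂ ν₃ : E n}
    (h1 : ν₁ ∈ D) (h2 : ν₂ ∈ D) (h3 : ν₃ ∈ D) (hp : y ν₂ - y ν₁ ≠ 0)
    (hq : y ν₃ - y ν₁ ∉ ℝ ∙ (y ν₂ - y ν₁)) :
    ∃ l : ℝ, ∀ ν ∈ D, x ν - x ν₁ = l • (y ν - y ν₁) := by
  have key : ∀ μ ∈ D, ∀ l : ℝ, x μ - x ν₁ = l • (y μ - y ν₁) → y μ - y ν₁ ≠ 0 → ∀ ν ∈ D,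
      y ν - y ν₁ ∉ ℝ ∙ (y μ - y ν₁) → x ν - x ν₁ = l • (y ν - y ν₁) := by
    intro μ hμ l hl hp ν hν hq
    obtain ⟨b, hb⟩ := h ν hν ν₁ h1
    obtain ⟨c, hc⟩ := h μ hμ ν hν
    rw [hb, tri (a := l) (b := b) (c := c) hq hp
      (by linear_combination (norm := module) hc - hl + hb)]
  obtain ⟨l, hl⟩ := h ν₂ h2 ν₁ h1
  refine ⟨l, fun ν hν => ?_⟩
  by_cases h4 : y ν - y ν₁ ∈ ℝ ∙ (y ν₂ - y ν₁)
  · by_cases h5 : y ν - y ν₁ = 0
    · obtain ⟨b, hb⟩ := h ν hν ν₁ h1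
      rw [hb, h5, smul_zero, smul_zero]
    · refine key ν₃ h3 l (key ν₂ h2 l hl hp ν₃ h3 hq) (fun h6 => hq (h6 ▸ zero_mem _)) ν hν
        fun h6 => hq ?_
      obtain ⟨a, ha⟩ := Submodule.mem_span_singleton.1 h6
      have ha0 : a ≠ 0 := fun h7 => h5 (by rw [← ha, h7, zero_smul])
      rw [← inv_smul_smul₀ ha0 (y ν₃ - y ν₁), ha]
      exact Submodule.smul_mem _ _ h4
  · exact key ν₂ h2 l hl hp ν hν h4

omit [NeZero n] in
theorem not_flat (hL : IsBody L) {D : Set (E n)} (hD : Dense D) {y : E n → E n}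
    (hy : ∀ ν, y ν ∈ L) (hm : ∀ ν, ∀ z ∈ L, ⟪z, ν⟫ ≤ ⟪y ν, ν⟫) {w : E n} (hw : w ≠ 0) {s : ℝ}
    (h : ∀ ν ∈ D, ⟪y ν, w⟫ = s) : False := by
  obtain ⟨R, hR⟩ := hL.1.isBounded.exists_norm_le
  have key : ∀ (t : ℝ), ∀ z ∈ L, t * ⟪z, w⟫ ≤ t * s := fun t z hz => by
    have h1 : ∀ ν ∈ closure D, ⟪z, ν⟫ ≤ t * s + R * ‖ν - t • w‖ :=
      fun ν hν => closure_minimal (t := {ν | ⟪z, ν⟫ ≤ t * s + R * ‖ν - t • w‖}) (fun ν hν => by
        have h2 := hm ν z hz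
        have h3 := real_inner_le_norm (y ν) (ν - t • w)
        have h4 := mul_le_mul_of_nonneg_right (hR _ (hy ν)) (norm_nonneg (ν - t • w))
        rw [inner_sub_right, real_inner_smul_right, h ν hν] at h3
        change ⟪z, ν⟫ ≤ t * s + R * ‖ν - t • w‖
        linarith) (isClosed_le (by fun_prop) (by fun_prop)) hν
    have := h1 (t • w) (hD _)
    rwa [sub_self, norm_zero, mul_zero, add_zero, real_inner_smul_right] at this
  have h0 : volume L = 0 := measure_mono_null (fun z hz => by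
    have h1 := key 1 z hz
    have h2 := key (-1) z hz
    change _ = s
    linarith) (EqA.null hw s)
  exact hL.vol_pos.ne' (by simp [vol, h0])

omit [NeZero n] in
theorem subset_of_support (hK : IsCompact K) (hc : Convex ℝ K) {A : Set (E n)}
    (h : ∀ a ∈ A, ∀ ν, ∃ z ∈ K, ⟪a, ν⟫ ≤ ⟪z, ν⟫) : A ⊆ K := fun a ha => by
  by_contra hn
  obtain ⟨f, u, h1, h2⟩ := geometric_hahn_banach_closed_point hc hK.isClosed hn
  obtain ⟨z, hz, h3⟩ := h a ha ((InnerProductSpace.toDual ℝ (E n)).symm f)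
  rw [real_inner_comm, real_inner_comm _ z, InnerProductSpace.toDual_symm_apply,
    InnerProductSpace.toDual_symm_apply] at h3
  linarith [h1 z hz]

end EqG

/-- Equality case of the Brunn-Minkowski inequality. -/
theorem homothetic_of_bm_eq (hn : 2 ≤ n) (hK : IsBody K) (hL : IsBody L) {α β : ℝ} (hα : 0 < α)
    (hβ : 0 < β) (hα' : α ^ n = vol K) (hβ' : β ^ n = vol L) (h : vol (K + L) ≤ (α + β) ^ n) :
    ∃ c : E n, K = (fun y => c + (α / β) • y) '' L := by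
  obtain ⟨x, hx, hm, C, hC⟩ := EqG.support hK.1 (hK.2.2.mono interior_subset)
  obtain ⟨y, hy, hm', C', hC'⟩ := EqG.support hL.1 (hL.2.2.mono interior_subset)
  set D := {ν : E n | DifferentiableAt ℝ (fun ν => ⟪y ν, ν⟫) ν} with hDdef
  have hD : Dense D := Measure.dense_of_ae (hC'.ae_differentiableAt (μ := volume))
  have h1 : ∀ ν ∈ D, ∀ ν' ∈ D, ∃ a : ℝ, x ν - x ν' = a • (y ν - y ν') := by
    intro ν hν ν' hν'
    have : x ν - x ν' ∈ ℝ ∙ (y ν - y ν') := by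
      rw [← Submodule.orthogonal_orthogonal (ℝ ∙ (y ν - y ν')), Submodule.mem_orthogonal']
      intro w hw
      rw [Submodule.mem_orthogonal_singleton_iff_inner_right, inner_sub_left, sub_eq_zero] at hw
      rw [inner_sub_left, sub_eq_zero]
      exact le_antisymm
        (EqG.not_lt hK hL hα hβ hα' hβ' h (hx ν) (hm ν) (hy ν)
          (fun z hz => EqG.unique hm' hν (hy ν) hz) (hx ν') (hm ν') (hy ν')
          (fun z hz => EqG.unique hm' hν' (hy ν') hz) hw)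
        (EqG.not_lt hK hL hα hβ hα' hβ' h (hx ν') (hm ν') (hy ν')
          (fun z hz => EqG.unique hm' hν' (hy ν') hz) (hx ν) (hm ν) (hy ν)
          (fun z hz => EqG.unique hm' hν (hy ν) hz) hw.symm)
    obtain ⟨a, ha⟩ := Submodule.mem_span_singleton.1 this
    exact ⟨a, ha.symm⟩
  obtain ⟨ν₁, h₁⟩ := hD.nonempty
  have perp : ∀ p : E n, ∃ w : E n, w ≠ 0 ∧ ⟪p, w⟫ = 0 := fun p => by
    have h2 : (ℝ ∙ p)ᗮ ≠ ⊥ := fun h2 => by
      have h3 := (ℝ ∙ p).finrank_add_finrank_orthogonal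
      have h4 : Module.finrank ℝ (ℝ ∙ p) ≤ 1 := by
        simpa using finrank_span_le_card ({p} : Set (E n))
      rw [h2, finrank_bot, finrank_euclideanSpace_fin] at h3
      omega
    obtain ⟨w, hw, hw0⟩ := Submodule.exists_mem_ne_zero_of_ne_bot h2
    exact ⟨w, hw0, Submodule.mem_orthogonal_singleton_iff_inner_right.1 hw⟩
  have out : ∀ p : E n, ∃ ν ∈ D, y ν - y ν₁ ∉ ℝ ∙ p := fun p => by
    by_contra! h2
    obtain ⟨w, hw0, hw⟩ := perp p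
    refine EqG.not_flat hL hD hy hm' hw0 (s := ⟪y ν₁, w⟫) fun ν hν => ?_
    obtain ⟨a, ha⟩ := Submodule.mem_span_singleton.1 (h2 ν hν)
    rw [← sub_eq_zero, ← inner_sub_left, ← ha, real_inner_smul_left, hw, mul_zero]
  obtain ⟨ν₂, h₂, hp⟩ := out 0
  obtain ⟨ν₃, h₃, hq⟩ := out (y ν₂ - y ν₁)
  obtain ⟨l, hl⟩ := EqG.affine h1 h₁ h₂ h₃ (fun h2 => hp (by rw [h2]; exact zero_mem _)) hq
  set c := x ν₁ - l • y ν₁ with hc
  have h2 : ∀ ν, ⟪x ν, ν⟫ = ⟪c, ν⟫ + l * ⟪y ν, ν⟫ := fun ν =>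
    closure_minimal (t := {ν | ⟪x ν, ν⟫ = ⟪c, ν⟫ + l * ⟪y ν, ν⟫}) (fun ν hν => by
      have : x ν = c + l • y ν := by linear_combination (norm := module) hl ν hν
      change ⟪x ν, ν⟫ = ⟪c, ν⟫ + l * ⟪y ν, ν⟫
      rw [this, inner_add_left, real_inner_smul_left])
      (isClosed_eq hC.continuous ((by fun_prop : Continuous fun ν : E n => ⟪c, ν⟫).add
        (continuous_const.mul hC'.continuous))) (hD ν)
  have hl0 : 0 < l := by
    by_contra hl0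
    obtain ⟨w, hw0, -⟩ := perp 0
    refine EqG.not_flat hK dense_univ hx hm hw0 (s := ⟪x w, w⟫) fun ν _ => ?_
    have a1 := hm w _ (hx ν)
    have a2 := hm (-w) _ (hx ν)
    have a3 := hm' w _ (hy (-w))
    have a4 := h2 w
    have a5 := h2 (-w)
    simp only [inner_neg_right] at a2 a5
    nlinarith
  have hL' : IsCompact ((fun y => c + l • y) '' L) := hL.1.image (by fun_prop)
  have hL'' : Convex ℝ ((fun y => c + l • y) '' L) := by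
    have := (hL.2.1.smul l).translate c
    rwa [← image_smul, image_image] at this
  have e : K = (fun y => c + l • y) '' L := by
    refine Subset.antisymm (EqG.subset_of_support hL' hL'' fun a ha ν => ⟨_, ⟨_, hy ν, rfl⟩, ?_⟩)
      (EqG.subset_of_support hK.1 hK.2.1 ?_)
    · rw [inner_add_left, real_inner_smul_left, ← h2]
      exact hm ν a ha
    · rintro _ ⟨a, ha, rfl⟩ ν
      refine ⟨_, hx ν, ?_⟩
      rw [inner_add_left, real_inner_smul_left, h2]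
      have := mul_le_mul_of_nonneg_left (hm' ν a ha) hl0.le
      linarith
  have e2 : α ^ n = (l * β) ^ n := by
    rw [hα', mul_pow, hβ', ← vol_smul L hl0.le, ← vol_translate (l • L) c, ← image_smul,
      image_image, ← e]
  have e3 := (pow_left_inj₀ hα.le (by positivity) (NeZero.ne n)).1 e2
  exact ⟨c, by rw [e3, mul_div_cancel_right₀ _ hβ.ne']; exact e⟩

end Vale.Agent.P237B
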