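import Vale.Agent.P237B.Core
import Vale.Agent.P237B.EqG

/-! The projection body of the unit ball of a norm lies in the zonoid of its area element; class
reduction. -/

namespace Vale.Agent.P237B

open MeasureTheory Metric Set Filter Topology
open scoped Pointwise RealInnerProductSpace

variable {n : ℕ} [NeZero n]

theorem vol_le_radial {A : Set (E n)} (hA : MeasurableSet A) {b : E n → ℝ}
    (hb : ∀ᵐ u ∂sig n, 0 < b u ∧ ∀ r : ℝ, 0 < r → r • u ∈ A → r ≤ b u)
    (hi : Integrable (fun u => b u ^ n) (sig n)) : vol A ≤ kappa n * ∫ u, b u ^ n ∂sig n := by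
  obtain ⟨m, rfl⟩ : ∃ m, n = m + 1 := ⟨n - 1, by have := NeZero.ne n; omega⟩
  have h1 : ∀ᵐ u ∂sig (m + 1), ∫⁻ r in Ioi (0 : ℝ), A.indicator 1 (r • u) *
      ENNReal.ofReal (r ^ (m + 1 - 1)) ≤ ENNReal.ofReal (b u ^ (m + 1) / (m + 1)) :=
    hb.mono fun u hu => by
      rw [← Sph2.ray hu.1, Nat.add_sub_cancel]
      refine setLIntegral_mono' measurableSet_Ioi fun r hr => mul_le_mul_left ?_ _
      by_cases h : r • u ∈ A
      · rw [indicator_of_mem h, indicator_of_mem (show r ∈ Iic (b u) from hu.2 r hr h)]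
        exact le_rfl
      · rw [indicator_of_notMem h]
        exact zero_le
  have h2 : 0 ≤ᵐ[sig (m + 1)] fun u => b u ^ (m + 1) / (m + 1) :=
    hb.mono fun u hu => div_nonneg (pow_nonneg hu.1.le _) (by positivity)
  have h3 := lintegral_mono_ae h1
  rw [← ofReal_integral_eq_lintegral_ofReal (hi.div_const _) h2] at h3
  have h4 := integral_nonneg_of_ae h2
  rw [vol, ← lintegral_indicator_one hA, polar_lintegral (measurable_one.indicator hA)]
  refine ENNReal.toReal_le_of_le_ofReal (mul_nonneg (kappa_pos _).le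
    (integral_nonneg_of_ae (hb.mono fun u hu => pow_nonneg hu.1.le _))) ?_
  refine (mul_le_mul_right h3 _).trans (le_of_eq ?_)
  rw [← ENNReal.ofReal_mul (mul_nonneg (Nat.cast_nonneg _) (kappa_pos _).le), integral_div]
  congr 1
  push_cast
  field_simp

namespace Cau

omit [NeZero n] in
theorem sub_ge {G : E n → ℝ} (hG : IsNrm G) {u : E n} (hu : DifferentiableAt ℝ G u) {r : ℝ}
    (y : E n) : r * G u - fderiv ℝ G u y ≤ G (r • u - y) := by
  have h1 := hG.fderiv_le hu (r • u - y)
  have h2 := hG.hom.euler hu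
  rw [← fderiv_eq_sum, Nat.cast_one, one_mul] at h2
  rwa [map_sub, map_smul, h2, smul_eq_mul] at h1

theorem pow_le {x c : ℝ} (hx : 0 ≤ x) (hc : x ≤ c) (k : ℕ) :
    (1 + x) ^ k ≤ 1 + k * (1 + c) ^ k * x := by
  induction k with
  | zero => simp
  | succ k ih =>
    have h1 : (1 + x) ^ k ≤ (1 + c) ^ k := pow_le_pow_left₀ (by linarith) (by linarith) k
    have h2 : (1 + c) ^ k ≤ (1 + c) ^ (k + 1) := pow_le_pow_right₀ (by linarith) (by omega)
    have h3 := mul_le_mul_of_nonneg_right (h1.trans h2) hx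
    have h4 := mul_le_mul_of_nonneg_right
      (mul_le_mul_of_nonneg_left h2 (Nat.cast_nonneg (α := ℝ) k)) hx
    rw [pow_succ (1 + x)]
    push_cast
    linarith

theorem int_d {G : E n → ℝ} (hG : IsNrm G) (w : E n) {φ : ℝ → ℝ} (hφ : Continuous φ) :
    Integrable (fun u => (G u)⁻¹ ^ n * φ (fderiv ℝ G u w)) (sig n) := by
  obtain ⟨C, hC⟩ := hG.ll.bdd
  obtain ⟨B, hB⟩ := (isCompact_closedBall (0 : ℝ) (C * ‖w‖)).exists_bound_of_continuousOn
    hφ.continuousOn
  refine Integrable.mul_bdd (c := B) (hG.integrable_comp (g := fun x => x⁻¹ ^ n)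
    ((continuousOn_id.inv₀ fun x hx => ne_of_gt hx).pow n))
    (hφ.measurable.comp (measurable_fderiv_apply_const ℝ G w)).aestronglyMeasurable
    (ae_norm.mono fun u hu => hB _ ?_)
  rw [mem_closedBall_zero_iff]
  exact (ContinuousLinearMap.le_opNorm _ _).trans
    (mul_le_mul_of_nonneg_right (hC u hu).2.1 (norm_nonneg w))

theorem hh_le_pos {G : E n → ℝ} (hG : IsNrm G) (w : E n) : hh {x | G x ≤ 1} w ≤
    n * kappa n * ∫ u, (G u)⁻¹ ^ n * max (fderiv ℝ G u w) 0 ∂sig n := by
  have hZ := hG.isBody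
  set I := ∫ u, (G u)⁻¹ ^ n * max (fderiv ℝ G u w) 0 ∂sig n with hI
  have i0 : Integrable (fun u => (G u)⁻¹ ^ n) (sig n) := by
    simpa using int_d hG w (φ := fun _ => 1) continuous_const
  have i1 := int_d hG w (φ := fun d => max d 0) (by fun_prop)
  have key : ∀ t : ℝ, 0 < t → hh {x | G x ≤ 1} w ≤ n * kappa n * I * (1 + t * G w) ^ n := by
    intro t ht
    have i2 := int_d hG w (φ := fun d => (1 + t * max d 0) ^ n) (by fun_prop)
    have h1 := vol_le_radial (isCompact_add_seg hZ.1 0 (t • w)).measurableSet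
      (b := fun u => (G u)⁻¹ * (1 + t * max (fderiv ℝ G u w) 0)) (by
        filter_upwards [ae_norm, hG.ll.ae_diff hG.hom] with u hu hd
        have hp := hG.pos_unit hu
        refine ⟨by positivity, ?_⟩
        rintro r - ⟨z, hz, y, ⟨a, s, ha, hs, has, rfl⟩, e⟩
        have e1 : z = r • u - (s * t) • w := by
          rw [← e, smul_zero, zero_add, smul_smul, add_sub_cancel_right]
        have h2 := sub_ge hG hd (r := r) ((s * t) • w)
        rw [← e1, map_smul, smul_eq_mul] at h2
        have h3 : G z ≤ 1 := hz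
        have h4 : s * t * fderiv ℝ G u w ≤ t * max (fderiv ℝ G u w) 0 :=
          (mul_le_mul_of_nonneg_left (le_max_left _ 0) (by positivity)).trans
            (mul_le_mul_of_nonneg_right (mul_le_of_le_one_left ht.le (by linarith))
              (le_max_right _ _))
        rw [le_inv_mul_iff₀ hp]
        linarith) (by simpa only [mul_pow] using i2)
    have h2 : ∫ u, ((G u)⁻¹ * (1 + t * max (fderiv ℝ G u w) 0)) ^ n ∂sig n ≤
        ∫ u, ((G u)⁻¹ ^ n + n * (1 + t * G w) ^ n * t *
          ((G u)⁻¹ ^ n * max (fderiv ℝ G u w) 0)) ∂sig n := by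
      refine integral_mono_ae (by simpa only [mul_pow] using i2) (i0.add (i1.const_mul _)) ?_
      filter_upwards [hG.ll.ae_diff hG.hom] with u hd
      have h3 := pow_le (x := t * max (fderiv ℝ G u w) 0) (c := t * G w) (by positivity)
        (mul_le_mul_of_nonneg_left (max_le (hG.fderiv_le hd w) (hG.nonneg w)) ht.le) n
      have h4 := mul_le_mul_of_nonneg_left h3 (pow_nonneg (inv_nonneg.2 (hG.nonneg u)) n)
      rw [mul_pow]
      linarith
    rw [integral_add i0 (i1.const_mul _), integral_const_mul, ← hI] at h2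
    rw [vol_add_seg hZ.1 hZ.2.1, hh_smul_arg, abs_of_pos ht, vol_le_one hG.continuous
      (fun x r hr => by rw [hG.smul, abs_of_pos hr]) hG.pos] at h1
    have h3 := mul_le_mul_of_nonneg_left h2 (kappa_pos n).le
    refine le_of_mul_le_mul_left ?_ ht
    linarith
  have h1 : Tendsto (fun t : ℝ => n * kappa n * I * (1 + t * G w) ^ n) (𝓝[>] 0)
      (𝓝 (n * kappa n * I * (1 + 0 * G w) ^ n)) :=
    tendsto_nhdsWithin_of_tendsto_nhds (Continuous.tendsto (by fun_prop) 0)
  rw [zero_mul, add_zero, one_pow, mul_one] at h1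
  exact ge_of_tendsto h1 (eventually_nhdsWithin_of_forall key)

end Cau

/-- The area element of the unit sphere of `G`, halved, in radial parametrisation. -/
noncomputable def area (G : E n → ℝ) (u : E n) : E n :=
  (n * kappa n / 2 * (G u)⁻¹ ^ n) • gradient G u

theorem integrable_area {G : E n → ℝ} (hG : IsNrm G) : Integrable (area G) (sig n) := by
  obtain ⟨c, C, hc, h⟩ := hG.bounds
  refine hG.ll.integrable_gradient.bdd_smul (n * kappa n / 2 * c⁻¹ ^ n)
    ((hG.continuous.measurable.inv.pow_const n).const_mul _).aestronglyMeasurable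
    (ae_norm.mono fun u hu => ?_)
  have h1 := (h u).1
  have := kappa_pos n
  have := hG.pos_unit hu
  rw [hu, mul_one] at h1
  change ‖n * kappa n / 2 * (G u)⁻¹ ^ n‖ ≤ _
  rw [Real.norm_of_nonneg (by positivity)]
  gcongr

theorem projBody_subset_zon {G : E n → ℝ} (hG : IsNrm G) :
    projBody {x | G x ≤ 1} ⊆ closure (Zon (sig n) (area G)) := by
  have hm := integrable_area hG
  refine EqG.subset_of_support (zon_bounded hm).isCompact_closure (zon_convex hm).closure
    fun a ha w => ?_
  have hs : Measurable fun u => sg (fderiv ℝ G u w) :=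
    measurable_sg.comp (measurable_fderiv_apply_const ℝ G w)
  refine ⟨_, subset_closure ⟨_, hs, fun u => abs_sg_le _, rfl⟩, (mem_projBody.1 ha w).trans ?_⟩
  have h1 := Cau.hh_le_pos hG w
  have h2 := Cau.hh_le_pos hG (-w)
  have h3 := hh_smul_arg {x | G x ≤ 1} (-1) w
  rw [neg_one_smul, abs_neg, abs_one, one_mul] at h3
  simp only [map_neg] at h2
  have i1 := Cau.int_d hG w (φ := fun d => max d 0) (by fun_prop)
  have i2 := Cau.int_d hG w (φ := fun d => max (-d) 0) (by fun_prop)
  rw [real_inner_comm, ← integral_inner (Zon.int_smul hm hs fun u => abs_sg_le _)]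
  have e : ∀ u, ⟪w, sg (fderiv ℝ G u w) • area G u⟫ = n * kappa n / 2 *
      ((G u)⁻¹ ^ n * max (fderiv ℝ G u w) 0 + (G u)⁻¹ ^ n * max (-fderiv ℝ G u w) 0) := fun u => by
    rw [area, real_inner_smul_right, real_inner_smul_right, real_inner_comm, inner_gradient_left]
    generalize fderiv ℝ G u w = d
    rcases lt_trichotomy d 0 with h | rfl | h
    · rw [max_eq_right h.le, max_eq_left (neg_nonneg.2 h.le), sg, if_neg h.not_gt, if_pos h]
      ring
    · simp
    · rw [max_eq_left h.le, max_eq_right (neg_nonpos.2 h.le), sg, if_pos h]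
      ring
  simp only [e]
  rw [integral_const_mul, integral_add i1 i2]
  linarith

theorem vol_add_projBody_projBody {K : Set (E n)} (hK : IsBody K) {α : ℝ} (hα : 0 < α)
    (hα' : α ^ n = vol K) :
    vol (K + projBody (projBody K)) ≤ (α + vol (projBody K) / α ^ (n - 1)) ^ n := by
  obtain ⟨G, hG, hZ⟩ := exists_nrm hK
  have hm := integrable_area hG
  have i0 : Integrable (fun u => (G u)⁻¹ ^ n) (sig n) := by
    simpa using Cau.int_d hG 0 (φ := fun _ => 1) continuous_const
  have hκ := kappa_pos n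
  have hn0 : (0 : ℝ) < n := by exact_mod_cast Nat.pos_of_ne_zero (NeZero.ne n)
  have h1 : ∫ u, hh K (area G u) ∂sig n ≤ ∫ u, n * kappa n / 2 * (G u)⁻¹ ^ n ∂sig n := by
    refine integral_mono_ae (integrable_hh hK hm) (i0.const_mul _) ?_
    filter_upwards [hG.ll.ae_diff hG.hom] with u hu
    have := hG.nonneg u
    rw [area, hh_smul_arg, abs_of_nonneg (by positivity)]
    refine mul_le_of_le_one_right (by positivity) ?_
    obtain ⟨z, hz, e⟩ := exists_support hK (gradient G u)
    rw [← e, real_inner_comm, inner_gradient_left]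
    rw [hZ] at hz
    exact (hG.fderiv_le hu z).trans hz
  rw [integral_const_mul] at h1
  have h2 := mink hK hm (M := n * vol (projBody K)) (by
    rw [hZ, vol_le_one hG.continuous (fun x r hr => by rw [hG.smul, abs_of_pos hr]) hG.pos]
    linarith) hα hα'
  rw [mul_div_mul_left _ _ hn0.ne'] at h2
  refine (vol_mono (add_subset_add_left ?_) (hK.1.add (zon_bounded hm).isCompact_closure)).trans h2
  rw [hZ]
  exact projBody_subset_zon hG

theorem IsBody.projBody {K : Set (E n)} (hK : IsBody K) : IsBody (projBody K) := by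
  obtain ⟨G, hG, e⟩ := exists_nrm hK
  rw [e]
  exact hG.isBody

/-- Class reduction with its equality case. -/
theorem class_reduction (hn : 2 ≤ n) {K : Set (E n)} (hK : IsBody K) :
    vol (projBody (projBody K)) * vol K ^ (n - 1) ≤ vol (projBody K) ^ n ∧
      (vol (projBody K) ^ n ≤ vol (projBody (projBody K)) * vol K ^ (n - 1) →
        ∃ c : E n, K = (fun y => c + (vol K / vol (projBody K)) • y) '' projBody (projBody K)) := by
  have hZ := hK.projBody
  have hL := hZ.projBody
  obtain ⟨α, hα, hα'⟩ := exists_root (n := n) hK.vol_pos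
  obtain ⟨β, hβ, hβ'⟩ := exists_root (n := n) hL.vol_pos
  have h1 := vol_add_projBody_projBody hK hα hα'
  have h2 := bm hK.1 hK.2.1 (hK.2.2.mono interior_subset) hL.1 hL.2.1
    (hL.2.2.mono interior_subset) hα.le hβ.le hα'.le hβ'.le
  have hV := hZ.vol_pos
  have hp : 0 < α ^ (n - 1) := pow_pos hα _
  have h3 := (pow_le_pow_iff_left₀ (by positivity) (by positivity) (NeZero.ne n)).1 (h2.trans h1)
  have e : vol (projBody (projBody K)) * vol K ^ (n - 1) = (β * α ^ (n - 1)) ^ n := by
    rw [← hβ', ← hα', mul_pow, ← pow_mul, ← pow_mul, mul_comm n]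
  have h4 : β * α ^ (n - 1) ≤ vol (projBody K) := by
    rw [← le_div_iff₀ hp]
    linarith
  rw [e]
  refine ⟨pow_le_pow_left₀ (by positivity) h4 n, fun h => ?_⟩
  have h5 := le_antisymm h4
    ((pow_le_pow_iff_left₀ hV.le (by positivity) (NeZero.ne n)).1 h)
  rw [← h5, mul_div_cancel_right₀ _ hp.ne'] at h1
  obtain ⟨c, hc⟩ := homothetic_of_bm_eq hn hK hL hα hβ hα' hβ' h1
  refine ⟨c, ?_⟩
  have e2 : vol K / vol (projBody K) = α / β := by
    rw [← h5, ← hα', ← mul_pow_sub_one (NeZero.ne n) α, mul_div_mul_right _ _ hp.ne']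
  rw [e2]
  exact hc

end Vale.Agent.P237B
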