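import Vale.Agent.P237B.Sph

/-! The constant `s1 n = E |⟪u, v⟫|` and the volume of `{G ≤ 1}` in polar coordinates.

PLAN.
* integral_abs_inner: `polar` with A x = |⟪x, v⟫| * exp (-‖x‖^2), ρ r = r * exp (-r^2).
  Radial part: ∫ r in Ioi 0, r^n exp (-r^2) = Γ((n+1)/2)/2 (`integral_rpow_mul_exp_neg_rpow`).
  ∫ A = 1 * π^((n-1)/2): `Submodule.measurePreserving_measurableEquivProd (ℝ ∙ v) 0`
  (with `InnerProductSpace.euclideanHausdorffMeasure_eq_volume`), `integral_prod_mul`,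
  `volume_eq_of_finrank_eq_one` on the line, ∫ |t| exp (-t^2) = 1 (`integral_comp_abs`),
  `GaussianFourier.integral_rexp_neg_mul_sq_norm` on (ℝ ∙ v)ᗮ (finrank n - 1).
  kappa (n-1) = √π^(n-1) / Γ((n-1)/2+1) (`EuclideanSpace.volume_closedBall`).
* vol_le_one: `polar_lintegral` for the indicator of {G ≤ 1}; for a unit u the radial integral is
  ∫ r in Ioc 0 (G u)⁻¹, r^(n-1) = (G u)⁻¹^n / n; then `ofReal_integral_eq_lintegral_ofReal`
  (`integrable_of_contOn`). -/

namespace Vale.Agent.P237B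

open MeasureTheory Metric Set
open scoped RealInnerProductSpace

/-- The mean of `|⟪u, v⟫|` over the sphere. -/
noncomputable def s1 (n : ℕ) : ℝ := 2 * kappa (n - 1) / (n * kappa n)

namespace Sph2

theorem radial (k : ℕ) : ∫ r in Ioi (0 : ℝ), r ^ k * Real.exp (-r ^ 2) =
    1 / 2 * Real.Gamma ((k + 1) / 2) := by
  have h := integral_rpow_mul_exp_neg_rpow (p := 2) (q := k) two_pos
    (lt_of_lt_of_le (by norm_num) (Nat.cast_nonneg k))
  simpa only [Real.rpow_natCast, Real.rpow_two] using h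

theorem abs_gauss : ∫ t : ℝ, |t| * Real.exp (-t ^ 2) = 1 := by
  have h := integral_comp_abs (f := fun t => t ^ 1 * Real.exp (-t ^ 2))
  rw [radial] at h
  simp only [pow_one, sq_abs] at h
  rw [h]
  norm_num

theorem gauss : ∫ t : ℝ, Real.exp (-t ^ 2) = √Real.pi := by
  simpa using integral_gaussian 1

theorem kappa_eq {m : ℕ} (hm : 0 < m) : kappa m = √Real.pi ^ m / Real.Gamma (m / 2 + 1) := by
  have : Nonempty (Fin m) := ⟨⟨0, hm⟩⟩
  rw [kappa, vol, EuclideanSpace.volume_closedBall, ENNReal.ofReal_one, one_pow, one_mul,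
    Fintype.card_fin, ENNReal.toReal_ofReal (by positivity)]

theorem coord (m : ℕ) : ∫ x : E (m + 1), |x 0| * Real.exp (-‖x‖ ^ 2) = √Real.pi ^ m := by
  rw [← (PiLp.volume_preserving_toLp (Fin (m + 1))).integral_comp
    (MeasurableEquiv.toLp 2 _).measurableEmbedding]
  have h := integral_fintype_prod_volume_eq_prod (E := fun _ : Fin (m + 1) => ℝ)
    (Fin.cons (fun t : ℝ => |t| * Real.exp (-t ^ 2)) fun _ t => Real.exp (-t ^ 2))
  simp only [Fin.prod_univ_succ, Fin.cons_zero, Fin.cons_succ, abs_gauss, gauss, Finset.prod_const,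
    Finset.card_univ, Fintype.card_fin, one_mul] at h
  rw [← h]
  refine integral_congr_ae (ae_of_all _ fun x => ?_)
  simp only [EuclideanSpace.real_norm_sq_eq, Fin.sum_univ_succ, neg_add, Real.exp_add,
    ← Finset.sum_neg_distrib, Real.exp_sum, mul_assoc]

theorem ray {c : ℝ} (hc : 0 < c) (m : ℕ) :
    ∫⁻ r in Ioi (0 : ℝ), (Iic c).indicator 1 r * ENNReal.ofReal (r ^ m) =
      ENNReal.ofReal (c ^ (m + 1) / (m + 1)) := by
  have h1 : ∀ r : ℝ, (Iic c).indicator 1 r * ENNReal.ofReal (r ^ m) =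
      (Iic c).indicator (fun r => ENNReal.ofReal (r ^ m)) r := fun r => by
    by_cases h : r ∈ Iic c <;> simp [h]
  simp only [h1]
  rw [lintegral_indicator measurableSet_Iic, Measure.restrict_restrict measurableSet_Iic,
    Iic_inter_Ioi, ← ofReal_integral_eq_lintegral_ofReal
      ((continuous_pow m).integrableOn_Icc.mono_set Ioc_subset_Icc_self)
      ((ae_restrict_mem measurableSet_Ioc).mono fun r hr => pow_nonneg hr.1.le m),
    ← intervalIntegral.integral_of_le hc.le, integral_pow]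
  simp

end Sph2

variable {n : ℕ} [NeZero n]

theorem s1_pos : 0 < s1 n := by
  exact div_pos (mul_pos two_pos (kappa_pos _)) Sph.nk_pos

theorem integral_abs_inner (hn : 2 ≤ n) {v : E n} (hv : ‖v‖ = 1) :
    ∫ u, |⟪u, v⟫| ∂sig n = s1 n := by
  obtain ⟨m, rfl⟩ : ∃ m, n = m + 1 := ⟨n - 1, by omega⟩
  obtain ⟨b, hb⟩ := Orthonormal.exists_orthonormalBasis_extension_of_card_eq (𝕜 := ℝ)
    (E := E (m + 1)) (ι := Fin (m + 1)) (by simp) (v := fun _ => v) (s := {0})
    ⟨fun _ => hv, fun i j h => absurd (Subsingleton.elim i j) h⟩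
  have h1 : ∫ u, |⟪u, v⟫| ∂sig (m + 1) = ∫ u, |u 0| ∂sig (m + 1) := by
    rw [← (sig_iso b.repr).integral_comp b.repr.toHomeomorph.measurableEmbedding fun u => |u 0|]
    simp only [b.repr_apply_apply, hb 0 rfl, real_inner_comm]
  have h2 := polar (n := m + 1) (A := fun x => |x 0| * Real.exp (-‖x‖ ^ 2)) (a := fun u => |u 0|)
    (ρ := fun r => r * Real.exp (-r ^ 2)) (ae_norm.mono fun u hu r hr => by
      simp only [norm_smul, hu, PiLp.smul_apply, smul_eq_mul, abs_mul, Real.norm_eq_abs,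
        abs_of_pos hr, mul_one]
      ring)
  have h3 : ∫ r in Ioi (0 : ℝ), r * Real.exp (-r ^ 2) * r ^ (m + 1 - 1) =
      1 / 2 * Real.Gamma (m / 2 + 1) := by
    rw [show (m : ℝ) / 2 + 1 = (((m + 1 : ℕ) : ℝ) + 1) / 2 by push_cast; ring, ← Sph2.radial]
    refine integral_congr_ae (ae_of_all _ fun r => ?_)
    simp only [Nat.add_sub_cancel]
    ring
  rw [Sph2.coord, h3] at h2
  have h4 : 0 < Real.Gamma (m / 2 + 1) := by positivity
  have h5 := kappa_pos (m + 1)
  rw [h1, s1, Nat.add_sub_cancel, Sph2.kappa_eq (m := m) (by omega), h2]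
  field_simp

theorem vol_le_one {G : E n → ℝ} (hc : Continuous G)
    (hom : ∀ (x : E n) (r : ℝ), 0 < r → G (r • x) = r * G x) (hp : ∀ x, x ≠ 0 → 0 < G x) :
    vol {x | G x ≤ 1} = kappa n * ∫ u, (G u)⁻¹ ^ n ∂sig n := by
  obtain ⟨m, rfl⟩ : ∃ m, n = m + 1 := ⟨n - 1, by have := NeZero.ne n; omega⟩
  have hm : MeasurableSet {x | G x ≤ 1} := (isClosed_le hc continuous_const).measurableSet
  have hu : ∀ᵐ u ∂sig (m + 1), 0 < G u := ae_norm.mono fun u hu => hp u fun h => by simp [h] at hu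
  have hi : Integrable (fun u => (G u)⁻¹ ^ (m + 1) / (m + 1)) (sig (m + 1)) :=
    (integrable_of_contOn ((hc.continuousOn.inv₀ fun x hx => (hp x hx).ne').pow _)).div_const _
  have h1 : ∀ᵐ u ∂sig (m + 1), ∫⁻ r in Ioi (0 : ℝ), {x | G x ≤ 1}.indicator 1 (r • u) *
      ENNReal.ofReal (r ^ (m + 1 - 1)) = ENNReal.ofReal ((G u)⁻¹ ^ (m + 1) / (m + 1)) :=
    hu.mono fun u hu => by
      rw [← Sph2.ray (inv_pos.2 hu), Nat.add_sub_cancel]
      refine setLIntegral_congr_fun measurableSet_Ioi fun r hr => ?_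
      have e : r • u ∈ {x | G x ≤ 1} ↔ r ∈ Iic (G u)⁻¹ := by
        change G (r • u) ≤ 1 ↔ r ≤ (G u)⁻¹
        rw [hom u r hr, ← one_div, le_div_iff₀ hu]
      by_cases h : r ∈ Iic (G u)⁻¹
      · simp only [indicator_of_mem h, indicator_of_mem (e.2 h), Pi.one_apply]
      · simp only [indicator_of_notMem h, indicator_of_notMem (mt e.1 h)]
  have h2 : 0 ≤ᵐ[sig (m + 1)] fun u => (G u)⁻¹ ^ (m + 1) / (m + 1) :=
    hu.mono fun u hu => by positivity
  rw [vol, ← lintegral_indicator_one hm, polar_lintegral (measurable_one.indicator hm),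
    lintegral_congr_ae h1, ← ofReal_integral_eq_lintegral_ofReal hi h2, ENNReal.toReal_mul,
    ENNReal.toReal_ofReal Sph.nk_pos.le, ENNReal.toReal_ofReal (integral_nonneg_of_ae h2),
    integral_div]
  push_cast
  field_simp

end Vale.Agent.P237B
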