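import Vale.Agent.P237B.IBP
import Vale.Agent.P237B.Sph2

/-! Norms on `E n` given as functions, gauges of symmetric convex sets.

PLAN.
* bounds: G x ≤ ∑ |x i| G (e i) ≤ C ‖x‖, hence Lipschitz (|G x - G y| ≤ G (x - y)); lower bound by
  compactness of the sphere (`IsCompact.exists_isMinOn`; the sphere is nonempty as n ≠ 0).
* fderiv_le: (G (u + t x) - G u) / t ≤ G x for t > 0, `HasLineDerivAt.tendsto_slope_zero_right`.
* isNrm_gauge: `gauge_add_le`, `gauge_smul_of_nonneg`, `gauge_neg`, `absorbent_nhds_zero`,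
  `le_gauge_of_subset_closedBall`, `gauge_le_one_iff_mem_closure`.
* normalize: r = (∫ (G u)⁻¹^n)^(1/n); the integral is positive
  (G ≤ C on the sphere, `integral_mono_ae`, `ae_norm`); `vol_le_one`.
* mean_ge / eq_norm: for x > 0 and q ≥ 1,
  x^q - x^(q-1) + (x⁻¹^n - 1)/n ≥ (1-x)^2/x: x^(q-1) (x-1) ≥ x - 1 and Bernoulli
  x⁻¹^n ≥ 1 + n (x⁻¹ - 1).  Integrate; in eq_norm the integral of (1-G)^2/G vanishes
  (`integral_eq_zero_iff_of_nonneg_ae`), then `eq_of_ae_sig` and homogeneity.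
* inv_pow_le: x⁻¹^m ≤ 1 + (m/n) (x⁻¹^n - 1) for m ≤ n (Bernoulli with real exponent
  `Real.rpow_one_add_le_one_add_mul_self`, or `Real.geom_mean_le_arith_mean2_weighted`). -/

namespace Vale.Agent.P237B

open MeasureTheory Metric Set Filter Topology
open scoped RealInnerProductSpace NNReal

variable {n : ℕ}

/-- `G` is a norm. -/
structure IsNrm (G : E n → ℝ) : Prop where
  add_le : ∀ x y, G (x + y) ≤ G x + G y
  smul : ∀ (t : ℝ) (x : E n), G (t • x) = |t| * G x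
  pos : ∀ x, x ≠ 0 → 0 < G x

namespace Nrm

theorem key {x : ℝ} (hx : 0 < x) {n q : ℕ} (hn : 0 < n) (hq : 1 ≤ q) :
    (1 - x) ^ 2 / x ≤ x ^ q - x ^ (q - 1) + (x⁻¹ ^ n - 1) / n := by
  obtain ⟨k, rfl⟩ : ∃ k, q = k + 1 := ⟨q - 1, by omega⟩
  have h1 : x - 1 ≤ x ^ (k + 1) - x ^ (k + 1 - 1) := by
    rw [Nat.add_sub_cancel, pow_succ]
    rcases le_total x 1 with h | h
    · nlinarith [pow_le_one₀ hx.le h (n := k)]
    · nlinarith [one_le_pow₀ h (n := k)]
  have h2 : x⁻¹ - 1 ≤ (x⁻¹ ^ n - 1) / n := by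
    have := one_add_mul_sub_le_pow (a := x⁻¹) (by have := inv_pos.2 hx; linarith) n
    rw [le_div_iff₀ (by exact_mod_cast hn)]
    linarith
  have h3 : (1 - x) ^ 2 / x = x - 1 + (x⁻¹ - 1) := by
    field_simp
    ring
  linarith

theorem pow_le {y : ℝ} (hy : 0 ≤ y) {m n : ℕ} (hn : 0 < n) (hm : m ≤ n) :
    y ^ m ≤ 1 + m / n * (y ^ n - 1) := by
  have hn' : (0 : ℝ) < n := by exact_mod_cast hn
  have h := Real.geom_mean_le_arith_mean2_weighted (w₁ := m / n) (w₂ := 1 - m / n) (p₁ := y ^ n)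
    (p₂ := 1) (by positivity) (sub_nonneg.2 ((div_le_one hn').2 (by exact_mod_cast hm)))
    (by positivity) zero_le_one (by ring)
  rw [Real.one_rpow, mul_one, ← Real.rpow_natCast, ← Real.rpow_mul hy, mul_div_cancel₀ _ hn'.ne',
    Real.rpow_natCast, Real.rpow_natCast] at h
  linarith

theorem cinv (k : ℕ) : ContinuousOn (fun t : ℝ => t⁻¹ ^ k) (Ioi 0) :=
  (continuousOn_id.inv₀ fun _ ht => ne_of_gt ht).pow k

theorem cpow (k : ℕ) : ContinuousOn (fun t : ℝ => t ^ k) (Ioi 0) := (continuous_pow k).continuousOn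

theorem int_pos [NeZero n] {f : E n → ℝ} (hi : Integrable f (sig n))
    (hp : ∀ u, ‖u‖ = 1 → 0 < f u) : 0 < ∫ u, f u ∂sig n := by
  have h0 : ∀ᵐ u ∂sig n, 0 < f u := ae_norm.mono hp
  refine (integral_nonneg_of_ae (h0.mono fun _ h => h.le)).lt_of_ne fun h => ?_
  have h1 := (integral_eq_zero_iff_of_nonneg_ae (h0.mono fun _ h => h.le) hi).1 h.symm
  obtain ⟨u, h2, h3⟩ := (h0.and h1).exists
  exact h2.ne' h3

end Nrm

namespace IsNrm

variable {G : E n → ℝ}

theorem zero (h : IsNrm G) : G 0 = 0 := by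
  simpa using h.smul 0 0

theorem nonneg (h : IsNrm G) (x : E n) : 0 ≤ G x := by
  by_cases e : x = 0
  · rw [e, h.zero]
  · exact (h.pos x e).le

theorem neg (h : IsNrm G) (x : E n) : G (-x) = G x := by
  simpa using h.smul (-1) x

theorem pos_unit (h : IsNrm G) {u : E n} (hu : ‖u‖ = 1) : 0 < G u := by
  exact h.pos u fun e => by simp [e] at hu

theorem hom (h : IsNrm G) : Hom 1 G := by
  intro x r hr
  rw [h.smul, abs_of_pos hr, pow_one]

theorem hom_pow (h : IsNrm G) (q : ℕ) : Hom q fun x => G x ^ q := by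
  intro x r hr
  simp only [h.smul, abs_of_pos hr, mul_pow]

theorem lipschitz (h : IsNrm G) : ∃ C : ℝ≥0, LipschitzWith C G := by
  obtain ⟨C, hC⟩ : ∃ C : ℝ, C = ∑ i, G (EuclideanSpace.single i 1) := ⟨_, rfl⟩
  have h0 : 0 ≤ C := hC ▸ Finset.sum_nonneg fun i _ => h.nonneg _
  have h1 : ∀ x, G x ≤ C * ‖x‖ := fun x => by
    have h2 := Finset.le_sum_of_subadditive G h.zero.le h.add_le Finset.univ
      fun i => x i • EuclideanSpace.basisFun (Fin n) ℝ i
    have h3 : ∑ i, x i • EuclideanSpace.basisFun (Fin n) ℝ i = x :=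
      (EuclideanSpace.basisFun (Fin n) ℝ).sum_repr x
    rw [h3] at h2
    rw [hC, Finset.sum_mul]
    refine h2.trans (Finset.sum_le_sum fun i _ => ?_)
    rw [h.smul, EuclideanSpace.basisFun_apply, mul_comm]
    exact mul_le_mul_of_nonneg_left (PiLp.norm_apply_le x i) (h.nonneg _)
  refine ⟨⟨C, h0⟩, LipschitzWith.of_le_add_mul _ fun x y => ?_⟩
  have h2 := h.add_le y (x - y)
  rw [add_sub_cancel] at h2
  rw [dist_eq_norm]
  exact h2.trans (add_le_add_right (h1 _) _)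

theorem continuous (h : IsNrm G) : Continuous G := by
  obtain ⟨C, hC⟩ := h.lipschitz
  exact hC.continuous

theorem ll (h : IsNrm G) : LL G := by
  obtain ⟨C, hC⟩ := h.lipschitz
  exact LL.of_lipschitz hC

theorem ll_pow (h : IsNrm G) (q : ℕ) : LL fun x => G x ^ q := by
  exact h.ll.comp (g := fun t => t ^ q) fun _ _ => (contDiff_id.pow q).contDiffAt

theorem convexOn (h : IsNrm G) : ConvexOn ℝ univ G := by
  refine ⟨convex_univ, fun x _ y _ a b ha hb _ => (h.add_le _ _).trans_eq ?_⟩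
  rw [h.smul, h.smul, abs_of_nonneg ha, abs_of_nonneg hb, smul_eq_mul, smul_eq_mul]

theorem bounds [NeZero n] (h : IsNrm G) :
    ∃ c C : ℝ, 0 < c ∧ ∀ x, c * ‖x‖ ≤ G x ∧ G x ≤ C * ‖x‖ := by
  obtain ⟨C, hC⟩ := h.lipschitz
  obtain ⟨u, hu, hm⟩ := (isCompact_sphere (0 : E n) 1).exists_isMinOn
    ⟨EuclideanSpace.single 0 1, by simp⟩ h.continuous.continuousOn
  refine ⟨G u, C, h.pos_unit (mem_sphere_zero_iff_norm.1 hu), fun x => ⟨?_, ?_⟩⟩
  · by_cases e : x = 0
    · simp [e, h.zero]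
    have h1 : 0 < ‖x‖ := norm_pos_iff.2 e
    have h2 : G u ≤ G (‖x‖⁻¹ • x) := hm (mem_sphere_zero_iff_norm.2 (norm_smul_inv_norm e))
    rwa [h.smul, abs_of_pos (inv_pos.2 h1), ← div_eq_inv_mul, le_div_iff₀ h1] at h2
  · have h1 := hC.le_add_mul x 0
    rwa [h.zero, zero_add, dist_zero_right] at h1

theorem fderiv_le (h : IsNrm G) {u : E n} (hu : DifferentiableAt ℝ G u) (x : E n) :
    fderiv ℝ G u x ≤ G x := by
  refine le_of_tendsto (hu.hasFDerivAt.hasLineDerivAt x).tendsto_slope_zero_right ?_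
  filter_upwards [self_mem_nhdsWithin] with t ht
  have h1 := h.add_le u (t • x)
  have ht' : 0 < t := ht
  rw [h.smul, abs_of_pos ht'] at h1
  rw [smul_eq_mul, inv_mul_le_iff₀ ht']
  linarith

theorem inner_gradient_pow_le (h : IsNrm G) {u : E n} (hu : DifferentiableAt ℝ G u) (q : ℕ)
    (x : E n) : ⟪gradient (fun y => G y ^ q) u, x⟫ ≤ q * G u ^ (q - 1) * G x := by
  rw [inner_gradient_left, (hu.hasFDerivAt.pow q).fderiv, smul_apply,
    smul_eq_mul, nsmul_eq_mul]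
  exact mul_le_mul_of_nonneg_left (h.fderiv_le hu x)
    (mul_nonneg (Nat.cast_nonneg _) (pow_nonneg (h.nonneg u) _))

theorem const_mul (h : IsNrm G) {c : ℝ} (hc : 0 < c) : IsNrm fun x => c * G x := by
  refine ⟨fun x y => ?_, fun t x => ?_, fun x hx => mul_pos hc (h.pos x hx)⟩
  · rw [← mul_add]
    exact mul_le_mul_of_nonneg_left (h.add_le x y) hc.le
  · rw [h.smul]
    ring

theorem comp (h : IsNrm G) (S : E n ≃ₗ[ℝ] E n) : IsNrm fun x => G (S x) := by
  refine ⟨fun x y => ?_, fun t x => ?_, fun x hx => h.pos _ (S.map_ne_zero_iff.2 hx)⟩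
  · rw [map_add]
    exact h.add_le _ _
  · rw [map_smul, h.smul]

theorem isBody [NeZero n] (h : IsNrm G) : IsBody {x | G x ≤ 1} := by
  obtain ⟨c, C, hc, hb⟩ := h.bounds
  refine ⟨(isCompact_closedBall (0 : E n) (1 / c)).of_isClosed_subset
    (isClosed_le h.continuous continuous_const) fun x hx => ?_, ?_, 0, ?_⟩
  · rw [mem_closedBall_zero_iff, le_div_iff₀' hc]
    exact (hb x).1.trans hx
  · simpa using h.convexOn.convex_le 1
  · refine interior_maximal (t := {x | G x < 1}) (fun x (hx : G x < 1) => hx.le)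
      (isOpen_lt h.continuous continuous_const) ?_
    change G 0 < 1
    rw [h.zero]
    exact one_pos

/-- Integrability of any continuous function of `G` on the sphere. -/
theorem memLp_comp [NeZero n] (h : IsNrm G) {g : ℝ → ℝ} (hg : ContinuousOn g (Ioi 0))
    (p : ENNReal) : MemLp (fun u => g (G u)) p (sig n) := by
  exact memLp_of_contOn (hg.comp h.continuous.continuousOn fun x hx => h.pos x hx) p

theorem integrable_comp [NeZero n] (h : IsNrm G) {g : ℝ → ℝ} (hg : ContinuousOn g (Ioi 0)) :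
    Integrable (fun u => g (G u)) (sig n) :=
  memLp_one_iff_integrable.1 (h.memLp_comp hg 1)

theorem integral_pow_pos [NeZero n] (h : IsNrm G) (q : ℕ) : 0 < ∫ u, G u ^ q ∂sig n := by
  exact Nrm.int_pos (h.integrable_comp (Nrm.cpow q)) fun u hu => pow_pos (h.pos_unit hu) q

theorem normalize [NeZero n] (h : IsNrm G) : ∃ r : ℝ, 0 < r ∧
    ∫ u, (r * G u)⁻¹ ^ n ∂sig n = 1 ∧ vol {x | G x ≤ 1} = kappa n * r ^ n := by
  have h1 : 0 < ∫ u, (G u)⁻¹ ^ n ∂sig n := Nrm.int_pos (h.integrable_comp (Nrm.cinv n))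
    fun u hu => pow_pos (inv_pos.2 (h.pos_unit hu)) n
  have h2 := Real.rpow_inv_natCast_pow h1.le (NeZero.ne n)
  refine ⟨_, Real.rpow_pos_of_pos h1 (n : ℝ)⁻¹, ?_, ?_⟩
  · simp only [mul_inv, mul_pow]
    rw [integral_const_mul, inv_pow, h2, inv_mul_cancel₀ h1.ne']
  · rw [h2]
    exact vol_le_one h.continuous (fun x r hr => by rw [h.smul, abs_of_pos hr]) h.pos

theorem key_int [NeZero n] (h : IsNrm G) (h1 : ∫ u, (G u)⁻¹ ^ n ∂sig n = 1) {q : ℕ}
    (hq : 1 ≤ q) : Integrable (fun u => (1 - G u) ^ 2 / G u) (sig n) ∧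
      ∫ u, (1 - G u) ^ 2 / G u ∂sig n ≤ ∫ u, G u ^ q ∂sig n - ∫ u, G u ^ (q - 1) ∂sig n := by
  have i0 := h.integrable_comp (g := fun t => (1 - t) ^ 2 / t)
    (((continuous_const.sub continuous_id).pow 2).continuousOn.div continuousOn_id
      fun _ ht => ne_of_gt ht)
  have i1 := h.integrable_comp (Nrm.cpow q)
  have i2 := h.integrable_comp (Nrm.cpow (q - 1))
  have i3 := h.integrable_comp (Nrm.cinv n)
  have i4 : Integrable (fun u => G u ^ q - G u ^ (q - 1)) (sig n) := i1.sub i2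
  have i5 : Integrable (fun u => ((G u)⁻¹ ^ n - 1) / n) (sig n) :=
    (i3.sub (integrable_const 1)).div_const _
  refine ⟨i0, (integral_mono_ae i0 (i4.add i5) (ae_norm.mono fun u hu =>
    Nrm.key (h.pos_unit hu) (Nat.pos_of_ne_zero (NeZero.ne n)) hq)).trans_eq ?_⟩
  rw [integral_add' i4 i5, integral_sub i1 i2, integral_div, integral_sub i3 (integrable_const 1), h1]
  simp

theorem mean_ge [NeZero n] (h : IsNrm G) (h1 : ∫ u, (G u)⁻¹ ^ n ∂sig n = 1) {q : ℕ}
    (hq : 1 ≤ q) : ∫ u, G u ^ (q - 1) ∂sig n ≤ ∫ u, G u ^ q ∂sig n := by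
  have h2 : 0 ≤ ∫ u, (1 - G u) ^ 2 / G u ∂sig n :=
    integral_nonneg fun u => div_nonneg (sq_nonneg _) (h.nonneg u)
  linarith [(h.key_int h1 hq).2]

theorem eq_norm [NeZero n] (h : IsNrm G) (h1 : ∫ u, (G u)⁻¹ ^ n ∂sig n = 1) {q : ℕ}
    (hq : 1 ≤ q) (he : ∫ u, G u ^ q ∂sig n ≤ ∫ u, G u ^ (q - 1) ∂sig n) (x : E n) :
    G x = ‖x‖ := by
  obtain ⟨i0, h2⟩ := h.key_int h1 hq
  have h0 : ∀ u, 0 ≤ (1 - G u) ^ 2 / G u := fun u => div_nonneg (sq_nonneg _) (h.nonneg u)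
  have h3 := (integral_eq_zero_iff_of_nonneg h0 i0).1
    (le_antisymm (by linarith) (integral_nonneg h0))
  have h4 : ∀ᵐ u ∂sig n, G u = 1 := by
    filter_upwards [h3, ae_norm] with u e hu
    rcases div_eq_zero_iff.1 e with e | e
    · linarith [pow_eq_zero_iff two_ne_zero |>.1 e]
    · exact absurd e (h.pos_unit hu).ne'
  by_cases e : x = 0
  · rw [e, h.zero, norm_zero]
  have h5 : 0 < ‖x‖ := norm_pos_iff.2 e
  have h6 : G (‖x‖⁻¹ • x) = 1 := eq_of_ae_sig (g := fun _ => 1) h.continuous.continuousOn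
    continuousOn_const h4 (norm_smul_inv_norm e)
  rwa [h.smul, abs_of_pos (inv_pos.2 h5), inv_mul_eq_one₀ h5.ne', eq_comm] at h6

theorem inv_pow_le [NeZero n] (h : IsNrm G) (h1 : ∫ u, (G u)⁻¹ ^ n ∂sig n = 1) {m : ℕ}
    (hm : m ≤ n) : ∫ u, (G u)⁻¹ ^ m ∂sig n ≤ 1 := by
  have i1 := h.integrable_comp (Nrm.cinv m)
  have i2 := h.integrable_comp (Nrm.cinv n)
  have i3 : Integrable (fun u => (m / n : ℝ) * ((G u)⁻¹ ^ n - 1)) (sig n) :=
    (i2.sub (integrable_const 1)).const_mul _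
  refine (integral_mono i1 ((integrable_const 1).add i3) fun u =>
    Nrm.pow_le (inv_nonneg.2 (h.nonneg u)) (Nat.pos_of_ne_zero (NeZero.ne n)) hm).trans_eq ?_
  rw [integral_add' (integrable_const 1) i3, integral_const_mul,
    integral_sub i2 (integrable_const 1), h1]
  simp

end IsNrm

theorem isNrm_gauge {L : Set (E n)} (hc : Convex ℝ L) (hs : ∀ x ∈ L, -x ∈ L)
    (hb : Bornology.IsBounded L) (h0 : L ∈ 𝓝 (0 : E n)) :
    IsNrm (gauge L) ∧ {x | gauge L x ≤ 1} = closure L := by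
  have ha := absorbent_nhds_zero (𝕜 := ℝ) h0
  refine ⟨⟨gauge_add_le hc ha, fun t x => ?_, fun x hx => ?_⟩,
    Set.ext fun x => gauge_le_one_iff_mem_closure hc h0⟩
  · rcases le_total 0 t with ht | ht
    · rw [gauge_smul_of_nonneg ht, abs_of_nonneg ht, smul_eq_mul]
    · rw [← gauge_neg hs, ← neg_smul, gauge_smul_of_nonneg (neg_nonneg.2 ht), abs_of_nonpos ht,
        smul_eq_mul]
  · obtain ⟨r, hr, h⟩ := hb.subset_closedBall_lt 0 0
    exact (div_pos (norm_pos_iff.2 hx) hr).trans_le (le_gauge_of_subset_closedBall ha hr.le h)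

end Vale.Agent.P237B
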