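import Vale.Agent.P237B.Sub
import Vale.Agent.P237B.Nrm

/-! The projection body: basic shape, affine covariance, ellipsoids.

PLAN.
* exists_nrm: projBody K is closed, convex, symmetric (`hh_smul_arg` with t = -1), contains the
  ball of radius c and lies in the ball of radius C (`hh_bounds`, `mem_projBody` with a = x);
  `isNrm_gauge`, `IsClosed.closure_eq`.
* mem_projBody_lin: `mem_projBody`, `hh_lin`, T surjective, `LinearMap.adjoint_inner_left`.
* vol_projBody_lin: projBody (T K) is the preimage of projBody K under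
  A = |det T|⁻¹ • adjoint T; `Measure.addHaar_preimage_linearMap`, det A = |det T|⁻¹^n * det T
  (`LinearMap.det_smul`; det of the adjoint: `LinearMap.det_toMatrix` with the orthonormal basis
  `EuclideanSpace.basisFun`, `LinearMap.toMatrix_adjoint`, `Matrix.det_conjTranspose`).
* exists_adjoint: the adjoint of an equivalence is injective, hence an equivalence
  (`LinearEquiv.ofInjectiveEndo`), `LinearMap.adjoint_adjoint`.
* projBody of the unit ball is closedBall 0 (kappa (n-1)) (`hh_ball`); `vol_closedBall`;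
  ellipsoids by translation and `vol_projBody_lin`, `vol_lin`. -/

namespace Vale.Agent.P237B

open MeasureTheory Metric Set Filter Topology
open scoped Pointwise RealInnerProductSpace

variable {n : ℕ} [NeZero n] {K : Set (E n)}

namespace Cov

omit [NeZero n] in
theorem det_adjoint (T : E n →ₗ[ℝ] E n) :
    LinearMap.det (LinearMap.adjoint T) = LinearMap.det T := by
  have b := EuclideanSpace.basisFun (Fin n) ℝ
  rw [← LinearMap.det_toMatrix b.toBasis, LinearMap.toMatrix_adjoint, Matrix.det_conjTranspose,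
    LinearMap.det_toMatrix, star_trivial]

omit [NeZero n] in
theorem det_ne (T : E n ≃ₗ[ℝ] E n) : LinearMap.det (T : E n →ₗ[ℝ] E n) ≠ 0 :=
  (LinearEquiv.isUnit_det' T).ne_zero

theorem isBody_ball : IsBody (closedBall (0 : E n) 1) :=
  ⟨isCompact_closedBall _ _, convex_closedBall _ _,
    ⟨0, mem_interior_iff_mem_nhds.2 (closedBall_mem_nhds _ one_pos)⟩⟩

theorem projBody_ball : projBody (closedBall (0 : E n) 1) = closedBall 0 (kappa (n - 1)) := by
  ext x
  simp only [mem_projBody, hh_ball _ one_pos, one_pow, one_mul, mem_closedBall_zero_iff]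
  constructor
  · intro h
    have h1 := h x
    rw [real_inner_self_eq_norm_sq] at h1
    by_contra h2
    nlinarith [kappa_pos (n - 1)]
  · intro h a
    exact (real_inner_le_norm x a).trans (mul_le_mul_of_nonneg_right h (norm_nonneg a))

end Cov

theorem exists_nrm (hK : IsBody K) : ∃ G : E n → ℝ, IsNrm G ∧ projBody K = {x | G x ≤ 1} := by
  obtain ⟨c, C, hc, hb⟩ := hh_bounds hK
  have e : projBody K = ⋂ a, {x | ⟪x, a⟫ ≤ hh K a} := by
    ext x
    simp only [mem_projBody, mem_iInter, mem_ofPred_eq]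
  have h1 : IsClosed (projBody K) := by
    rw [e]
    exact isClosed_iInter fun a => isClosed_le (by fun_prop) continuous_const
  have h2 : Convex ℝ (projBody K) := by
    intro x hx y hy s t hs ht hst
    rw [mem_projBody] at hx hy ⊢
    intro a
    rw [inner_add_left, real_inner_smul_left, real_inner_smul_left]
    have h3 := mul_le_mul_of_nonneg_left (hx a) hs
    have h4 := mul_le_mul_of_nonneg_left (hy a) ht
    have h5 : s * hh K a + t * hh K a = hh K a := by rw [← add_mul, hst, one_mul]
    linarith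
  have h3 : ∀ x ∈ projBody K, -x ∈ projBody K := by
    intro x hx
    rw [mem_projBody] at hx ⊢
    intro a
    have h4 := hx ((-1 : ℝ) • a)
    rw [hh_smul_arg, neg_one_smul, inner_neg_right] at h4
    simpa using h4
  have h4 : Bornology.IsBounded (projBody K) := by
    refine (isBounded_closedBall (x := (0 : E n)) (r := |C|)).subset fun x hx => ?_
    have h5 := (mem_projBody.1 hx x).trans (hb x).2
    rw [real_inner_self_eq_norm_sq] at h5
    rw [mem_closedBall_zero_iff]
    by_contra h6
    nlinarith [le_abs_self C, abs_nonneg C]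
  have h5 : projBody K ∈ 𝓝 (0 : E n) := by
    refine mem_of_superset (closedBall_mem_nhds 0 hc) fun x hx => mem_projBody.2 fun a => ?_
    exact (real_inner_le_norm x a).trans ((mul_le_mul_of_nonneg_right
      (mem_closedBall_zero_iff.1 hx) (norm_nonneg a)).trans (hb a).1)
  obtain ⟨h6, h7⟩ := isNrm_gauge h2 h3 h4 h5
  exact ⟨_, h6, by rw [h7, h1.closure_eq]⟩

theorem IsBody.lin (hK : IsBody K) (T : E n ≃ₗ[ℝ] E n) : IsBody (T '' K) := by
  refine ⟨hK.1.image T.toContinuousLinearEquiv.continuous,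
    hK.2.1.linear_image (T : E n →ₗ[ℝ] E n), ?_⟩
  have h := T.toContinuousLinearEquiv.toHomeomorph.image_interior K
  exact h ▸ hK.2.2.image _

theorem mem_projBody_lin (hK : IsBody K) (T : E n ≃ₗ[ℝ] E n) (x : E n) :
    x ∈ projBody (T '' K) ↔
      |LinearMap.det (T : E n →ₗ[ℝ] E n)|⁻¹ • LinearMap.adjoint (T : E n →ₗ[ℝ] E n) x ∈
        projBody K := by
  have hd := abs_pos.2 (Cov.det_ne T)
  rw [mem_projBody, mem_projBody, T.surjective.forall]
  refine forall_congr' fun a => ?_
  have h := hh_lin hK.1 hK.2.1 (T : E n →ₗ[ℝ] E n) a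
  rw [LinearEquiv.coe_coe] at h
  rw [h, real_inner_smul_left, LinearMap.adjoint_inner_left, inv_mul_le_iff₀ hd,
    LinearEquiv.coe_coe]

theorem vol_projBody_lin (hK : IsBody K) (T : E n ≃ₗ[ℝ] E n) :
    vol (projBody (T '' K)) =
      |LinearMap.det (T : E n →ₗ[ℝ] E n)| ^ (n - 1) * vol (projBody K) := by
  have hd := abs_pos.2 (Cov.det_ne T)
  set d := |LinearMap.det (T : E n →ₗ[ℝ] E n)| with hd'
  have e : projBody (T '' K) =
      (d⁻¹ • LinearMap.adjoint (T : E n →ₗ[ℝ] E n)) ⁻¹' projBody K := by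
    ext x
    exact mem_projBody_lin hK T x
  have h1 : LinearMap.det (d⁻¹ • LinearMap.adjoint (T : E n →ₗ[ℝ] E n)) =
      d⁻¹ ^ n * LinearMap.det (T : E n →ₗ[ℝ] E n) := by
    rw [LinearMap.det_smul, Cov.det_adjoint, finrank_euclideanSpace_fin]
  have h2 : |(d⁻¹ ^ n * LinearMap.det (T : E n →ₗ[ℝ] E n))⁻¹| = d ^ (n - 1) := by
    rw [abs_inv, abs_mul, ← hd', abs_of_pos (by positivity), inv_pow, mul_inv, inv_inv,
      pow_sub₀ _ hd.ne' NeZero.one_le, pow_one]
  rw [e, vol, Measure.addHaar_preimage_linearMap _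
    (by rw [h1]; exact mul_ne_zero (by positivity) (Cov.det_ne T)), h1, h2, ENNReal.toReal_mul,
    ENNReal.toReal_ofReal (by positivity), vol]

theorem exists_adjoint (S : E n ≃ₗ[ℝ] E n) : ∃ T : E n ≃ₗ[ℝ] E n,
    ∀ x, LinearMap.adjoint (T : E n →ₗ[ℝ] E n) x = S x := by
  have hi : Function.Injective (LinearMap.adjoint (S : E n →ₗ[ℝ] E n)) := by
    rw [injective_iff_map_eq_zero]
    intro x hx
    have h := LinearMap.adjoint_inner_left (S : E n →ₗ[ℝ] E n) (S.symm x) x
    rw [hx, inner_zero_left, LinearEquiv.coe_coe, LinearEquiv.apply_symm_apply] at h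
    exact inner_self_eq_zero.1 h.symm
  refine ⟨LinearEquiv.ofInjectiveEndo _ hi, fun x => ?_⟩
  have e : ((LinearEquiv.ofInjectiveEndo _ hi : E n ≃ₗ[ℝ] E n) : E n →ₗ[ℝ] E n) =
      LinearMap.adjoint (S : E n →ₗ[ℝ] E n) := rfl
  rw [e, LinearMap.adjoint_adjoint, LinearEquiv.coe_coe]

theorem IsEllipsoid.of_lin (T : E n ≃ₗ[ℝ] E n) {c : E n} {ρ : ℝ} (hρ : 0 < ρ)
    (h : T '' K = closedBall c ρ) : IsEllipsoid K := by
  refine ⟨T.symm c, (LinearEquiv.smulOfNeZero ℝ (E n) ρ hρ.ne').trans T.symm, ?_⟩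
  have e : K = T.symm '' closedBall c ρ := by rw [← h, image_image]; simp
  rw [e, ← affinity_unitClosedBall hρ.le c, ← image_vadd, ← image_smul, image_image, image_image]
  refine image_congr fun x _ => ?_
  simp

theorem IsEllipsoid.eq (h : IsEllipsoid K) :
    kappa n ^ n * vol (projBody K) = kappa (n - 1) ^ n * kappa n ^ 2 * vol K ^ (n - 1) := by
  obtain ⟨a, T, rfl⟩ := h
  have hB := (Cov.isBody_ball (n := n)).lin T
  have e : (fun x => a + T x) '' closedBall 0 1 = (fun x => a + x) '' (T '' closedBall 0 1) := by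
    rw [image_image]
  have e1 : projBody ((fun x => a + x) '' (T '' closedBall 0 1)) =
      projBody (T '' closedBall 0 1) := by
    ext x
    simp only [mem_projBody, hh_translate hB.1 hB.2.1]
  have e2 := vol_lin (closedBall (0 : E n) 1) (T : E n →ₗ[ℝ] E n)
  rw [LinearEquiv.coe_coe] at e2
  rw [e, e1, vol_translate, e2, vol_projBody_lin Cov.isBody_ball, Cov.projBody_ball,
    vol_closedBall _ (kappa_pos _).le, vol_closedBall _ zero_le_one, one_pow, one_mul, mul_pow]
  obtain ⟨m, rfl⟩ := Nat.exists_eq_succ_of_ne_zero (NeZero.ne n)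
  simp only [Nat.succ_sub_one, Nat.succ_eq_add_one]
  ring

end Vale.Agent.P237B
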