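import Vale.Agent.P237B.EqA

/-! A convex body whose support points move parallel to the normals is a ball.

PLAN.  x - x' ∈ (ℝ ∙ (ν - ν'))ᗮᗮ = ℝ ∙ (ν - ν') (`Submodule.orthogonal_orthogonal`).  Choose a
maximiser x ν for every ν (`IsCompact.exists_isMaxOn`).  Fix a unit ν₀,
x ν₀ - x (-ν₀) = (2 l) • ν₀, c = x ν₀ - l • ν₀.  For a unit ν ≠ ± ν₀ (then |⟪ν,ν₀⟫| < 1 and ν, ν₀ are
independent): x ν₀ - x ν = a (ν₀ - ν), x ν - x (-ν₀) = b (ν + ν₀), so a = b = l and x ν = c + l ν;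
the same for ν = ± ν₀.  Then ⟪y - c, ν⟫ ≤ l for y ∈ K and all unit ν gives K ⊆ closedBall c l,
l > 0 because K has interior, and c + s l ν is a convex combination of x ν, x (-ν) for |s| ≤ 1. -/

namespace Vale.Agent.P237B

open MeasureTheory Metric Set Filter Topology
open scoped Pointwise RealInnerProductSpace

variable {n : ℕ} [NeZero n] {K : Set (E n)}

theorem Eq.polar (v : E n) : ∃ ν : E n, ‖ν‖ = 1 ∧ v = ‖v‖ • ν := by
  by_cases h : v = 0
  · exact ⟨EuclideanSpace.single 0 1, by simp, by simp [h]⟩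
  · exact ⟨‖v‖⁻¹ • v, norm_smul_inv_norm h, (smul_inv_smul₀ (norm_ne_zero_iff.2 h) v).symm⟩

theorem ball_of_same_height (hK : IsBody K)
    (h : ∀ x ν x' ν' w : E n, ‖ν‖ = 1 → x ∈ K → (∀ y ∈ K, ⟪y, ν⟫ ≤ ⟪x, ν⟫) → ‖ν'‖ = 1 → x' ∈ K →
      (∀ y ∈ K, ⟪y, ν'⟫ ≤ ⟪x', ν'⟫) → ⟪ν, w⟫ = ⟪ν', w⟫ → ⟪x, w⟫ = ⟪x', w⟫) :
    ∃ (c : E n) (ρ : ℝ), 0 < ρ ∧ K = closedBall c ρ := by
  have hK0 : K.Nonempty := hK.2.2.mono interior_subset
  choose x hx hm using fun ν : E n =>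
    hK.1.exists_isMaxOn hK0 (f := fun y => ⟪y, ν⟫) (by fun_prop)
  have h1 : ∀ ν ν' : E n, ‖ν‖ = 1 → ‖ν'‖ = 1 → ∃ a : ℝ, a • (ν - ν') = x ν - x ν' := by
    intro ν ν' hν hν'
    rw [← Submodule.mem_span_singleton, ← Submodule.orthogonal_orthogonal (ℝ ∙ (ν - ν')),
      Submodule.mem_orthogonal']
    intro w hw
    rw [Submodule.mem_orthogonal_singleton_iff_inner_right, inner_sub_left, sub_eq_zero] at hw
    rw [inner_sub_left, h _ ν _ ν' w hν (hx ν) (hm ν) hν' (hx ν') (hm ν') hw, sub_self]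
  obtain ⟨ν₀, h0, -⟩ := Eq.polar (0 : E n)
  have h0' : ‖-ν₀‖ = 1 := by rwa [norm_neg]
  obtain ⟨l, hl⟩ := h1 ν₀ (-ν₀) h0 h0'
  have h2 : ∀ ν : E n, ‖ν‖ = 1 → x ν = (x ν₀ - l • ν₀) + l • ν := by
    intro ν hν
    obtain ⟨a, ha⟩ := h1 ν₀ ν h0 hν
    obtain ⟨b, hb⟩ := h1 ν (-ν₀) hν h0'
    have e : (a + b - 2 * l) • ν₀ = (a - b) • ν := by linear_combination (norm := module) ha + hb - hl
    by_cases hab : a = b
    · have e1 := congrArg norm e
      rw [hab, sub_self, zero_smul, norm_zero, norm_smul, h0, mul_one, norm_eq_zero] at e1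
      obtain rfl : a = l := by linarith
      linear_combination (norm := module) ha
    · have e1 : ν = ((a + b - 2 * l) / (a - b)) • ν₀ := by
        rw [div_eq_inv_mul, mul_smul, e, inv_smul_smul₀ (sub_ne_zero.2 hab)]
      have e2 := congrArg norm e1
      rw [hν, norm_smul, h0, mul_one, Real.norm_eq_abs, eq_comm, abs_eq zero_le_one] at e2
      rcases e2 with e2 | e2 <;> rw [e2] at e1
      · rw [e1, one_smul, sub_add_cancel]
      · rw [e1, neg_one_smul]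
        linear_combination (norm := module) hl
  generalize x ν₀ - l • ν₀ = c at h2
  have h3 : K ⊆ closedBall c l := fun y hy => by
    obtain ⟨ν, hν, e⟩ := Eq.polar (y - c)
    have h4 : ⟪y, ν⟫ ≤ ⟪x ν, ν⟫ := hm ν hy
    have h5 := congrArg (fun z => ⟪z, ν⟫) e
    simp only [h2 ν hν, inner_add_left, inner_sub_left, real_inner_smul_left,
      real_inner_self_eq_norm_sq, hν] at h4 h5
    rw [mem_closedBall_iff_norm]
    linarith
  have h4 : 0 < l := by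
    have h5 := nonempty_closedBall.1 (hK0.mono h3)
    refine h5.lt_of_ne fun h6 => ?_
    have h7 := hK.vol_pos.trans_le (vol_mono h3 (isCompact_closedBall _ _))
    rw [vol_closedBall _ h5, ← h6, zero_pow (NeZero.ne n), zero_mul] at h7
    exact h7.false
  refine ⟨c, l, h4, h3.antisymm fun y hy => ?_⟩
  obtain ⟨ν, hν, e⟩ := Eq.polar (y - c)
  rw [mem_closedBall_iff_norm, ← div_le_one h4] at hy
  have h5 : 0 ≤ ‖y - c‖ / l := by positivity
  have hc : Convex ℝ K := hK.2.1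
  have h6 := hc (hx ν) (hx (-ν)) (a := (1 + ‖y - c‖ / l) / 2) (b := (1 - ‖y - c‖ / l) / 2)
    (by linarith) (by linarith) (by ring)
  rw [← div_mul_cancel₀ ‖y - c‖ h4.ne'] at e
  rw [h2 ν hν, h2 (-ν) (by rwa [norm_neg])] at h6
  generalize ‖y - c‖ / l = s at e h6
  convert h6 using 1
  linear_combination (norm := module) e

theorem ball_of_bm_eq (hK : IsBody K) {r α β : ℝ} (hr : 0 < r) (hα : 0 < α) (hβ : 0 < β)
    (hα' : α ^ n = vol K) (hβ' : β ^ n = vol (closedBall (0 : E n) r))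
    (h : vol (K + closedBall 0 r) ≤ (α + β) ^ n) :
    ∃ (c : E n) (ρ : ℝ), 0 < ρ ∧ K = closedBall c ρ :=
  ball_of_same_height hK fun _ _ _ _ _ hν hx hm hν' hx' hm' hw =>
    same_height hK hr hα hβ hα' hβ' h hν hx hm hν' hx' hm' hw

end Vale.Agent.P237B
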