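import Vale.Agent.P237B.GamA

/-! Lower bound for the bilinear form `Gam`.

PLAN.  Let p be the expansion of Φ' (`exists_expa`), S N = ∑ j < N, p j,
R N i = F' i - ∑ j < N, W q j (p j) i.
* Gam_tail: fix δ > 0; choose polynomials r i with ∫ (Sg (F i) - r i)^2 ≤ δ^2 (`dense`,
  `memLp_Sg`).  Write r i on the sphere as a sum of homogeneous h k (`fischer`); `WG.rest` and
  `WG.ibp` turn ∫ R N i * h k into integrals of (Φ' - S N) against the fixed polynomials X i * h k and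
  ∂i (h k), which vanish for N large (`Expa.orth_poly`; finitely many conditions, use
  `Filter.eventually_all_finset`).  Then |∫ (Sg (F i) - r i) R N i| ≤ (δ + δ ∫ (R N i)^2)/2 and
  ∑ i ∫ (R N i)^2 ≤ ∑ i ∫ (F' i)^2 (`WG.bessel`).
* Gam_ge: Gam F F' = ∑ j < N, gam j ∫ Φ p j + tail (`Gam_W`, linearity).  j = 0 gives
  s1 q^2 (∫ Φ)(∫ Φ') (`gam_zero`, `Expa.zero`), j = 2 gives 0 (h2).  With s = range N minus {0,2},
  P = ∑ j ∈ s, gam j p j, c = s1 c4 > 0 and Φ = c₀ + p₂ + ρ, ∫ ρ^2 ≤ t: ∫ Φ P = ∫ ρ P (`orth`),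
  -ρ P ≤ (c θ ρ^2 + P^2/(c θ))/2, ∫ P^2 = ∑ gam j ^2 a j ≤ c^2 ∑ j ∈ s, a j (`integral_sq_sum`,
  `abs_gam_le`), and for Q = ∑ j ∈ s, p j: ∫ Q^2 = ∑ a j = ∫ Φ' Q = ∫ ρ' Q ≤ (t' + ∫ Q^2)/2. -/

namespace Vale.Agent.P237B

open MeasureTheory MvPolynomial Finset

variable {n : ℕ} [NeZero n]

namespace Gam

theorem amgm {f g : E n → ℝ} (hf : MemLp f 2 (sig n)) (hg : MemLp g 2 (sig n)) {a : ℝ}
    (ha : 0 < a) : |∫ u, f u * g u ∂sig n| ≤
      (a * ∫ u, f u ^ 2 ∂sig n + (∫ u, g u ^ 2 ∂sig n) / a) / 2 := by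
  rw [← integral_const_mul, ← integral_div, ← integral_add ((integrable_sq hf).const_mul a)
    ((integrable_sq hg).div_const a), ← integral_div]
  refine abs_integral_le_integral_abs.trans (integral_mono (integrable_mul2 hf hg).abs
    ((((integrable_sq hf).const_mul a).add ((integrable_sq hg).div_const a)).div_const 2)
    fun u => ?_)
  have h1 : g u = a * (g u / a) := by field_simp
  have h2 : g u ^ 2 / a = a * (g u / a) ^ 2 := by field_simp
  dsimp only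
  rw [h2, h1]
  generalize g u / a = y
  rw [mul_div_cancel_left₀ _ ha.ne', abs_le]
  constructor
  · nlinarith [mul_nonneg ha.le (sq_nonneg (f u + y))]
  · nlinarith [mul_nonneg ha.le (sq_nonneg (f u - y))]

theorem est (hn : 3 ≤ n) {f : E n → ℝ} (hf : MemLp f 2 (sig n)) {p : ℕ → Pol n}
    (hp : ∀ j, Harm j (p j)) (s : Finset ℕ) (c : ℕ → ℝ) {a : ℝ} (ha : 0 < a) :
    |∑ j ∈ s, c j * ∫ u, f u * ev (p j) u ∂sig n| ≤
      (a * ∫ u, f u ^ 2 ∂sig n + (∑ j ∈ s, c j ^ 2 * ∫ u, ev (p j) u ^ 2 ∂sig n) / a) / 2 := by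
  rw [← integral_sq_sum hn hp]
  refine le_of_eq_of_le (congrArg _ ?_) (amgm hf
    (memLp_finsetSum s fun j _ => (memLp_ev (p j) 2).const_mul (c j)) ha)
  simp only [mul_sum]
  rw [integral_finsetSum _ fun j _ => integrable_mul2 hf ((memLp_ev (p j) 2).const_mul (c j))]
  refine sum_congr rfl fun j _ => ?_
  rw [← integral_const_mul]
  exact congrArg _ (funext fun u => by ring)

theorem strip (hn : 3 ≤ n) {f : E n → ℝ} (hf : MemLp f 2 (sig n)) (c : ℝ) {p r : Pol n}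
    (hp : Harm 2 p) {j : ℕ} (hr : Harm j r) (h0 : j ≠ 0) (h2 : j ≠ 2) :
    ∫ u, (f u - c - ev p u) * ev r u ∂sig n = ∫ u, f u * ev r u ∂sig n := by
  have e1 := orth hn (Harm.const c) hr h0.symm
  have e2 := orth hn hp hr h2.symm
  have i1 := integrable_mul2 hf (memLp_ev r 2)
  have i2 := integrable_mul2 (memLp_ev (C c) 2) (memLp_ev r 2)
  have i3 := integrable_mul2 (memLp_ev p 2) (memLp_ev r 2)
  simp only [ev_C] at e1 i2
  simp only [sub_mul]
  rw [integral_sub (i1.sub' i2) i3, integral_sub i1 i2, e1, e2, sub_zero, sub_zero]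

theorem poly_tail (hn : 3 ≤ n) {q : ℕ} {Φ : E n → ℝ} {F : Fin n → E n → ℝ} (h : WG q Φ F)
    {p : ℕ → Pol n} (hp : Expa Φ p) (i : Fin n) (r : Pol n) : ∀ᶠ N in Filter.atTop,
      ∫ u, (F i u - ∑ j ∈ range N, W q j (p j) i u) * ev r u ∂sig n = 0 := by
  obtain ⟨M, g, hg, hr⟩ := fischer hn r
  have h1 : ∀ r : Pol n, ∀ᶠ N in Filter.atTop,
      ∫ u, (Φ u - ∑ k ∈ range N, ev (p k) u) * ev r u ∂sig n = 0 := fun r => by
    obtain ⟨N₀, h1⟩ := Expa.orth_poly hn r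
    exact Filter.eventually_atTop.2 ⟨N₀, fun N hN => h1 N hN Φ p hp⟩
  filter_upwards [(Filter.eventually_all_finset (range M)).2 fun k _ =>
    (h1 (X i * g k)).and (h1 (pderiv i (g k)))] with N hN
  have h2 := h.rest (by omega) hp.harm (range N)
  have e : ∫ u, (F i u - ∑ j ∈ range N, W q j (p j) i u) * ev r u ∂sig n = ∫ u, ∑ k ∈ range M,
      (F i u - ∑ j ∈ range N, W q j (p j) i u) * ev (g k) u ∂sig n :=
    integral_congr_ae (ae_norm.mono fun u hu => by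
      dsimp only
      rw [hr u hu, mul_sum])
  rw [e, integral_finsetSum _ fun k _ => integrable_mul2 (h2.memF i) (memLp_ev (g k) 2)]
  refine sum_eq_zero fun k hk => ?_
  obtain ⟨h3, h4⟩ := hN k hk
  simp only [ev_mul, ev_X] at h3
  rw [h2.ibp i k _ (hg k).1, h3, h4, mul_zero, sub_zero]

theorem split {q : ℕ} {F F' : Fin n → E n → ℝ} (hF : ∀ i, MemLp (F i) 2 (sig n))
    (hF' : ∀ i, MemLp (F' i) 2 (sig n)) (p : ℕ → Pol n) (s : Finset ℕ) :
    Gam F F' = (Gam F fun i u => F' i u - ∑ j ∈ s, W q j (p j) i u) +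
      ∑ j ∈ s, Gam F (W q j (p j)) := by
  unfold Gam
  rw [sum_comm, ← sum_add_distrib]
  refine sum_congr rfl fun i _ => ?_
  have i1 := fun j => integrable_mul2 (memLp_Sg (hF i)) (memLp_W q j (p j) i)
  simp only [mul_sub, mul_sum]
  rw [integral_sub (integrable_mul2 (memLp_Sg (hF i)) (hF' i))
    (integrable_finsetSum _ fun j _ => i1 j), integral_finsetSum _ fun j _ => i1 j, sub_add_cancel]

end Gam

theorem Gam_tail (hn : 3 ≤ n) {q : ℕ} {Φ' : E n → ℝ} {F F' : Fin n → E n → ℝ}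
    (hF : ∀ i, MemLp (F i) 2 (sig n)) (h' : WG q Φ' F') {p : ℕ → Pol n} (hp : Expa Φ' p) {ε : ℝ}
    (hε : 0 < ε) : ∃ N₀, ∀ N, N₀ ≤ N →
      |Gam F fun i u => F' i u - ∑ j ∈ range N, W q j (p j) i u| ≤ ε := by
  obtain ⟨B, hB⟩ : ∃ B, B = ∑ i, ∫ u, F' i u ^ 2 ∂sig n := ⟨_, rfl⟩
  have B0 : 0 ≤ B := hB ▸ sum_nonneg fun i _ => integral_nonneg fun u => sq_nonneg _
  have hd : 0 < B + n + 1 := by positivity
  have hδ : 0 < ε / (B + n + 1) := by positivity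
  have hδ' : ε / (B + n + 1) * (B + n + 1) = ε := div_mul_cancel₀ _ hd.ne'
  generalize ε / (B + n + 1) = δ at hδ hδ'
  choose r hr using fun i => dense (memLp_Sg (hF i)) (pow_pos hδ 2)
  refine Filter.eventually_atTop.1 ?_
  filter_upwards [Filter.eventually_all.2 fun i => Gam.poly_tail hn h' hp i (r i)] with N hN
  have h2 := h'.rest (by omega) hp.harm (range N)
  have h3 := h'.bessel hn hp (range N)
  have h4 : 0 ≤ ∑ j ∈ range N,
      ((q : ℝ) ^ 2 + j * ((j : ℝ) + n - 2)) * ∫ u, ev (p j) u ^ 2 ∂sig n :=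
    sum_nonneg fun j _ => mul_nonneg (by
      have : (3 : ℝ) ≤ n := by exact_mod_cast hn
      have : (0 : ℝ) ≤ (j : ℝ) + n - 2 := by linarith [Nat.cast_nonneg (α := ℝ) j]
      positivity) (integral_nonneg fun u => sq_nonneg _)
  have h5 : ∀ i, |∫ v, Sg (F i) v * (F' i v - ∑ j ∈ range N, W q j (p j) i v) ∂sig n| ≤
      (δ * ∫ u, (F' i u - ∑ j ∈ range N, W q j (p j) i u) ^ 2 ∂sig n + δ) / 2 := fun i => by
    have h6 := Gam.amgm (h2.memF i) ((memLp_Sg (hF i)).sub (memLp_ev (r i) 2)) hδ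
    simp only [Pi.sub_apply] at h6
    have h7 : (∫ u, (Sg (F i) u - ev (r i) u) ^ 2 ∂sig n) / δ ≤ δ := by
      rw [div_le_iff₀ hδ, ← sq]
      exact hr i
    simp only [mul_sub (_ - _)] at h6
    rw [integral_sub (integrable_mul2 (h2.memF i) (memLp_Sg (hF i)))
      (integrable_mul2 (h2.memF i) (memLp_ev (r i) 2)), hN i, sub_zero] at h6
    simp only [mul_comm (Sg (F i) _)]
    linarith
  refine (abs_sum_le_sum_abs _ _).trans ((sum_le_sum fun i _ => h5 i).trans ?_)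
  rw [← sum_div, sum_add_distrib, ← mul_sum, sum_const, card_univ, Fintype.card_fin, nsmul_eq_mul]
  have h8 := mul_le_mul_of_nonneg_left ((le_add_of_nonneg_right h4).trans (h3.trans hB.symm).le)
    hδ.le
  nlinarith

theorem Gam_ge (hn : 3 ≤ n) {q : ℕ} {Φ Φ' : E n → ℝ} {F F' : Fin n → E n → ℝ} (h : WG q Φ F)
    (h' : WG q Φ' F') (h2 : ∀ r, Harm 2 r → ∫ u, Φ u * ev r u ∂sig n = 0) {t t' θ : ℝ}
    (ht : T4le Φ t) (ht' : T4le Φ' t') (hθ : 0 < θ) :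
    s1 n * ((q : ℝ) ^ 2 * ((∫ u, Φ u ∂sig n) * ∫ u, Φ' u ∂sig n) -
      c4 n q * (θ * t + t' / θ) / 2) ≤ Gam F F' := by
  obtain ⟨p, hp⟩ := exists_expa h'.mem
  obtain ⟨c₀, p₂, hp₂, ht⟩ := ht
  obtain ⟨c₀', p₂', hp₂', ht'⟩ := ht'
  have hc : 0 < s1 n * c4 n q := mul_pos s1_pos (c4_pos hn q)
  refine le_of_forall_pos_le_add fun ε hε => ?_
  obtain ⟨N₀, hN⟩ := Gam_tail hn h.memF h' hp hε
  have h3 := (abs_le.1 (hN (N₀ + 3) (by omega))).1
  rw [Gam.split (q := q) h.memF h'.memF p (range (N₀ + 3)),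
    ← add_sum_erase _ _ (show 0 ∈ range (N₀ + 3) by simp),
    ← add_sum_erase _ _ (show 2 ∈ (range (N₀ + 3)).erase 0 by simp)]
  obtain ⟨s, hs⟩ : ∃ s, s = ((range (N₀ + 3)).erase 0).erase 2 := ⟨_, rfl⟩
  have hs' : ∀ j ∈ s, j ≠ 0 ∧ j ≠ 2 := fun j hj => by
    rw [hs, mem_erase, mem_erase] at hj
    exact ⟨hj.2.1, hj.1⟩
  rw [← hs]
  simp only [fun j => Gam_W hn h (hp.harm j)]
  rw [h2 _ (hp.harm 2), gam_zero hn]
  simp only [hp.zero, integral_mul_const]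
  have hm : ∀ {f : E n → ℝ} (c : ℝ) (r : Pol n), MemLp f 2 (sig n) →
      MemLp (fun u => f u - c - ev r u) 2 (sig n) := fun c r hf =>
    (hf.sub (memLp_const c)).sub (memLp_ev r 2)
  have hA : ∑ j ∈ s, ∫ u, ev (p j) u ^ 2 ∂sig n ≤ t' := by
    have h4 := (abs_le.1 (Gam.est hn (hm c₀' p₂' h'.mem) hp.harm s (fun _ => 1) one_pos)).2
    simp only [one_mul, one_pow, div_one] at h4
    have e : ∑ j ∈ s, ∫ u, (Φ' u - c₀' - ev p₂' u) * ev (p j) u ∂sig n =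
        ∑ j ∈ s, ∫ u, ev (p j) u ^ 2 ∂sig n := sum_congr rfl fun j hj => by
      rw [Gam.strip hn h'.mem _ hp₂' (hp.harm j) (hs' j hj).1 (hs' j hj).2, hp.eq j _ (hp.harm j)]
      simp only [sq]
    linarith
  have h5 := (abs_le.1 (Gam.est hn (hm c₀ p₂ h.mem) hp.harm s (gam n q) (mul_pos hc hθ))).1
  have e : ∑ j ∈ s, gam n q j * ∫ u, (Φ u - c₀ - ev p₂ u) * ev (p j) u ∂sig n =
      ∑ j ∈ s, gam n q j * ∫ u, Φ u * ev (p j) u ∂sig n := sum_congr rfl fun j hj => by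
    rw [Gam.strip hn h.mem _ hp₂ (hp.harm j) (hs' j hj).1 (hs' j hj).2]
  have h6 : (∑ j ∈ s, gam n q j ^ 2 * ∫ u, ev (p j) u ^ 2 ∂sig n) / (s1 n * c4 n q * θ) ≤
      s1 n * c4 n q * (t' / θ) := by
    rw [div_le_iff₀ (mul_pos hc hθ)]
    calc _ ≤ ∑ j ∈ s, (s1 n * c4 n q) ^ 2 * ∫ u, ev (p j) u ^ 2 ∂sig n :=
          sum_le_sum fun j hj => mul_le_mul_of_nonneg_right
            (sq_le_sq' (abs_le.1 (abs_gam_le hn q (hs' j hj).1 (hs' j hj).2)).1
              (abs_le.1 (abs_gam_le hn q (hs' j hj).1 (hs' j hj).2)).2)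
            (integral_nonneg fun u => sq_nonneg _)
      _ ≤ (s1 n * c4 n q) ^ 2 * t' := by
          rw [← mul_sum]
          exact mul_le_mul_of_nonneg_left hA (sq_nonneg _)
      _ = _ := by field_simp
  have h7 := mul_le_mul_of_nonneg_left ht (mul_pos hc hθ).le
  rw [e] at h5
  linarith

end Vale.Agent.P237B
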