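import Vale.Agent.P237B.Zon
import Vale.Agent.P237B.BM

/-! Minkowski's first inequality against a zonoid, in integrated form.

PLAN.
* vol_add_zono: induction on the finset s.  Z s = {∑ i ∈ s, c i • a i | |c i| ≤ 1} is compact and
  convex, K + Z (insert i s) = translate by -a i of (K + Z s) + segment 0 (2 • a i); `vol_add_seg`,
  `vol_translate`, `hh_smul_arg`; K + Z s ⊆ K + closedBall 0 (∑ ‖a i‖), so hb bounds hh (K + Z s).
* vol_add_small: `zon_cover`-type hypothesis with a scaled by t, `hh_grow` with ε = t ∑ ‖a i‖;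
  (1 + t R/ρ)^(n-1) → 1.
* mink_of_small: φ t = vol (K + t • C)^(1/n).  `bm` for A = K, B = K + t • C and
  K + (K + t • C) = 2 • (K + (t/2) • C) give α + φ t ≤ 2 φ (t/2), so
  φ 1 - α ≤ 2^k (φ (1/2^k) - α).  Bernoulli: α^n + t M' ≤ (α + t M'/(n α^(n-1)))^n, hence
  φ t ≤ α + t M'/(n α^(n-1)) for small t, M' = M + ε.  So φ 1 ≤ α + (M + ε)/(n α^(n-1)), all ε. -/

namespace Vale.Agent.P237B

open MeasureTheory Metric Set Filter Topology
open scoped Pointwise RealInnerProductSpace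

variable {n : ℕ} [NeZero n] {K : Set (E n)}

namespace Mink

omit [NeZero n] in
theorem ins {ι : Type} [DecidableEq ι] (K : Set (E n)) (a : ι → E n) {s : Finset ι} {i : ι}
    (hi : i ∉ s) :
    K + {x | ∃ c : ι → ℝ, (∀ i, |c i| ≤ 1) ∧ x = ∑ j ∈ insert i s, c j • a j} =
      (fun x => -a i + x) '' ((K + {x | ∃ c : ι → ℝ, (∀ i, |c i| ≤ 1) ∧ x = ∑ j ∈ s, c j • a j}) +
        segment ℝ 0 ((2 : ℝ) • a i)) := by
  ext x
  constructor
  · rintro ⟨k, hk, _, ⟨c, hc, rfl⟩, rfl⟩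
    obtain ⟨h1, h2⟩ := abs_le.1 (hc i)
    refine ⟨_, ⟨_, ⟨k, hk, _, ⟨c, hc, rfl⟩, rfl⟩, _, ⟨1 - (c i + 1) / 2, (c i + 1) / 2,
      by linarith, by linarith, by ring, rfl⟩, rfl⟩, ?_⟩
    simp only [Finset.sum_insert hi]
    module
  · rintro ⟨_, ⟨_, ⟨k, hk, _, ⟨c, hc, rfl⟩, rfl⟩, _, ⟨u, v, hu, hv, huv, rfl⟩, rfl⟩, rfl⟩
    refine ⟨k, hk, _, ⟨Function.update c i (2 * v - 1), fun j => ?_, rfl⟩, ?_⟩
    · by_cases hj : j = i
      · rw [hj, Function.update_self]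
        exact abs_le.2 ⟨by linarith, by linarith⟩
      · rw [Function.update_of_ne hj]
        exact hc j
    · rw [Finset.sum_insert hi, Function.update_self, Finset.sum_congr rfl fun j hj => by
        rw [Function.update_of_ne (ne_of_mem_of_not_mem hj hi)]]
      simp only
      module

omit [NeZero n] in
theorem aux {ι : Type} (hK : IsBody K) (a : ι → E n) (s : Finset ι) {R M : ℝ}
    (hR : ∑ i ∈ s, ‖a i‖ ≤ R)
    (hb : ∀ K' : Set (E n), K' ⊆ K + closedBall 0 R → ∀ y, hh K' y ≤ M * hh K y) :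
    IsCompact (K + {x | ∃ c : ι → ℝ, (∀ i, |c i| ≤ 1) ∧ x = ∑ i ∈ s, c i • a i}) ∧
    Convex ℝ (K + {x | ∃ c : ι → ℝ, (∀ i, |c i| ≤ 1) ∧ x = ∑ i ∈ s, c i • a i}) ∧
    vol (K + {x | ∃ c : ι → ℝ, (∀ i, |c i| ≤ 1) ∧ x = ∑ i ∈ s, c i • a i}) ≤
      vol K + 2 * M * ∑ i ∈ s, hh K (a i) := by
  classical
  induction s using Finset.induction_on with
  | empty =>
    have e : {x : E n | ∃ c : ι → ℝ, (∀ i, |c i| ≤ 1) ∧ x = ∑ i ∈ (∅ : Finset ι), c i • a i} = 0 := by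
      ext x
      simp only [Finset.sum_empty, mem_ofPred_eq, Set.mem_zero]
      exact ⟨fun h => h.choose_spec.2, fun h => ⟨0, by simp, h⟩⟩
    rw [e, add_zero, Finset.sum_empty, mul_zero, add_zero]
    exact ⟨hK.1, hK.2.1, le_rfl⟩
  | insert i s hi ih =>
    rw [Finset.sum_insert hi] at hR
    have hR' : ∑ i ∈ s, ‖a i‖ ≤ R := by linarith [norm_nonneg (a i)]
    obtain ⟨h1, h2, h3⟩ := ih hR'
    have h4 := hb _ (add_subset_add_left (by
      rintro _ ⟨c, hc, rfl⟩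
      refine mem_closedBall_zero_iff.2 ((norm_sum_le _ _).trans
        ((Finset.sum_le_sum fun j _ => ?_).trans hR'))
      rw [norm_smul]
      exact mul_le_of_le_one_left (norm_nonneg _) (hc j) :
      {x | ∃ c : ι → ℝ, (∀ i, |c i| ≤ 1) ∧ x = ∑ i ∈ s, c i • a i} ⊆ _)) (a i)
    rw [ins K a hi]
    refine ⟨(isCompact_add_seg h1 _ _).image (by fun_prop),
      (h2.add (convex_segment _ _)).translate _, ?_⟩
    rw [vol_translate, vol_add_seg h1 h2, hh_smul_arg, Finset.sum_insert hi, abs_two]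
    linarith

end Mink

theorem vol_add_zono {ι : Type} (hK : IsBody K) (a : ι → E n) (s : Finset ι) {R M : ℝ}
    (hR : ∑ i ∈ s, ‖a i‖ ≤ R)
    (hb : ∀ K' : Set (E n), K' ⊆ K + closedBall 0 R → ∀ y, hh K' y ≤ M * hh K y) :
    vol (K + {x | ∃ c : ι → ℝ, (∀ i, |c i| ≤ 1) ∧ x = ∑ i ∈ s, c i • a i}) ≤
      vol K + 2 * M * ∑ i ∈ s, hh K (a i) :=
  (Mink.aux hK a s hR hb).2.2

theorem vol_add_small {ι : Type} [Fintype ι] (hK : IsBody K) (a : ι → E n) {C : Set (E n)}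
    (hC : ∀ x ∈ C, ∃ c : ι → ℝ, (∀ i, |c i| ≤ 1) ∧ x = ∑ i, c i • a i) {ε : ℝ} (hε : 0 < ε) :
    ∀ᶠ t in 𝓝[>] (0 : ℝ), vol (K + t • C) ≤ vol K + t * (2 * ∑ i, hh K (a i) + ε) := by
  obtain ⟨ρ, hρ, hg⟩ := hh_grow hK
  have hc : Continuous fun t : ℝ => 2 * (1 + t * (∑ i, ‖a i‖) / ρ) ^ (n - 1) * ∑ i, hh K (a i) := by
    fun_prop
  have h1 := (hc.tendsto 0).eventually (gt_mem_nhds (a := 2 * ∑ i, hh K (a i) + ε) (by simpa))
  filter_upwards [nhdsWithin_le_nhds h1, self_mem_nhdsWithin] with t h2 ht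
  have ht0 : 0 < t := ht
  obtain ⟨h3, -, h4⟩ := Mink.aux hK (fun i => t • a i) Finset.univ (R := t * ∑ i, ‖a i‖)
    (by simp [norm_smul, abs_of_pos ht0, Finset.mul_sum])
    fun K' hK' => hg _ K' (mul_nonneg ht0.le (Finset.sum_nonneg fun _ _ => norm_nonneg _)) hK'
  refine (vol_mono (add_subset_add_left ?_) h3).trans (h4.trans ?_)
  · rintro _ ⟨x, hx, rfl⟩
    obtain ⟨c, hc, rfl⟩ := hC x hx
    exact ⟨c, hc, by simp only [Finset.smul_sum, smul_comm t]⟩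
  · simp only [hh_smul_arg, abs_of_pos ht0, ← Finset.mul_sum]
    nlinarith

theorem mink_of_small (hK : IsBody K) {C : Set (E n)} (hC : IsCompact C) (hC' : Convex ℝ C)
    (hC0 : C.Nonempty) {M α : ℝ} (hM : 0 ≤ M) (hα : 0 < α) (hα' : α ^ n = vol K)
    (h : ∀ ε : ℝ, 0 < ε → ∀ᶠ t in 𝓝[>] (0 : ℝ), vol (K + t • C) ≤ vol K + t * (M + ε)) :
    vol (K + C) ≤ (α + M / (n * α ^ (n - 1))) ^ n := by
  have hn := NeZero.ne n
  have hK0 : K.Nonempty := hK.2.2.mono interior_subset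
  obtain ⟨φ, hφ0, hφ⟩ : ∃ φ : ℝ → ℝ, (∀ t, 0 ≤ φ t) ∧ ∀ t, φ t ^ n = vol (K + t • C) :=
    ⟨fun t => vol (K + t • C) ^ (n : ℝ)⁻¹, fun t => Real.rpow_nonneg (vol_nonneg _) _,
      fun t => Real.rpow_inv_natCast_pow (vol_nonneg _) hn⟩
  have h1 : ∀ t, α + φ t ≤ 2 * φ (t / 2) := fun t => by
    have h2 := bm hK.1 hK.2.1 hK0 (hK.1.add (hC.smul t)) (hK.2.1.add (hC'.smul t))
      (hK0.add hC0.smul_set) hα.le (hφ0 t) hα'.le (hφ t).le
    have e : K + (K + t • C) = (2 : ℝ) • (K + (t / 2) • C) := by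
      rw [smul_add, smul_smul, mul_div_cancel₀ _ two_ne_zero, ← one_add_one_eq_two (R := ℝ),
        hK.2.1.add_smul zero_le_one zero_le_one, one_smul, add_assoc]
    rw [e, vol_smul _ zero_le_two, ← hφ, ← mul_pow] at h2
    exact (pow_le_pow_iff_left₀ (add_nonneg hα.le (hφ0 _)) (mul_nonneg zero_le_two (hφ0 _)) hn).1 h2
  have h2 : ∀ k : ℕ, (φ 1 - α) * (1 / 2) ^ k ≤ φ ((1 / 2) ^ k) - α := fun k => by
    induction k with
    | zero => simp
    | succ k ih =>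
      have h3 := h1 ((1 / 2) ^ k)
      rw [pow_succ, mul_one_div]
      linarith
  have hD : 0 < n * α ^ (n - 1) := by positivity
  have h3 : φ 1 ≤ α + M / (n * α ^ (n - 1)) := by
    refine le_of_forall_pos_le_add fun ε hε => ?_
    have h4 : Tendsto (fun k : ℕ => (1 / 2 : ℝ) ^ k) atTop (𝓝[>] 0) :=
      tendsto_pow_atTop_nhdsWithin_zero_of_lt_one (by norm_num) (by norm_num)
    obtain ⟨k, hk⟩ := (h4.eventually (h _ (mul_pos hε hD))).exists
    have h5 := h2 k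
    have ht : 0 < (1 / 2 : ℝ) ^ k := by positivity
    generalize (1 / 2 : ℝ) ^ k = t at hk h5 ht
    have hb : 0 ≤ t * (M / (n * α ^ (n - 1)) + ε) := by positivity
    have h6 := pow_add_mul_le_add_pow hα.le (b := t * (M / (n * α ^ (n - 1)) + ε))
      (by positivity) n
    have e : n * α ^ (n - 1) * (t * (M / (n * α ^ (n - 1)) + ε)) =
        t * (M + ε * (n * α ^ (n - 1))) := by field_simp
    rw [e, hα'] at h6
    have h7 := (pow_le_pow_iff_left₀ (hφ0 t) (add_nonneg hα.le hb) hn).1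
      ((hφ t).le.trans (hk.trans h6))
    have h8 : (φ 1 - α) * t ≤ (M / (n * α ^ (n - 1)) + ε) * t := by linarith
    linarith [le_of_mul_le_mul_right h8 ht]
  rw [← one_smul ℝ C, ← hφ]
  exact pow_le_pow_left₀ (hφ0 _) h3 _

theorem mink {Ω : Type} [MeasurableSpace Ω] {μ : Measure Ω} [IsFiniteMeasure μ] {m : Ω → E n}
    (hK : IsBody K) (hm : Integrable m μ) {M α : ℝ} (hM : 2 * ∫ w, hh K (m w) ∂μ ≤ M)
    (hα : 0 < α) (hα' : α ^ n = vol K) :
    vol (K + closure (Zon μ m)) ≤ (α + M / (n * α ^ (n - 1))) ^ n := by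
  have h0 : 0 ≤ ∫ w, hh K (m w) ∂μ := integral_nonneg fun w => hh_nonneg _ _
  refine mink_of_small hK (zon_bounded hm).isCompact_closure (zon_convex hm).closure
    ⟨0, subset_closure ⟨fun _ => 0, measurable_const, by simp, by simp⟩⟩ (by linarith) hα hα'
    fun ε hε => ?_
  obtain ⟨ι, _, a, h1, h2⟩ := zon_cover hK hm (ε := ε / 4) (by positivity)
  filter_upwards [vol_add_small hK a h1 (ε := ε / 2) (by positivity), self_mem_nhdsWithin]
    with t h3 ht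
  exact h3.trans (add_le_add_right (mul_le_mul_of_nonneg_left (by linarith) (le_of_lt ht)) _)

end Vale.Agent.P237B
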