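import Vale.Agent.P237B.PosA

/-! Consequences of the position.

PLAN.
* const_mul: `mul_pow`, `D_const_mul`.
* orth: for r harmonic of degree 2, `WG.pair_pderiv` (`WG.of_LL`): 2 (n+q) ∫ Φ r
  = ∑ i ∫ D i * ∂i r, and ∂i r = ∑ j, u j * ∂j ∂i r (`ev_euler`, degree 1) with constant ∂j ∂i r
  (`ev_deg_zero`); the sum is c * lap r = 0 (`ev_lap`).
* nhds: trace (`Hom.euler`) gives n c = q ∫ G^q > 0.  For ‖w‖ ≤ 1 take
  s u = ⟪u, w⟫ / max 1 ‖u‖; a.e. s u = ⟪u, w⟫; ∫ s • gradient Φ = c • w coordinatewise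
  (`gradient_apply`, `EuclideanSpace.proj`, `ContinuousLinearMap.integral_comp_comm`). -/

namespace Vale.Agent.P237B

open MeasureTheory Metric Set Filter Topology
open scoped RealInnerProductSpace

variable {n : ℕ}

variable [NeZero n] {G : E n → ℝ} {q : ℕ}

namespace Pos

theorem integrable_D_mul {Φ : E n → ℝ} (h : LL Φ) (i j : Fin n) :
    Integrable (fun u => D Φ i u * u j) (sig n) :=
  (h.memLp_D i 2).integrable_mul
    (memLp_of_contOn (f := fun u : E n => u j) (Continuous.continuousOn (by fun_prop)) 2)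

theorem pair {Φ : E n → ℝ} (h : LL Φ) {c : ℝ}
    (hc : ∀ i j : Fin n, ∫ u, D Φ i u * u j ∂sig n = if i = j then c else 0) (i : Fin n)
    (w : Fin n → ℝ) : ∫ u, D Φ i u * ∑ j, u j * w j ∂sig n = c * w i := by
  simp only [Finset.mul_sum, ← mul_assoc]
  rw [integral_finsetSum _ fun j _ => (integrable_D_mul h i j).mul_const _]
  simp only [integral_mul_const, hc, ite_mul, zero_mul, Finset.sum_ite_eq, Finset.mem_univ,
    if_true]

end Pos

omit [NeZero n] in
theorem InPos.const_mul (h : InPos q G) (c : ℝ) : InPos q fun x => c * G x := by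
  obtain ⟨a, ha⟩ := h
  refine ⟨c ^ q * a, fun i j => ?_⟩
  simp only [mul_pow, D_const_mul, mul_assoc, integral_const_mul, ha, mul_ite, mul_zero]

theorem InPos.orth (hn : 3 ≤ n) (h : IsNrm G) (hp : InPos q G) (r : Pol n) (hr : Harm 2 r) :
    ∫ u, G u ^ q * ev r u ∂sig n = 0 := by
  obtain ⟨c, hc⟩ := hp
  have h1 := (WG.of_LL (by omega) (h.ll_pow q) (h.hom_pow q)).pair_pderiv hr
  choose w hw using fun i j => ev_deg_zero ((hr.pderiv i).pderiv j).1
  have h2 : ∀ i u, ev (MvPolynomial.pderiv i r) u = ∑ j, u j * w i j := fun i u => by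
    have h3 := ev_euler (hr.pderiv i).1 u
    simp only [hw, ev_C] at h3
    rw [h3]
    norm_num
  have h3 := ev_lap hr 0
  simp only [hw, ev_C] at h3
  simp only [h2, Pos.pair (h.ll_pow q) hc, ← Finset.mul_sum, h3, mul_zero] at h1
  have h4 : (3 : ℝ) ≤ n := by exact_mod_cast hn
  have h5 : (0 : ℝ) ≤ q := Nat.cast_nonneg q
  refine (mul_eq_zero.1 h1.symm).resolve_left (ne_of_gt ?_)
  push_cast
  nlinarith

theorem InPos.nhds (h : IsNrm G) (hq : 1 ≤ q) (hp : InPos q G) :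
    Zon (sig n) (gradient fun x => G x ^ q) ∈ 𝓝 (0 : E n) := by
  obtain ⟨c, hc⟩ := hp
  have hl := h.ll_pow q
  have h1 : (n : ℝ) * c = q * ∫ u, G u ^ q ∂sig n := by
    rw [← integral_const_mul, ← integral_congr_ae ((hl.ae_diff (h.hom_pow q)).mono fun u hu =>
      (h.hom_pow q).euler hu)]
    simp only [mul_comm _ (D _ _ _)]
    rw [integral_finsetSum _ fun i _ => Pos.integrable_D_mul hl i i]
    simp [hc]
  have h2 : 0 < c := by
    have h3 : (0 : ℝ) < q := by exact_mod_cast hq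
    have h4 := mul_pos h3 (h.integral_pow_pos q)
    rw [← h1] at h4
    exact (pos_iff_pos_of_mul_pos h4).1 (Nat.cast_pos.2 (Nat.pos_of_ne_zero (NeZero.ne n)))
  refine mem_of_superset (closedBall_mem_nhds 0 h2) fun x hx => ?_
  rw [mem_closedBall_zero_iff] at hx
  have h3 : ‖c⁻¹ • x‖ ≤ 1 := by
    rw [norm_smul, norm_inv, Real.norm_of_nonneg h2.le, inv_mul_le_one₀ h2]
    exact hx
  have h4 : ∀ᵐ u ∂sig n, (⟪u, c⁻¹ • x⟫ / max 1 ‖u‖) • gradient (fun x => G x ^ q) u =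
      ⟪u, c⁻¹ • x⟫ • gradient (fun x => G x ^ q) u :=
    ae_norm.mono fun u hu => by rw [hu, max_self, div_one]
  have h5 : ∀ u : E n, |⟪u, c⁻¹ • x⟫ / max 1 ‖u‖| ≤ 1 := fun u => by
    have h6 : 0 < max 1 ‖u‖ := lt_max_of_lt_left one_pos
    rw [abs_div, abs_of_pos h6, div_le_one h6]
    exact (abs_real_inner_le_norm _ _).trans
      ((mul_le_of_le_one_right (norm_nonneg _) h3).trans (le_max_right _ _))
  have h6 : Measurable fun u : E n => ⟪u, c⁻¹ • x⟫ / max 1 ‖u‖ := by fun_prop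
  refine ⟨_, h6, h5, ?_⟩
  have h7 : Integrable (fun u : E n => (⟪u, c⁻¹ • x⟫ / max 1 ‖u‖) •
      gradient (fun x => G x ^ q) u) (sig n) :=
    hl.integrable_gradient.bdd_smul 1 h6.aestronglyMeasurable (ae_of_all _ h5)
  ext i
  refine Eq.trans ?_ ((EuclideanSpace.proj i : E n →L[ℝ] ℝ).integral_comp_comm h7)
  rw [integral_congr_ae (g := fun u => D (fun x => G x ^ q) i u * ∑ j, u j * (c⁻¹ * x j))
      (h4.mono fun u hu => ?_), Pos.pair hl hc, mul_inv_cancel_left₀ h2.ne']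
  beta_reduce
  rw [hu]
  simp [gradient_apply, PiLp.inner_apply, mul_comm]

end Vale.Agent.P237B
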