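import Vale.Agent.P237B.OBA
import Vale.Agent.P237B.Gam
import Vale.Agent.P237B.Pos
import Vale.Agent.P237B.Mink
import Vale.Agent.P237B.Eq
import Vale.Agent.P237B.Cov

/-! The inequality for a body whose projection body is in position. -/

namespace Vale.Agent.P237B

open MeasureTheory Metric Set Filter Topology
open scoped Pointwise RealInnerProductSpace

variable {n : ℕ} [NeZero n]

theorem alg {a a' ψ ψ' t t' c Q s Γ : ℝ} (ha : 0 < a) (ha' : 0 < a') (hψ : 0 < ψ)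
    (h1 : ψ ≤ a) (hs : 0 < s) (hQ : 0 < Q)
    (ht : c * t ≤ 999 / 1000 * Q * (a ^ 2 - ψ ^ 2))
    (ht' : c * t' ≤ 999 / 1000 * Q * (a' ^ 2 - ψ' ^ 2))
    (hΓ : s * (Q * (a * a') - c * (a' / a * t + t' / (a' / a)) / 2) ≤ Γ) :
    s * Q * (ψ * ψ' + a / a' * (a' ^ 2 - ψ' ^ 2) / 2000) ≤ Γ := by
  refine le_trans ?_ hΓ
  rw [mul_assoc]
  refine mul_le_mul_of_nonneg_left ?_ hs.le
  set θ := a' / a with hθ
  have hθ0 : 0 < θ := div_pos ha' ha
  have e1 : a / a' = θ⁻¹ := by rw [hθ, inv_div]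
  have e2 : a' = θ * a := by rw [hθ]; field_simp
  have hA : 0 ≤ a ^ 2 - ψ ^ 2 := by nlinarith
  have k1 : c * (θ * t + t' / θ) ≤
      999 / 1000 * Q * (θ * (a ^ 2 - ψ ^ 2) + θ⁻¹ * (a' ^ 2 - ψ' ^ 2)) := by
    have := mul_le_mul_of_nonneg_left ht hθ0.le
    have := mul_le_mul_of_nonneg_left ht' (inv_pos.2 hθ0).le
    rw [div_eq_mul_inv t' θ]
    nlinarith
  have k2 : ψ * ψ' ≤ a * a' - (θ * (a ^ 2 - ψ ^ 2) + θ⁻¹ * (a' ^ 2 - ψ' ^ 2)) / 2 := by
    have e3 : a * a' - (θ * (a ^ 2 - ψ ^ 2) + θ⁻¹ * (a' ^ 2 - ψ' ^ 2)) / 2 - ψ * ψ' =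
        θ⁻¹ * (θ * ψ - ψ') ^ 2 / 2 := by
      rw [e2]; field_simp; ring
    have : 0 ≤ θ⁻¹ * (θ * ψ - ψ') ^ 2 / 2 := by positivity
    linarith
  rw [e1]
  have k3 := mul_le_mul_of_nonneg_left k2 hQ.le
  have k4 : 0 ≤ Q * (θ * (a ^ 2 - ψ ^ 2)) := by positivity
  nlinarith

theorem alg2 {s q ψ ψ' a a' kn κ r r' N A km : ℝ} (hs : 0 < s) (hq : 0 < q) (hψ : 0 < ψ)
    (hψ' : 0 < ψ') (ha : 0 < a) (ha' : 0 < a') (hm' : ψ' ≤ a') (hkn : 0 < kn) (hκ : 0 < κ)
    (hr' : 0 < r') (hN : 0 < N) (hA : 0 < A) (hs1 : s * (N * kn) = 2 * km)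
    (k1 : s * q ^ 2 * (ψ * ψ' + a / a' * (a' ^ 2 - ψ' ^ 2) / 2000) ≤ q * r' * ψ')
    (k2 : κ * r' ≤ 2 * (q * r * ψ) / (N * A)) :
    km * κ * A ≤ kn * r ∧
      (kn * r ≤ km * κ * A → a' ≤ ψ' ∧ 2 * (q * r * ψ) / (N * A) ≤ κ * r') := by
  have hNA : 0 < N * A := mul_pos hN hA
  have hsl : 0 ≤ a / a' * (a' ^ 2 - ψ' ^ 2) / 2000 := by
    have : 0 ≤ a' ^ 2 - ψ' ^ 2 := by nlinarith
    positivity
  have k3 : s * q * ψ ≤ r' := by
    have h1 : s * q ^ 2 * (ψ * ψ') ≤ q * r' * ψ' := by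
      refine le_trans ?_ k1
      gcongr
      linarith
    have h2 : (s * q * ψ) * (q * ψ') ≤ r' * (q * ψ') := by linarith
    exact le_of_mul_le_mul_right h2 (by positivity)
  rw [le_div_iff₀ hNA] at k2
  have e : kn * (κ * (s * q * ψ) * (N * A)) = 2 * km * (κ * q * ψ * A) := by
    rw [← hs1]; ring
  constructor
  · have h1 : κ * (s * q * ψ) * (N * A) ≤ 2 * (q * r * ψ) := le_trans (by gcongr) k2
    have h2 : (km * κ * A) * (2 * q * ψ) ≤ (kn * r) * (2 * q * ψ) := by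
      have := mul_le_mul_of_nonneg_left h1 hkn.le
      rw [e] at this
      linarith
    exact le_of_mul_le_mul_right h2 (by positivity)
  · intro h1
    have h2 : 2 * (q * r * ψ) ≤ κ * (s * q * ψ) * (N * A) := by
      refine le_of_mul_le_mul_left ?_ hkn
      rw [e]
      have := mul_le_mul_of_nonneg_right h1 (show 0 ≤ 2 * q * ψ by positivity)
      linarith
    have h3 : r' ≤ s * q * ψ :=
      le_of_mul_le_mul_left (le_of_mul_le_mul_right (k2.trans h2) hNA) hκ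
    constructor
    · have h5 : q * r' * ψ' ≤ s * q ^ 2 * (ψ * ψ') := by
        have := mul_le_mul_of_nonneg_right h3 (show 0 ≤ q * ψ' by positivity)
        linarith
      have h6 := le_of_mul_le_mul_left (k1.trans h5) (by positivity)
      have h8 : a' ^ 2 - ψ' ^ 2 ≤ 0 := by
        by_contra hc
        have := mul_pos (div_pos ha ha') (not_le.1 hc)
        linarith
      exact (pow_le_pow_iff_left₀ ha'.le hψ'.le two_ne_zero).1 (by linarith)
    · rw [div_le_iff₀ hNA]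
      exact h2.trans (by gcongr)

theorem Gam_le {Φ G' : E n → ℝ} (hΦ : LL Φ) (hG' : IsNrm G') (q : ℕ) {r : ℝ}
    (hL : ∀ x ∈ Zon (sig n) (gradient Φ), G' x ≤ r) :
    Gam (D Φ) (D fun x => G' x ^ q) ≤ q * r * ∫ v, G' v ^ (q - 1) ∂sig n := by
  have hm := hΦ.integrable_gradient
  have hi : ∀ i, Integrable (fun v => Sg (D Φ i) v * D (fun x => G' x ^ q) i v) (sig n) :=
    fun i => integrable_mul2 (memLp_Sg (hΦ.memLp_D i 2)) ((hG'.ll_pow q).memLp_D i 2)
  rw [Gam, ← integral_finsetSum _ fun i _ => hi i, ← integral_const_mul]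
  refine integral_mono_ae (integrable_finsetSum _ fun i _ => hi i)
    (((hG'.ll_pow (q - 1)).memLp 1 |> memLp_one_iff_integrable.1).const_mul _) ?_
  filter_upwards [hG'.ll.ae_diff hG'.hom] with v hv
  have hs : Measurable fun u : E n => sg ⟪u, v⟫ := measurable_sg.comp (by fun_prop)
  have hint : Integrable (fun u : E n => sg ⟪u, v⟫ • gradient Φ u) (sig n) :=
    hm.bdd_smul 1 hs.aestronglyMeasurable (ae_of_all _ fun u => abs_sg_le _)
  set F := ∫ u, sg ⟪u, v⟫ • gradient Φ u ∂sig n with hF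
  have hFL : F ∈ Zon (sig n) (gradient Φ) := ⟨_, hs, fun u => abs_sg_le _, rfl⟩
  have hc : ∀ i, F i = Sg (D Φ i) v := fun i => by
    have := (EuclideanSpace.proj i : E n →L[ℝ] ℝ).integral_comp_comm hint
    simp only [EuclideanSpace.coe_proj, PiLp.smul_apply, smul_eq_mul, gradient_apply] at this
    rw [hF, ← this, Sg]
  have e : ∑ i, Sg (D Φ i) v * D (fun x => G' x ^ q) i v =
      ⟪gradient (fun x => G' x ^ q) v, F⟫ := by
    simp only [PiLp.inner_apply, RCLike.inner_apply, conj_trivial, gradient_apply, hc]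
  rw [e]
  refine (hG'.inner_gradient_pow_le hv q F).trans ?_
  have := mul_le_mul_of_nonneg_left (hL F hFL)
    (mul_nonneg (Nat.cast_nonneg q) (pow_nonneg (hG'.nonneg v) (q - 1)))
  linarith

theorem integral_hh_le {K : Set (E n)} (hK : IsBody K) {G : E n → ℝ} (hG : IsNrm G) (q : ℕ)
    {r : ℝ} (hZ : ∀ z ∈ projBody K, G z ≤ r) :
    ∫ u, hh K (gradient (fun x => G x ^ q) u) ∂sig n ≤ q * r * ∫ u, G u ^ (q - 1) ∂sig n := by
  rw [← integral_const_mul]
  refine integral_mono_ae (integrable_hh hK (hG.ll_pow q).integrable_gradient)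
    (((hG.ll_pow (q - 1)).memLp 1 |> memLp_one_iff_integrable.1).const_mul _) ?_
  filter_upwards [hG.ll.ae_diff hG.hom] with u hu
  obtain ⟨z, hz, e⟩ := exists_support hK (gradient (fun x => G x ^ q) u)
  rw [← e, real_inner_comm]
  refine (hG.inner_gradient_pow_le hu q z).trans ?_
  have := mul_le_mul_of_nonneg_left (hZ z hz)
    (mul_nonneg (Nat.cast_nonneg q) (pow_nonneg (hG.nonneg u) (q - 1)))
  linarith

theorem exists_root {x : ℝ} (hx : 0 < x) : ∃ y : ℝ, 0 < y ∧ y ^ n = x :=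
  ⟨x ^ ((n : ℝ)⁻¹), Real.rpow_pos_of_pos hx _, Real.rpow_inv_natCast_pow hx.le (NeZero.ne n)⟩

theorem core (hn : 3 ≤ n) {q : ℕ} (hq : 1 ≤ q)
    (hOB : ∀ G : E n → ℝ, IsNrm G → ∫ u, (G u)⁻¹ ^ n ∂sig n = 1 → OB q G) {K : Set (E n)}
    (hK : IsBody K) {G₀ : E n → ℝ} (hG₀ : IsNrm G₀) (hZ : projBody K = {x | G₀ x ≤ 1})
    (hP : InPos q G₀) :
    kappa (n - 1) ^ n * kappa n ^ 2 * vol K ^ (n - 1) ≤ kappa n ^ n * vol (projBody K) ∧
      (kappa n ^ n * vol (projBody K) ≤ kappa (n - 1) ^ n * kappa n ^ 2 * vol K ^ (n - 1) →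
        ∃ (c : E n) (ρ : ℝ), 0 < ρ ∧ K = closedBall c ρ) := by
  obtain ⟨r, hr, hr1, hr2⟩ := hG₀.normalize
  set G : E n → ℝ := fun x => r * G₀ x with hGdef
  have hG : IsNrm G := hG₀.const_mul hr
  have hP' : InPos q G := hP.const_mul r
  have hm := (hG.ll_pow q).integrable_gradient
  set L := Zon (sig n) (gradient fun x => G x ^ q) with hL
  obtain ⟨hg, hgL⟩ := isNrm_gauge (zon_convex hm) (fun x hx => zon_neg hx) (zon_bounded hm)
    (hP'.nhds hG hq)
  obtain ⟨r', hr', hr1', hr2'⟩ := hg.normalize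
  set G' : E n → ℝ := fun x => r' * gauge L x with hG'def
  have hG' : IsNrm G' := hg.const_mul hr'
  obtain ⟨t, ht, ht2⟩ := hOB G hG hr1
  obtain ⟨t', ht', ht2'⟩ := hOB G' hG' hr1'
  have ha := hG.integral_pow_pos q
  have ha' := hG'.integral_pow_pos q
  have hψ := hG.integral_pow_pos (q - 1)
  have hψ' := hG'.integral_pow_pos (q - 1)
  have hq0 : (0 : ℝ) < q := by exact_mod_cast hq
  have hΓ := Gam_ge hn (WG.of_LL (by omega) (hG.ll_pow q) (hG.hom_pow q))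
    (WG.of_LL (by omega) (hG'.ll_pow q) (hG'.hom_pow q)) (hP'.orth hn hG) ht ht' (div_pos ha' ha)
  have hΓ2 := Gam_le (hG.ll_pow q) hG' q (r := r') fun x hx => by
    have := gauge_le_one_of_mem hx
    change r' * gauge L x ≤ r'
    nlinarith
  have k1 := (alg ha ha' hψ (hG.mean_ge hr1 hq) s1_pos (pow_pos hq0 2) ht2 ht2' hΓ).trans hΓ2
  set a := ∫ u, G u ^ q ∂sig n
  set a' := ∫ u, G' u ^ q ∂sig n
  set ψ := ∫ u, G u ^ (q - 1) ∂sig n
  set ψ' := ∫ u, G' u ^ (q - 1) ∂sig n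
  have hm' : ψ' ≤ a' := hG'.mean_ge hr1' hq
  obtain ⟨α, hα, hα'⟩ := exists_root (n := n) hK.vol_pos
  obtain ⟨κ, hκ, hκ'⟩ := exists_root (n := n) (kappa_pos n)
  have hM := integral_hh_le hK hG q (r := r) fun z hz => by
    rw [hZ] at hz
    have : G₀ z ≤ 1 := hz
    change r * G₀ z ≤ r
    nlinarith
  have hmk := mink hK hm (M := 2 * (q * r * ψ)) (by linarith) hα hα'
  rw [← hL, ← hgL] at hmk
  have hCb := hg.isBody
  have hvC : (κ * r') ^ n = vol {x | gauge L x ≤ 1} := by rw [hr2', mul_pow, hκ']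
  have hn0 : (0 : ℝ) < n := by exact_mod_cast (show 0 < n by omega)
  have hαn : 0 < (n : ℝ) * α ^ (n - 1) := by positivity
  have hbm := bm hK.1 hK.2.1 (hK.2.2.mono interior_subset) hCb.1 hCb.2.1
    (hCb.2.2.mono interior_subset) hα.le (mul_pos hκ hr').le hα'.le hvC.le
  have k2 : κ * r' ≤ 2 * (q * r * ψ) / (n * α ^ (n - 1)) := by
    have := (pow_le_pow_iff_left₀ (by positivity) (by positivity) (NeZero.ne n)).1 (hbm.trans hmk)
    linarith
  have hs1 : s1 n * (n * kappa n) = 2 * kappa (n - 1) := by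
    have := kappa_pos n
    rw [s1]; field_simp
  have hvK : vol K ^ (n - 1) = (α ^ (n - 1)) ^ n := by rw [← hα', ← pow_mul, ← pow_mul, mul_comm]
  have hκp := kappa_pos n
  have hκp' := kappa_pos (n - 1)
  have e1 : kappa (n - 1) ^ n * kappa n ^ 2 * vol K ^ (n - 1) =
      kappa n * (kappa (n - 1) * κ * α ^ (n - 1)) ^ n := by
    rw [hvK, mul_pow, mul_pow, hκ']; ring
  have e2 : kappa n ^ n * vol (projBody K) = kappa n * (kappa n * r) ^ n := by
    rw [hZ, hr2, mul_pow]; ring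
  rw [e1, e2]
  obtain ⟨c1, c2⟩ := alg2 (s1_pos (n := n)) hq0 hψ hψ' ha ha' hm' hκp hκ hr' hn0 (pow_pos hα (n - 1))
    hs1 k1 k2
  constructor
  · gcongr
  · intro h
    obtain ⟨h4, h2⟩ := c2 ((pow_le_pow_iff_left₀ (by positivity) (by positivity) (NeZero.ne n)).1
        (le_of_mul_le_mul_left h hκp))
    have h5 : {x | gauge L x ≤ 1} = closedBall (0 : E n) r' := by
      ext x
      have : r' * gauge L x = ‖x‖ := hG'.eq_norm hr1' hq h4 x
      rw [mem_ofPred_eq, mem_closedBall_zero_iff, ← this]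
      exact (mul_le_iff_le_one_right hr').symm
    rw [h5] at hmk hvC
    refine ball_of_bm_eq hK hr' hα (mul_pos hκ hr') hα' hvC (hmk.trans ?_)
    gcongr

end Vale.Agent.P237B
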