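import Vale.Agent.P237B.IBP

/-! Convexity in weak form: the distribution `Δ G` of a convex function is nonnegative.

PLAN.
* flat: for t > 0 and e = single i 1, convexity gives G (x+te) + G (x-te) - 2 G x ≥ 0, hence
  0 ≤ ∫ ψ (G (x+te) + G (x-te) - 2 G x) = - ∫ (ψ (x+te) - ψ x) (G (x+te) - G x)
  (translation invariance `integral_add_right_eq_self`; all integrands are continuous with compact
  support).  Divide by t^2 and let t → 0+: dominated convergence
  (`tendsto_integral_filter_of_dominated_convergence`, bound Cψ CG times the indicator of a compact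
  thickening of the support; imitate
  `LipschitzWith.integral_inv_smul_sub_mul_tendsto_integral_lineDeriv_mul'`), a.e. both functions
  are differentiable (`LipschitzWith.ae_differentiableAt`).
* convex_ibp: ψ x = χ ‖x‖ * φ x (`exists_cut`, `LL.lip_cut`), sum `flat` over i.  For a.e. unit u and
  all r > 0: ∑ i, D ψ i (r • u) * D G i (r • u)
    = χ r / r * ∑ i, D φ i u * D G i u + χ' r * (φ u * G u)
  (`D_mul`, `D_comp`, `D_norm`, `Hom.D_smul`, `Hom.euler`).  Split the integral (each piece is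
  bounded, measurable, compactly supported), `polar` twice, `exists_cut` with k = n - 2. -/

namespace Vale.Agent.P237B

open MeasureTheory Metric Set Filter Topology
open scoped RealInnerProductSpace NNReal

variable {n : ℕ}

namespace Cvx

theorem D_le {G : E n → ℝ} {C : ℝ≥0} (hG : LipschitzWith C G) (i : Fin n) (x : E n) :
    |D G i x| ≤ C := by
  refine ((fderiv ℝ G x).le_opNorm _).trans ?_
  rw [PiLp.norm_single, norm_one, mul_one]
  exact norm_fderiv_le_of_lipschitz ℝ hG

theorem integrable_D {ψ : E n → ℝ} {C : ℝ≥0} (hψ : LipschitzWith C ψ) (hs : HasCompactSupport ψ)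
    (i : Fin n) : Integrable (D ψ i) := by
  refine IntegrableOn.integrable_of_forall_notMem_eq_zero (s := tsupport ψ)
    (Measure.integrableOn_of_bounded hs.isCompact.measure_lt_top.ne
      (measurable_D ψ i).aestronglyMeasurable (ae_of_all _ fun x => D_le hψ i x)) fun x hx => ?_
  rw [D, fderiv_of_notMem_tsupport ℝ hx]
  rfl

theorem mono {G : E n → ℝ} (hc : ConvexOn ℝ univ G) {x v : E n} {t : ℝ} (ht : 0 < t)
    (hx : DifferentiableAt ℝ G x) (hx' : DifferentiableAt ℝ G (x + t • v)) :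
    fderiv ℝ G x v ≤ fderiv ℝ G (x + t • v) v := by
  have h1 : ConvexOn ℝ univ fun s : ℝ => G (x + s • v) := by
    refine ⟨convex_univ, fun a _ b _ p q hp hq hpq => ?_⟩
    have := hc.2 (mem_univ (x + a • v)) (mem_univ (x + b • v)) hp hq hpq
    have e : p • (x + a • v) + q • (x + b • v) = x + (p • a + q • b) • v := by
      rw [smul_add, smul_add, add_add_add_comm, ← add_smul, hpq, one_smul, add_smul, smul_assoc,
        smul_assoc]
    rwa [e] at this
  have h2 : ∀ s : ℝ, HasDerivAt (fun s : ℝ => x + s • v) v s := fun s => by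
    simpa using ((hasDerivAt_id s).smul_const v).const_add x
  exact (h1.le_slope_of_hasDerivAt (mem_univ 0) (mem_univ t) ht
    (hx.hasFDerivAt.comp_hasDerivAt_of_eq 0 (h2 0) (by simp))).trans
    (h1.slope_le_of_hasDerivAt (mem_univ 0) (mem_univ t) ht
      (hx'.hasFDerivAt.comp_hasDerivAt t (h2 t)))

end Cvx

theorem convex_flat {G ψ : E n → ℝ} {C C' : ℝ≥0} (hG : LipschitzWith C G)
    (hc : ConvexOn ℝ univ G) (hψ : LipschitzWith C' ψ) (hs : HasCompactSupport ψ)
    (h0 : ∀ x, 0 ≤ ψ x) (i : Fin n) : ∫ x, D ψ i x * D G i x ≤ 0 := by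
  have h1 := hG.integral_inv_smul_sub_mul_tendsto_integral_lineDeriv_mul (μ := volume)
    (Cvx.integrable_D hψ hs i) (EuclideanSpace.single i 1)
  have e1 : ∫ x, lineDeriv ℝ G x (EuclideanSpace.single i 1) * D ψ i x =
      ∫ x, D ψ i x * D G i x := by
    refine integral_congr_ae ?_
    filter_upwards [hG.ae_differentiableAt (μ := volume)] with x hx
    rw [hx.lineDeriv_eq_fderiv, mul_comm, D, D]
  rw [← e1]
  refine le_of_tendsto h1 ?_
  filter_upwards [self_mem_nhdsWithin] with t (ht : 0 < t)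
  obtain ⟨v, hv⟩ : ∃ v : E n, v = EuclideanSpace.single i 1 := ⟨_, rfl⟩
  rw [← hv]
  obtain ⟨K, hK⟩ : ∃ K, LipschitzWith K fun x => t⁻¹ • (G (x + t • v) - G x) :=
    ⟨_, (lipschitzWith_smul t⁻¹).comp
      ((hG.comp (isometry_add_right (t • v)).lipschitz).sub hG)⟩
  have h2 := LipschitzWith.integral_lineDeriv_mul_eq (μ := volume) hK hψ hs v
  have e2 : ∫ x, lineDeriv ℝ ψ x (-v) * (t⁻¹ • (G (x + t • v) - G x)) =
      -∫ x, t⁻¹ • (G (x + t • v) - G x) * D ψ i x := by
    rw [← integral_neg]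
    refine integral_congr_ae ?_
    filter_upwards [hψ.ae_differentiableAt (μ := volume)] with x hx
    rw [hx.lineDeriv_eq_fderiv, map_neg, D, ← hv]
    ring
  rw [← neg_nonneg, ← e2, ← h2]
  refine integral_nonneg_of_ae ?_
  filter_upwards [hG.ae_differentiableAt (μ := volume),
    (measurePreserving_add_right volume (t • v)).quasiMeasurePreserving.ae
      (hG.ae_differentiableAt (μ := volume))] with x hx hx'
  refine mul_nonneg ?_ (h0 x)
  have h3 : HasFDerivAt (fun x => t⁻¹ • (G (x + t • v) - G x))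
      (t⁻¹ • (fderiv ℝ G (x + t • v) - fderiv ℝ G x)) x :=
    (((hasFDerivAt_comp_add_right (t • v)).2 hx'.hasFDerivAt).sub hx.hasFDerivAt).const_smul t⁻¹
  rw [h3.differentiableAt.lineDeriv_eq_fderiv, h3.fderiv]
  exact mul_nonneg (inv_pos.2 ht).le (sub_nonneg.2 (Cvx.mono hc ht hx hx'))

theorem convex_ibp [NeZero n] (hn : 2 ≤ n) {G φ : E n → ℝ} {C : ℝ≥0} (hG : LipschitzWith C G)
    (hc : ConvexOn ℝ univ G) (h1 : Hom 1 G) (hφ : LL φ) (h0 : Hom 0 φ)
    (hp : ∀ x, x ≠ 0 → 0 ≤ φ x) :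
    ∫ u, ∑ i, D φ i u * D G i u ∂sig n ≤ ((n : ℝ) - 1) * ∫ u, φ u * G u ∂sig n := by
  obtain ⟨χ, hχ, hχ0, hz, hk⟩ := exists_cut
  obtain ⟨m, rfl⟩ : ∃ m, n = m + 2 := ⟨n - 2, by omega⟩
  obtain ⟨⟨C', hC⟩, hs⟩ := hφ.lip_cut hχ fun r hr => (hz r hr).1
  have hL : LL G := LL.of_lipschitz hG
  obtain ⟨B1, hB1⟩ := IBP.bdd_ann hφ
  obtain ⟨B2, hB2⟩ := IBP.bdd_ann ((hφ.mul hL).div_norm)
  have hnn : ∀ x : E (m + 2), 0 ≤ χ ‖x‖ * φ x := fun x => by
    by_cases hx : x = 0
    · rw [(hz ‖x‖ (Or.inl (by simp [hx]))).1, zero_mul]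
    · exact mul_nonneg (hχ0 _) (hp x hx)
  have h2 : ∫ x, ∑ i, D (fun x => χ ‖x‖ * φ x) i x * D G i x ≤ 0 := by
    rw [integral_finsetSum _ fun i _ => (Cvx.integrable_D hC hs i).mul_bdd
      (measurable_D G i).aestronglyMeasurable (ae_of_all _ fun x => Cvx.D_le hG i x)]
    exact Finset.sum_nonpos fun i _ => convex_flat hG hc hC hs hnn i
  have iA : Integrable fun x : E (m + 2) => χ ‖x‖ * ∑ i, D φ i x * D G i x :=
    IBP.integrable_cut hχ.continuous (fun r hr => (hz r hr).1)
      (Finset.measurable_sum _ fun i _ => (measurable_D φ i).mul (measurable_D G i))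
      (B := ∑ _i : Fin (m + 2), B1 * C) fun x h1 h2 =>
        (Finset.abs_sum_le_sum_abs _ _).trans (Finset.sum_le_sum fun i _ => by
          rw [abs_mul]
          exact mul_le_mul ((hB1 x h1 h2).2 i) (Cvx.D_le hG i x) (abs_nonneg _)
            ((abs_nonneg _).trans (hB1 x h1 h2).1))
  have iB : Integrable fun x : E (m + 2) => deriv χ ‖x‖ * (φ x * G x / ‖x‖) :=
    IBP.integrable_cut (hχ.continuous_deriv le_rfl) (fun r hr => (hz r hr).2)
      ((hφ.mul hL).div_norm).measurable fun x h1 h2 => (hB2 x h1 h2).1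
  have h3 : ∫ x, ∑ i, D (fun x => χ ‖x‖ * φ x) i x * D G i x =
      ∫ x : E (m + 2), (χ ‖x‖ * ∑ i, D φ i x * D G i x + deriv χ ‖x‖ * (φ x * G x / ‖x‖)) := by
    refine integral_congr_ae ?_
    filter_upwards [hφ.ae_diff_vol, hL.ae_diff_vol, Measure.ae_ne volume (0 : E (m + 2))]
      with x hx hx' hx0
    have e := h1.euler hx'
    rw [Nat.cast_one, one_mul] at e
    simp only [IBP.D_cut hχ hx hx0]
    rw [← e, Finset.mul_sum, Finset.mul_sum, Finset.sum_div, Finset.mul_sum,
      ← Finset.sum_add_distrib]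
    exact Finset.sum_congr rfl fun i _ => by ring
  have pA := polar (A := fun x : E (m + 2) => χ ‖x‖ * ∑ i, D φ i x * D G i x)
    (a := fun u => ∑ i, D φ i u * D G i u) (ρ := fun r => χ r / r) (by
      filter_upwards [ae_norm, hφ.ae_diff h0, hL.ae_diff h1] with u hu hu' hu'' r hr
      rw [norm_smul, hu, mul_one, Real.norm_of_nonneg hr.le, Finset.mul_sum, Finset.mul_sum]
      refine Finset.sum_congr rfl fun i _ => ?_
      rw [h0.D_smul hu' hr, h1.D_smul hu'' hr]
      field_simp)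
  have pB := polar (A := fun x : E (m + 2) => deriv χ ‖x‖ * (φ x * G x / ‖x‖))
    (a := fun u => φ u * G u) (ρ := fun r => deriv χ r) (by
      filter_upwards [ae_norm] with u hu r hr
      rw [norm_smul, hu, mul_one, Real.norm_of_nonneg hr.le, h0 u r hr, h1 u r hr]
      field_simp)
  have eA : ∫ r in Ioi (0 : ℝ), χ r / r * r ^ (m + 2 - 1) = ∫ r in Ioi (0 : ℝ), χ r * r ^ m :=
    setIntegral_congr_fun measurableSet_Ioi fun r hr => by
      have : r ≠ 0 := ne_of_gt hr
      simp only [show m + 2 - 1 = m + 1 from rfl]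
      field_simp
      ring
  rw [h3, integral_add iA iB, pA, pB, eA, show m + 2 - 1 = m + 1 from rfl, (hk m).2] at h2
  have hp := mul_pos (Sph.nk_pos (n := m + 2)) (hk m).1
  refine le_of_mul_le_mul_left ?_ hp
  push_cast at h2 ⊢
  linarith

end Vale.Agent.P237B
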