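import Mathlib

/-! Definitions used in the statement of the projection-volume inequality. -/

namespace Vale.Agent.P237B

open MeasureTheory Metric
open scoped RealInnerProductSpace

/-- Euclidean space of dimension `n`. -/
abbrev E (n : ℕ) := EuclideanSpace ℝ (Fin n)

/-- Lebesgue volume as a real number. -/
noncomputable def vol {n : ℕ} (K : Set (E n)) : ℝ := (volume K).toReal

/-- Volume of the unit ball of dimension `m`. -/
noncomputable def kappa (m : ℕ) : ℝ := vol (closedBall (0 : E m) 1)

/-- The volume, inside the hyperplane orthogonal to `u`, of the orthogonal projection of `K`. -/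
noncomputable def shadow {n : ℕ} (K : Set (E n)) (u : E n) : ℝ :=
  (volume ((ℝ ∙ u)ᗮ.orthogonalProjectionOnto '' K)).toReal

/-- The projection body: the convex set cut out by the support values `shadow K u`. -/
def projBody {n : ℕ} (K : Set (E n)) : Set (E n) :=
  {x | ∀ u : E n, ‖u‖ = 1 → ⟪x, u⟫ ≤ shadow K u}

/-- Convex body: compact, convex, nonempty interior. -/
def IsBody {n : ℕ} (K : Set (E n)) : Prop :=
  IsCompact K ∧ Convex ℝ K ∧ (interior K).Nonempty

/-- Ellipsoid: image of the closed unit ball under an invertible affine map. -/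
def IsEllipsoid {n : ℕ} (K : Set (E n)) : Prop :=
  ∃ (a : E n) (T : E n ≃ₗ[ℝ] E n), K = (fun x => a + T x) '' closedBall 0 1

end Vale.Agent.P237B
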