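import Vale.Agent.P237B.BM

/-! Equality in the Brunn-Minkowski inequality for a convex body and a ball: cutting by half-spaces.

PLAN (B = closedBall 0 r).
* eq_cut: hyperplanes are null (`Measure.addHaar_affineSubspace`, or a translate of
  `Measure.addHaar_submodule`), so the lower pieces (⟪·,w⟫ ≤ s, ≤ t) have proportion 1 - θ.
  P = K⁺ + B⁺ and Q = K⁻ + B⁻ are compact subsets of K + B meeting inside a hyperplane, `bm` gives
  vol P ≥ θ (α+β)^n, vol Q ≥ (1-θ)(α+β)^n (use θ^(1/n) α, θ^(1/n) β).  So P ∪ Q has full measure in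
  the convex body K + B, hence (closed) contains its interior (open nonempty sets have positive
  measure) and its closure K + B (`Convex.closure_interior_eq_closure_of_nonempty_interior`).
  If x ∈ K maximises ⟪·,ν⟫ over K, ‖ν‖ = 1, then x + r ν = x' + b with x' ∈ K, b ∈ B forces
  b = r ν (‖b - r ν‖^2 ≤ 0), x' = x.
* eq_level: t ↦ vol (A ∩ {t ≤ ⟪·,w⟫}) is continuous (`continuous_of_dominated`-type argument for
  indicators, hyperplanes are null; or antitone and slabs of width δ inside a ball have volume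
  ≤ C δ), equal to vol A for very negative t and 0 for large t: `intermediate_value_Icc'`.
* eq_slab: the open slab s₁ < ⟪·,w⟫ < s₂ contains a point of the segment from x' to x, K is the
  closure of its interior, so the slab meets the interior in a nonempty open set.
* same_height: if ⟪x',w⟫ < ⟪x,w⟫, every s in between has θ ∈ (0,1) (eq_slab) and a t with the same
  proportion (eq_level); eq_cut for (x,ν), (x',ν') gives t = r ⟪ν,w⟫; two different s contradict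
  eq_slab.  Symmetric otherwise. -/

namespace Vale.Agent.P237B

open MeasureTheory Metric Set Filter Topology
open scoped Pointwise RealInnerProductSpace

variable {n : ℕ} [NeZero n] {K : Set (E n)}

namespace EqA

omit [NeZero n]

theorem null {w : E n} (hw : w ≠ 0) (s : ℝ) : volume {y : E n | ⟪y, w⟫ = s} = 0 := by
  let A : AffineSubspace ℝ (E n) := ⟨{y | ⟪y, w⟫ = s}, fun c p q r hp hq hr => by
    simp only [mem_ofPred_eq] at hp hq hr
    simp only [mem_ofPred_eq, vsub_eq_sub, vadd_eq_add, inner_add_left, real_inner_smul_left,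
      inner_sub_left, hp, hq, hr, sub_self, mul_zero, zero_add]⟩
  refine Measure.addHaar_affineSubspace volume A fun h => hw ?_
  have h1 : (0 : E n) ∈ A := h ▸ AffineSubspace.mem_top _ _ _
  have h2 : w ∈ A := h ▸ AffineSubspace.mem_top _ _ _
  have h3 : ⟪(0 : E n), w⟫ = s := h1
  have h4 : ⟪w, w⟫ = s := h2
  rw [← h3, inner_zero_left] at h4
  exact inner_self_eq_zero.1 h4

theorem union {P Q : Set (E n)} (hP : IsCompact P) (hQ : IsCompact Q) {w : E n} (hw : w ≠ 0)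
    {s : ℝ} (h1 : ∀ y ∈ P, s ≤ ⟪y, w⟫) (h2 : ∀ y ∈ Q, ⟪y, w⟫ ≤ s) :
    vol (P ∪ Q) = vol P + vol Q := by
  have h := measure_union_add_inter (μ := volume) P hQ.measurableSet
  rw [measure_mono_null (s := P ∩ Q) (fun y hy => le_antisymm (h2 y hy.2) (h1 y hy.1)) (null hw s),
    add_zero] at h
  rw [vol, h, ENNReal.toReal_add hP.measure_lt_top.ne hQ.measure_lt_top.ne, vol, vol]

theorem lin (w : E n) : IsLinearMap ℝ fun y : E n => ⟪y, w⟫ :=
  ⟨fun _ _ => inner_add_left _ _ _, fun _ _ => real_inner_smul_left _ _ _⟩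

theorem up {A : Set (E n)} (hA : IsCompact A) (hc : Convex ℝ A) (w : E n) (s : ℝ) :
    IsCompact (A ∩ {y | s ≤ ⟪y, w⟫}) ∧ Convex ℝ (A ∩ {y | s ≤ ⟪y, w⟫}) :=
  ⟨hA.inter_right (isClosed_le continuous_const (by fun_prop)),
    hc.inter (convex_halfSpace_ge (lin w) s)⟩

theorem dn {A : Set (E n)} (hA : IsCompact A) (hc : Convex ℝ A) (w : E n) (s : ℝ) :
    IsCompact (A ∩ {y | ⟪y, w⟫ ≤ s}) ∧ Convex ℝ (A ∩ {y | ⟪y, w⟫ ≤ s}) :=
  ⟨hA.inter_right (isClosed_le (by fun_prop) continuous_const),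
    hc.inter (convex_halfSpace_le (lin w) s)⟩

theorem split {A : Set (E n)} (hA : IsCompact A) (hc : Convex ℝ A) {w : E n} (hw : w ≠ 0)
    {s θ : ℝ} (h : vol (A ∩ {y | s ≤ ⟪y, w⟫}) = θ * vol A) :
    vol (A ∩ {y | ⟪y, w⟫ ≤ s}) = (1 - θ) * vol A := by
  have h1 := union (up hA hc w s).1 (dn hA hc w s).1 hw (fun _ h => h.2) fun _ h => h.2
  have h2 : A ⊆ {y | s ≤ ⟪y, w⟫} ∪ {y | ⟪y, w⟫ ≤ s} := fun y _ => le_total s ⟪y, w⟫
  rw [← inter_union_distrib_left, inter_eq_left.2 h2] at h1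
  linarith

theorem ne {A : Set (E n)} (h : 0 < vol A) : A.Nonempty :=
  nonempty_iff_ne_empty.2 fun h0 => by simp [h0, vol] at h

theorem full {S T : Set (E n)} (hS : IsBody S) (hT : IsClosed T) (h1 : T ⊆ S)
    (h2 : vol S ≤ vol T) : S ⊆ T := by
  have hf := hS.1.measure_lt_top (μ := volume)
  have hf' := (measure_mono h1).trans_lt hf
  have h3 : volume (S \ T) = 0 := by
    rw [measure_sdiff h1 hT.measurableSet.nullMeasurableSet hf'.ne, tsub_eq_zero_iff_le]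
    exact (ENNReal.toReal_le_toReal hf.ne hf'.ne).1 h2
  have h4 := (isOpen_interior.sdiff hT).measure_eq_zero_iff volume |>.1
    (measure_mono_null (sdiff_subset_sdiff_left interior_subset) h3)
  refine subset_closure.trans ?_
  rw [← hS.2.1.closure_interior_eq_closure_of_nonempty_interior hS.2.2]
  exact closure_minimal (sdiff_eq_empty.1 h4) hT

theorem bmθ [NeZero n] {A B : Set (E n)} (hA : IsCompact A ∧ Convex ℝ A)
    (hB : IsCompact B ∧ Convex ℝ B) {α β θ : ℝ} (hα : 0 < α) (hβ : 0 < β) (h0 : 0 < θ)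
    (h1 : vol A = θ * α ^ n) (h2 : vol B = θ * β ^ n) : θ * (α + β) ^ n ≤ vol (A + B) := by
  have h3 : (θ ^ (n : ℝ)⁻¹) ^ n = θ := Real.rpow_inv_natCast_pow h0.le (NeZero.ne n)
  have h4 : 0 < θ ^ (n : ℝ)⁻¹ := by positivity
  have := bm hA.1 hA.2 (ne (by rw [h1]; positivity)) hB.1 hB.2 (ne (by rw [h2]; positivity))
    (mul_pos h4 hα).le (mul_pos h4 hβ).le (by rw [mul_pow, h3, h1]) (by rw [mul_pow, h3, h2])
  rwa [← mul_add, mul_pow, h3] at this

theorem top {K : Set (E n)} {r : ℝ} (hr : 0 < r) {x ν x' b : E n} (hν : ‖ν‖ = 1)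
    (hm : ∀ y ∈ K, ⟪y, ν⟫ ≤ ⟪x, ν⟫) (hx' : x' ∈ K) (hb : b ∈ closedBall (0 : E n) r)
    (e : x' + b = x + r • ν) : x' = x ∧ b = r • ν := by
  have h1 := congrArg (fun y => ⟪y, ν⟫) e
  simp only [inner_add_left, real_inner_smul_left, real_inner_self_eq_norm_sq, hν] at h1
  have h2 := hm x' hx'
  have h3 := norm_sub_sq_real b (r • ν)
  rw [real_inner_smul_right, norm_smul, hν, Real.norm_of_nonneg hr.le] at h3
  have h4 := pow_le_pow_left₀ (norm_nonneg _) (mem_closedBall_zero_iff.1 hb) 2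
  have h5 : b = r • ν := sub_eq_zero.1 (norm_eq_zero.1 (pow_eq_zero_iff two_ne_zero |>.1
    (le_antisymm (by nlinarith) (sq_nonneg _))))
  exact ⟨add_right_cancel (h5 ▸ e), h5⟩

end EqA

theorem eq_cut (hK : IsBody K) {r α β θ s t : ℝ} (hr : 0 < r) (hα : 0 < α) (hβ : 0 < β)
    (hα' : α ^ n = vol K) (hβ' : β ^ n = vol (closedBall (0 : E n) r))
    (h : vol (K + closedBall 0 r) ≤ (α + β) ^ n) {w : E n} (hw : w ≠ 0) (h0 : 0 < θ) (h1 : θ < 1)
    (hs : vol (K ∩ {y | s ≤ ⟪y, w⟫}) = θ * vol K)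
    (ht : vol (closedBall (0 : E n) r ∩ {y | t ≤ ⟪y, w⟫}) = θ * vol (closedBall (0 : E n) r))
    {x ν : E n} (hν : ‖ν‖ = 1) (hx : x ∈ K) (hm : ∀ y ∈ K, ⟪y, ν⟫ ≤ ⟪x, ν⟫) :
    (s ≤ ⟪x, w⟫ ∧ t ≤ r * ⟪ν, w⟫) ∨ (⟪x, w⟫ ≤ s ∧ r * ⟪ν, w⟫ ≤ t) := by
  have hB := isCompact_closedBall (0 : E n) r
  have hB' := convex_closedBall (0 : E n) r
  have k1 := EqA.up hK.1 hK.2.1 w s
  have k2 := EqA.dn hK.1 hK.2.1 w s
  have b1 := EqA.up hB hB' w t
  have b2 := EqA.dn hB hB' w t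
  have h2 := EqA.bmθ k1 b1 hα hβ h0 (hα' ▸ hs) (hβ' ▸ ht)
  have h3 := EqA.bmθ k2 b2 hα hβ (sub_pos.2 h1) (hα' ▸ EqA.split hK.1 hK.2.1 hw hs)
    (hβ' ▸ EqA.split hB hB' hw ht)
  have h4 := EqA.union (k1.1.add b1.1) (k2.1.add b2.1) hw (s := s + t)
    (by
      rintro _ ⟨a, ha, b, hb, rfl⟩
      rw [inner_add_left]
      exact add_le_add ha.2 hb.2)
    (by
      rintro _ ⟨a, ha, b, hb, rfl⟩
      rw [inner_add_left]
      exact add_le_add ha.2 hb.2)
  have h5 := EqA.full (S := K + closedBall 0 r) ⟨hK.1.add hB, hK.2.1.add hB',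
    (hK.2.2.add (nonempty_closedBall.2 hr.le)).mono subset_interior_add_left⟩
    ((k1.1.add b1.1).union (k2.1.add b2.1)).isClosed
    (union_subset (add_subset_add inter_subset_left inter_subset_left)
      (add_subset_add inter_subset_left inter_subset_left)) (by linarith)
  rw [← real_inner_smul_left]
  rcases h5 (add_mem_add hx (mem_closedBall_zero_iff (a := r • ν).2 (by
    rw [norm_smul, hν, mul_one, Real.norm_of_nonneg hr.le]))) with
      ⟨a, ha, b, hb, e⟩ | ⟨a, ha, b, hb, e⟩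
  · obtain ⟨rfl, rfl⟩ := EqA.top hr hν hm ha.1 hb.1 e
    exact Or.inl ⟨ha.2, hb.2⟩
  · obtain ⟨rfl, rfl⟩ := EqA.top hr hν hm ha.1 hb.1 e
    exact Or.inr ⟨ha.2, hb.2⟩

theorem eq_level {A : Set (E n)} (hA : IsCompact A) {w : E n} (hw : w ≠ 0) {θ : ℝ} (h0 : 0 ≤ θ)
    (h1 : θ ≤ 1) : ∃ t, vol (A ∩ {y | t ≤ ⟪y, w⟫}) = θ * vol A := by
  have hm : ∀ t : ℝ, MeasurableSet {y : E n | t ≤ ⟪y, w⟫} := fun t =>
    (isClosed_le continuous_const (by fun_prop)).measurableSet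
  have e : ∀ t : ℝ, vol (A ∩ {y | t ≤ ⟪y, w⟫}) =
      ∫ y in A, indicator {y : E n | t ≤ ⟪y, w⟫} (1 : E n → ℝ) y := fun t => by
    rw [integral_indicator_one (hm t), measureReal_restrict_apply (hm t), inter_comm]
    rfl
  have hc : Continuous fun t : ℝ => vol (A ∩ {y | t ≤ ⟪y, w⟫}) := by
    simp only [e]
    refine continuous_iff_continuousAt.2 fun t0 => continuousAt_of_dominated (bound := fun _ => 1)
      (Eventually.of_forall fun t => (measurable_one.indicator (hm t)).aestronglyMeasurable)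
      (Eventually.of_forall fun t => ae_of_all _ fun y => ?_)
      (integrableOn_const hA.measure_lt_top.ne) (ae_restrict_of_ae ?_)
    · exact (norm_indicator_le_norm_self _ _).trans (by simp)
    · filter_upwards [compl_mem_ae_iff.2 (EqA.null hw t0)] with y hy
      rcases lt_or_gt_of_ne hy with h | h
      · refine (continuousAt_const (y := (0 : ℝ))).congr ?_
        filter_upwards [lt_mem_nhds h] with t ht
        exact (indicator_of_notMem (s := {y : E n | t ≤ ⟪y, w⟫}) (not_le.2 ht) _).symm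
      · refine (continuousAt_const (y := (1 : ℝ))).congr ?_
        filter_upwards [gt_mem_nhds h] with t ht
        exact (indicator_of_mem (s := {y : E n | t ≤ ⟪y, w⟫}) (le_of_lt ht) (1 : E n → ℝ)).symm
  obtain ⟨C, hC⟩ := hA.exists_bound_of_continuousOn (f := fun y : E n => ⟪y, w⟫) (by fun_prop)
  have h2 : A ∩ {y | -(|C| + 1) ≤ ⟪y, w⟫} = A := inter_eq_left.2 fun y hy => by
    have := (abs_le.1 (hC y hy)).1
    change -(|C| + 1) ≤ _
    linarith [le_abs_self C]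
  have h3 : A ∩ {y | |C| + 1 ≤ ⟪y, w⟫} = ∅ := eq_empty_of_forall_notMem fun y hy => by
    have h4 := (abs_le.1 (hC y hy.1)).2
    have h5 : |C| + 1 ≤ _ := hy.2
    linarith [le_abs_self C]
  obtain ⟨t, -, ht⟩ := intermediate_value_Icc' (a := -(|C| + 1)) (b := |C| + 1)
    (by linarith [abs_nonneg C]) hc.continuousOn (show θ * vol A ∈ _ by
      simp only [h2, h3]
      exact ⟨by simpa [vol] using mul_nonneg h0 (vol_nonneg A),
        mul_le_of_le_one_left (vol_nonneg A) h1⟩)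
  exact ⟨t, ht⟩

theorem eq_slab (hK : IsBody K) {w x x' : E n} (hx : x ∈ K) (hx' : x' ∈ K) {s₁ s₂ : ℝ}
    (h1 : ⟪x', w⟫ ≤ s₁) (h2 : s₁ < s₂) (h3 : s₂ ≤ ⟪x, w⟫) :
    vol (K ∩ {y | s₂ ≤ ⟪y, w⟫}) < vol (K ∩ {y | s₁ ≤ ⟪y, w⟫}) := by
  obtain ⟨z, hz, e⟩ := (hK.2.1.is_linear_image (EqA.lin w)).ordConnected.out ⟨x', hx', rfl⟩
    ⟨x, hx, rfl⟩ (a := (s₁ + s₂) / 2) ⟨by simp only; linarith, by simp only; linarith⟩
  have hO : IsOpen ((fun y : E n => ⟪y, w⟫) ⁻¹' Ioo s₁ s₂) := isOpen_Ioo.preimage (by fun_prop)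
  have h4 := subset_closure hz
  rw [← hK.2.1.closure_interior_eq_closure_of_nonempty_interior hK.2.2] at h4
  have h5 := (hO.inter isOpen_interior).measure_pos volume (mem_closure_iff.1 h4 _ hO
    (show ⟪z, w⟫ ∈ Ioo s₁ s₂ by simp only at e; exact ⟨by linarith, by linarith⟩))
  have k1 := (EqA.up hK.1 hK.2.1 w s₁).1.measure_lt_top (μ := volume)
  have k2 := (EqA.up hK.1 hK.2.1 w s₂).1.measure_lt_top (μ := volume)
  refine (ENNReal.toReal_lt_toReal k2.ne k1.ne).2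
    ((ENNReal.lt_add_right k2.ne h5.ne').trans_le ?_)
  rw [← measure_union (disjoint_left.2 fun y hy hy' => not_lt.2 hy.2 hy'.1.2)
    (hO.inter isOpen_interior).measurableSet]
  exact measure_mono (union_subset (fun y hy => ⟨hy.1, h2.le.trans hy.2⟩)
    fun y hy => ⟨interior_subset hy.2, hy.1.1.le⟩)

theorem EqA.not_lt (hK : IsBody K) {r α β : ℝ} (hr : 0 < r) (hα : 0 < α) (hβ : 0 < β)
    (hα' : α ^ n = vol K) (hβ' : β ^ n = vol (closedBall (0 : E n) r))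
    (h : vol (K + closedBall 0 r) ≤ (α + β) ^ n) {x ν x' ν' w : E n} (hν : ‖ν‖ = 1)
    (hx : x ∈ K) (hm : ∀ y ∈ K, ⟪y, ν⟫ ≤ ⟪x, ν⟫) (hν' : ‖ν'‖ = 1) (hx' : x' ∈ K)
    (hm' : ∀ y ∈ K, ⟪y, ν'⟫ ≤ ⟪x', ν'⟫) (hw : ⟪ν, w⟫ = ⟪ν', w⟫) : ⟪x, w⟫ ≤ ⟪x', w⟫ := by
  by_contra hlt
  rw [not_le] at hlt
  have hw0 : w ≠ 0 := by
    rintro rfl
    simp at hlt
  have hv := hK.vol_pos
  have h1 : ∀ s, ⟪x', w⟫ < s → s < ⟪x, w⟫ → vol (closedBall (0 : E n) r ∩ {y | r * ⟪ν, w⟫ ≤ ⟪y, w⟫}) =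
      vol (K ∩ {y | s ≤ ⟪y, w⟫}) / vol K * vol (closedBall (0 : E n) r) := fun s h2 h3 => by
    have h4 := div_pos ((vol_nonneg _).trans_lt (eq_slab hK hx hx' h2.le h3 le_rfl)) hv
    have h5 := (div_lt_one hv).2
      ((eq_slab hK hx hx' le_rfl h2 h3.le).trans_le (vol_mono inter_subset_left hK.1))
    obtain ⟨t, ht⟩ := eq_level (isCompact_closedBall (0 : E n) r) hw0 h4.le h5.le
    have h6 := (eq_cut hK hr hα hβ hα' hβ' h hw0 h4 h5 (div_mul_cancel₀ _ hv.ne').symm ht hν hx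
      hm).resolve_right fun h => not_le.2 h3 h.1
    have h7 := (eq_cut hK hr hα hβ hα' hβ' h hw0 h4 h5 (div_mul_cancel₀ _ hv.ne').symm ht hν' hx'
      hm').resolve_left fun h => not_le.2 h2 h.1
    rw [← ht, le_antisymm h6.2 (hw ▸ h7.2)]
  have h2 := (h1 ((2 * ⟪x', w⟫ + ⟪x, w⟫) / 3) (by linarith) (by linarith)).symm.trans
    (h1 ((⟪x', w⟫ + 2 * ⟪x, w⟫) / 3) (by linarith) (by linarith))
  rw [← hβ', mul_left_inj' (by positivity), div_left_inj' hv.ne'] at h2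
  exact (eq_slab hK hx hx' (by linarith) (by linarith) (by linarith)).ne' h2

theorem same_height (hK : IsBody K) {r α β : ℝ} (hr : 0 < r) (hα : 0 < α) (hβ : 0 < β)
    (hα' : α ^ n = vol K) (hβ' : β ^ n = vol (closedBall (0 : E n) r))
    (h : vol (K + closedBall 0 r) ≤ (α + β) ^ n) {x ν x' ν' w : E n} (hν : ‖ν‖ = 1)
    (hx : x ∈ K) (hm : ∀ y ∈ K, ⟪y, ν⟫ ≤ ⟪x, ν⟫) (hν' : ‖ν'‖ = 1) (hx' : x' ∈ K)
    (hm' : ∀ y ∈ K, ⟪y, ν'⟫ ≤ ⟪x', ν'⟫) (hw : ⟪ν, w⟫ = ⟪ν', w⟫) : ⟪x, w⟫ = ⟪x', w⟫ :=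
  le_antisymm (EqA.not_lt hK hr hα hβ hα' hβ' h hν hx hm hν' hx' hm' hw)
    (EqA.not_lt hK hr hα hβ hα' hβ' h hν' hx' hm' hν hx hm hw.symm)

end Vale.Agent.P237B
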