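import Vale.Agent.P237B.Harm
import Vale.Agent.P237B.Sph2

/-! Funk-Hecke formula for the kernel `sign ⟪u, v⟫`, by integration by parts on the sphere.

PLAN.  Fix a unit v; write S p = ∫ sg ⟪u,v⟫ p, A p = ∫ |⟪u,v⟫| p, B p = ∫ ⟪u,v⟫ |⟪u,v⟫| p and
dv p = ∑ i, v i • ∂i p (harmonic of degree j - 1, ev (dv p) v = j * ev p v by `ev_euler`).
For a.e. u (`ae_inner_ne`) D |⟪·,v⟫| i u = sg ⟪u,v⟫ * v i.  For p harmonic of degree j:
 (1) `sibp` for |⟪x,v⟫| p (degree 1 + j), times v i, summed:  S p + A (dv p) = (n + j) B p;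
 (2) `sibp` for ⟪x,v⟫ |⟪x,v⟫| ∂i p summed over i:  2 A (dv p) = (n + j) j B p   (j ≥ 1);
 (3) `sibp` for |⟪x,v⟫| ∂i p summed over i:  S (dv p) = (n + j - 1) j A p   (j ≥ 1).
Hence j S p = (2 - j) A (dv p).  Strong induction on j: j = 0: S (const) = 0 by `integral_neg_sig`;
j = 1: dv p is the constant ev p v, A = s1 (`integral_abs_inner`); j = k + 2: by (3) for dv p
(degree k + 1) and the induction hypothesis for dv (dv p) (degree k, value (k+1)(k+2) p v... careful:
ev (dv (dv p)) v = (k+1) * ev (dv p) v = (k+1)(k+2) ev p v).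
* sC_succ_abs etc. are elementary. -/

namespace Vale.Agent.P237B

open MeasureTheory MvPolynomial Finset
open scoped RealInnerProductSpace

/-- The sign function. -/
noncomputable def sg (t : ℝ) : ℝ := if 0 < t then 1 else if t < 0 then -1 else 0

theorem measurable_sg : Measurable sg := by
  unfold sg
  exact Measurable.ite measurableSet_Ioi measurable_const
    (Measurable.ite measurableSet_Iio measurable_const measurable_const)

theorem abs_sg_le (t : ℝ) : |sg t| ≤ 1 := by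
  unfold sg
  split_ifs <;> simp

theorem sg_neg (t : ℝ) : sg (-t) = -sg t := by
  unfold sg
  rcases lt_trichotomy t 0 with h | h | h
  · rw [if_pos (by linarith), if_neg (by linarith), if_pos h]; ring
  · subst h; simp
  · rw [if_neg (by linarith), if_pos (by linarith), if_pos h]

/-- Eigenvalues of the kernel `sg ⟪u, v⟫`. -/
noncomputable def sC (n : ℕ) : ℕ → ℝ
  | 0 => 0
  | 1 => s1 n
  | k + 2 => -sC n k * k / (n + k)

variable {n : ℕ} [NeZero n]

namespace FH

omit [NeZero n] in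
theorem inner_eq (u v : E n) : ⟪u, v⟫ = ∑ i, u i * v i := by
  simp [PiLp.inner_apply, mul_comm]

/-- The linear form attached to `v`. -/
noncomputable def lin (v : E n) : Pol n := ∑ k, v k • X k

/-- The directional derivative. -/
noncomputable def dv (v : E n) (p : Pol n) : Pol n := ∑ i, v i • pderiv i p

omit [NeZero n] in
theorem ev_lin (v x : E n) : ev (lin v) x = ⟪x, v⟫ := by
  simp [lin, inner_eq, mul_comm]

omit [NeZero n] in
theorem ev_pderiv_lin (v x : E n) (i : Fin n) : ev (pderiv i (lin v)) x = v i := by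
  simp only [lin, map_sum, Derivation.map_smul, pderiv_X, ev_sum, ev_smul]
  rw [Finset.sum_eq_single i]
  · simp
  · intro b _ hb
    simp [hb]
  · simp

omit [NeZero n] in
theorem lin_hom (v : E n) : (lin v).IsHomogeneous 1 := by
  refine IsHomogeneous.sum _ _ _ fun k _ => ?_
  rw [smul_eq_C_mul]
  exact (isHomogeneous_X ℝ k).C_mul _

omit [NeZero n] in
theorem harm_dv (v : E n) {p : Pol n} {j : ℕ} (hp : Harm j p) : Harm (j - 1) (dv v p) :=
  Harm.sum fun i _ => (hp.pderiv i).smul _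

omit [NeZero n] in
theorem ev_dv' (v x : E n) (p : Pol n) : ev (dv v p) x = ∑ i, v i * ev (pderiv i p) x := by
  simp [dv]

omit [NeZero n] in
theorem ev_dv (v : E n) {p : Pol n} {j : ℕ} (hp : p.IsHomogeneous j) :
    ev (dv v p) v = j * ev p v := by
  rw [ev_dv', ev_euler hp]

omit [NeZero n] in
theorem ll_abs (v : E n) : LL fun x : E n => |⟪x, v⟫| := by
  refine LL.of_lipschitz (C := ‖v‖₊) (LipschitzWith.of_dist_le_mul fun x y => ?_)
  rw [Real.dist_eq, dist_eq_norm, coe_nnnorm, mul_comm]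
  refine (abs_abs_sub_abs_le_abs_sub _ _).trans ?_
  rw [← inner_sub_left]
  exact abs_real_inner_le_norm _ _

omit [NeZero n] in
theorem hom_abs (v : E n) : Hom 1 fun x : E n => |⟪x, v⟫| := by
  intro x r hr
  simp only [inner_smul_left, conj_trivial, abs_mul, abs_of_pos hr, pow_one]

theorem hasDerivAt_abs_sg {t : ℝ} (ht : t ≠ 0) : HasDerivAt (fun s : ℝ => |s|) (sg t) t := by
  unfold sg
  rcases lt_or_gt_of_ne ht with h | h
  · rw [if_neg (by linarith), if_pos h]
    exact hasDerivAt_abs_neg h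
  · rw [if_pos h]
    exact hasDerivAt_abs_pos h

theorem sg_mul (t : ℝ) : sg t * t = |t| := by
  unfold sg
  rcases lt_trichotomy t 0 with h | h | h
  · rw [if_neg (by linarith), if_pos h, abs_of_neg h]; ring
  · subst h; simp
  · rw [if_pos h, abs_of_pos h]; ring

theorem int_sg (v : E n) {g : E n → ℝ} (hg : Continuous g) :
    Integrable (fun u => sg ⟪u, v⟫ * g u) (sig n) := by
  refine Integrable.bdd_mul (c := 1) (integrable_of_contOn hg.continuousOn) ?_
    (Filter.Eventually.of_forall fun u => abs_sg_le _)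
  exact (measurable_sg.fun_comp (by fun_prop)).aestronglyMeasurable

theorem key (hn : 2 ≤ n) {v : E n} (hv : ‖v‖ = 1) {q : Pol n} {m : ℕ} (hq : q.IsHomogeneous m)
    (i : Fin n) :
    ∫ u, (sg ⟪u, v⟫ * (v i * ev q u) + |⟪u, v⟫| * ev (pderiv i q) u) ∂sig n =
      ((n : ℝ) + m) * ∫ u, u i * (|⟪u, v⟫| * ev q u) ∂sig n := by
  have h := sibp hn ((ll_abs v).mul (ll_ev q)) ((hom_abs v).mul (hom_ev hq)) i
  have hv0 : v ≠ 0 := by
    intro h0
    rw [h0, norm_zero] at hv
    exact zero_ne_one hv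
  rw [show ((n : ℝ) + m) = (n : ℝ) + ((1 + m : ℕ) : ℝ) - 1 by push_cast; ring, ← h]
  refine integral_congr_ae ((ae_inner_ne hv0).mono fun u hu => ?_)
  have hd : HasDerivAt (fun s : ℝ => |s|) (sg ⟪u, v⟫) (ev (lin v) u) := by
    rw [ev_lin]; exact hasDerivAt_abs_sg hu
  have e1 : (fun x : E n => |⟪x, v⟫|) = fun x => |ev (lin v) x| := by
    funext x; rw [ev_lin]
  have hD : D (fun x : E n => |⟪x, v⟫|) i u = sg ⟪u, v⟫ * v i := by
    rw [e1, D_comp (g := fun s : ℝ => |s|) (differentiableAt_ev _ u) hd, D_ev, ev_pderiv_lin]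
  have hdiff : DifferentiableAt ℝ (fun x : E n => |⟪x, v⟫|) u := by
    rw [e1]
    exact hd.differentiableAt.fun_comp' u (differentiableAt_ev _ u)
  beta_reduce
  rw [D_mul hdiff (differentiableAt_ev q u), hD, D_ev]
  ring

omit [NeZero n] in
theorem sum_key {F H : Fin n → E n → ℝ} (hF : ∀ i, Integrable (F i) (sig n))
    (hH : ∀ i, Integrable (H i) (sig n)) {c : ℝ}
    (h : ∀ i, ∫ u, F i u ∂sig n = c * ∫ u, H i u ∂sig n) {F' H' : E n → ℝ}
    (eF : ∀ u, F' u = ∑ i, F i u) (eH : ∀ u, H' u = ∑ i, H i u) :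
    ∫ u, F' u ∂sig n = c * ∫ u, H' u ∂sig n := by
  simp only [eF, eH]
  rw [integral_finsetSum _ fun i _ => hF i, integral_finsetSum _ fun i _ => hH i, Finset.mul_sum]
  exact Finset.sum_congr rfl fun i _ => h i

theorem int_abs (v : E n) {g : E n → ℝ} (hg : Continuous g) :
    Integrable (fun u => |⟪u, v⟫| * g u) (sig n) :=
  integrable_of_contOn (Continuous.continuousOn (by fun_prop))

theorem int_L (v : E n) (q : Pol n) (i : Fin n) :
    Integrable (fun u => sg ⟪u, v⟫ * (v i * ev q u) + |⟪u, v⟫| * ev (pderiv i q) u) (sig n) :=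
  (int_sg v (continuous_const.mul (continuous_ev q))).add (int_abs v (continuous_ev _))

theorem int_R (v : E n) (q : Pol n) (i : Fin n) :
    Integrable (fun u : E n => u i * (|⟪u, v⟫| * ev q u)) (sig n) := by
  have := continuous_ev q
  exact integrable_of_contOn (Continuous.continuousOn (by fun_prop))

theorem rel1 (hn : 2 ≤ n) {v : E n} (hv : ‖v‖ = 1) {p : Pol n} {j : ℕ} (hp : Harm j p) :
    ∫ u, sg ⟪u, v⟫ * ev p u ∂sig n + ∫ u, |⟪u, v⟫| * ev (dv v p) u ∂sig n =
      ((n : ℝ) + j) * ∫ u, ⟪u, v⟫ * |⟪u, v⟫| * ev p u ∂sig n := by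
  have hvv : ∑ i, v i * v i = 1 := by
    rw [← inner_eq, real_inner_self_eq_norm_sq, hv, one_pow]
  rw [← integral_add (int_sg v (continuous_ev p)) (int_abs v (continuous_ev _))]
  refine sum_key (c := (n : ℝ) + j) (fun i => (int_L v p i).const_mul (v i))
    (fun i => (int_R v p i).const_mul (v i)) (fun i => by
      rw [integral_const_mul, integral_const_mul, key hn hv hp.1 i]; ring)
    (fun u => ?_) (fun u => ?_)
  · rw [ev_dv', Finset.mul_sum]
    simp only [mul_add, Finset.sum_add_distrib]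
    congr 1
    · calc sg ⟪u, v⟫ * ev p u = (∑ i, v i * v i) * (sg ⟪u, v⟫ * ev p u) := by rw [hvv, one_mul]
        _ = _ := by
          rw [Finset.sum_mul]
          exact Finset.sum_congr rfl fun i _ => by ring
    · exact Finset.sum_congr rfl fun i _ => by ring
  · generalize |⟪u, v⟫| = a
    rw [inner_eq, Finset.sum_mul, Finset.sum_mul]
    exact Finset.sum_congr rfl fun i _ => by ring

theorem rel2 (hn : 2 ≤ n) {v : E n} (hv : ‖v‖ = 1) {p : Pol n} {k : ℕ} (hp : Harm (k + 1) p) :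
    2 * ∫ u, |⟪u, v⟫| * ev (dv v p) u ∂sig n =
      ((n : ℝ) + (k + 1)) * ((k + 1) * ∫ u, ⟪u, v⟫ * |⟪u, v⟫| * ev p u ∂sig n) := by
  rw [← integral_const_mul, ← integral_const_mul ((k : ℝ) + 1),
    show (n : ℝ) + (k + 1) = n + ((1 + k : ℕ) : ℝ) by push_cast; ring]
  refine sum_key (fun i => int_L v (lin v * pderiv i p) i)
    (fun i => int_R v (lin v * pderiv i p) i) (fun i =>
      key hn hv ((lin_hom v).mul (hp.pderiv i).1) i) (fun u => ?_) (fun u => ?_)
  · have h0 := ev_lap hp u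
    have h1 := sg_mul ⟪u, v⟫
    simp only [Derivation.leibniz, smul_eq_mul, ev_add, ev_mul, ev_lin, ev_pderiv_lin]
    calc 2 * (|⟪u, v⟫| * ev (dv v p) u) = (sg ⟪u, v⟫ * ⟪u, v⟫ + |⟪u, v⟫|) * ev (dv v p) u +
          |⟪u, v⟫| * ⟪u, v⟫ * ∑ i, ev (pderiv i (pderiv i p)) u := by rw [h0, h1]; ring
      _ = _ := by
        rw [ev_dv', Finset.mul_sum, Finset.mul_sum, ← Finset.sum_add_distrib]
        exact Finset.sum_congr rfl fun i _ => by ring
  · have h0 := ev_euler hp.1 u
    push_cast at h0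
    simp only [ev_mul, ev_lin]
    calc ((k : ℝ) + 1) * (⟪u, v⟫ * |⟪u, v⟫| * ev p u) =
          ⟪u, v⟫ * |⟪u, v⟫| * ∑ i, u i * ev (pderiv i p) u := by rw [h0]; ring
      _ = _ := by
        rw [Finset.mul_sum]
        exact Finset.sum_congr rfl fun i _ => by ring

theorem rel3 (hn : 2 ≤ n) {v : E n} (hv : ‖v‖ = 1) {p : Pol n} {k : ℕ} (hp : Harm (k + 1) p) :
    ∫ u, sg ⟪u, v⟫ * ev (dv v p) u ∂sig n =
      ((n : ℝ) + k) * ((k + 1) * ∫ u, |⟪u, v⟫| * ev p u ∂sig n) := by
  rw [← integral_const_mul ((k : ℝ) + 1)]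
  refine sum_key (c := (n : ℝ) + k) (fun i => int_L v (pderiv i p) i)
    (fun i => int_R v (pderiv i p) i) (fun i => key hn hv (hp.pderiv i).1 i)
    (fun u => ?_) (fun u => ?_)
  · have h0 := ev_lap hp u
    calc sg ⟪u, v⟫ * ev (dv v p) u = sg ⟪u, v⟫ * ev (dv v p) u +
          |⟪u, v⟫| * ∑ i, ev (pderiv i (pderiv i p)) u := by rw [h0]; ring
      _ = _ := by
        rw [ev_dv', Finset.mul_sum, Finset.mul_sum, ← Finset.sum_add_distrib]
  · have h0 := ev_euler hp.1 u
    push_cast at h0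
    calc ((k : ℝ) + 1) * (|⟪u, v⟫| * ev p u) =
          |⟪u, v⟫| * ∑ i, u i * ev (pderiv i p) u := by rw [h0]; ring
      _ = _ := by
        rw [Finset.mul_sum]
        exact Finset.sum_congr rfl fun i _ => by ring

theorem rel (hn : 2 ≤ n) {v : E n} (hv : ‖v‖ = 1) {p : Pol n} {k : ℕ} (hp : Harm (k + 1) p) :
    ((k : ℝ) + 1) * ∫ u, sg ⟪u, v⟫ * ev p u ∂sig n =
      (1 - k) * ∫ u, |⟪u, v⟫| * ev (dv v p) u ∂sig n := by
  have h1 := rel1 hn hv hp
  have h2 := rel2 hn hv hp
  push_cast at h1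
  linear_combination ((k : ℝ) + 1) * h1 - h2

end FH

theorem funk_hecke (hn : 3 ≤ n) {p : Pol n} {j : ℕ} (hp : Harm j p) {v : E n} (hv : ‖v‖ = 1) :
    ∫ u, sg ⟪u, v⟫ * ev p u ∂sig n = sC n j * ev p v := by
  induction j using Nat.strong_induction_on generalizing p with
  | _ j ih =>
  have hn2 : 2 ≤ n := by omega
  have hn0 : (0 : ℝ) < n := by exact_mod_cast (by omega : 0 < n)
  match j, hp, ih with
  | 0, hp, _ =>
    obtain ⟨c, rfl⟩ := ev_deg_zero hp.1
    have h := integral_neg_sig (n := n) fun u => sg ⟪u, v⟫ * ev (C c) u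
    simp only [inner_neg_left, sg_neg, ev_C, neg_mul, integral_neg] at h
    simp only [ev_C, sC, zero_mul]
    linarith
  | 1, hp, _ =>
    have h := FH.rel hn2 hv (k := 0) hp
    obtain ⟨c, hc⟩ := ev_deg_zero (FH.harm_dv v hp).1
    have h2 := FH.ev_dv v hp.1
    rw [hc] at h h2
    simp only [ev_C, integral_mul_const, integral_abs_inner hn2 hv] at h h2
    simp only [sC]
    push_cast at h h2
    rw [h2] at h
    linarith
  | k + 2, hp, ih =>
    have hq : Harm (k + 1) (FH.dv v p) := FH.harm_dv v hp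
    have hr : Harm k (FH.dv v (FH.dv v p)) := FH.harm_dv v hq
    have h1 := FH.rel hn2 hv (k := k + 1) hp
    have h3 := FH.rel3 hn2 hv hq
    rw [ih k (by omega) hr, FH.ev_dv v hq.1, FH.ev_dv v hp.1] at h3
    simp only [sC]
    push_cast at h1 h3
    have hk : (0 : ℝ) ≤ k := Nat.cast_nonneg k
    have hA : ∫ u, |⟪u, v⟫| * ev (FH.dv v p) u ∂sig n =
        sC n k * ((k : ℝ) + 2) * ev p v / (n + k) := by
      rw [eq_div_iff (by positivity)]
      have hk1 : (k : ℝ) + 1 ≠ 0 := by positivity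
      apply mul_left_cancel₀ hk1
      linarith
    rw [hA] at h1
    have hk2 : (k : ℝ) + 2 ≠ 0 := by positivity
    apply mul_left_cancel₀ hk2
    have : (n : ℝ) + k ≠ 0 := by positivity
    rw [show (k : ℝ) + 1 + 1 = k + 2 by ring] at h1
    rw [h1]
    field_simp
    ring

end Vale.Agent.P237B
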