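import Vale.Agent.P237B.WG
import Vale.Agent.P237B.FH

/-! The bilinear form `Gam` and its eigenvalues on harmonic polynomials.

PLAN.
* gam_eq: for j = k + 1, sC (k+2) = - sC k * k / (n + k); `field_simp; ring` gives
  gam n q (k+1) = sC n k * ((q+n-1)^2 / (n+k) + k (2q+n-1)).
* abs_gam_le: odd j: sC n (j-1) = 0 (even index, induction).  j = 4: |sC 3| = s1/(n+1), equality.
  Step j → j+2 (k = j-1 ≥ 1): with g k = (q+n-1)^2/(n+k) + k (2q+n-1) one has
  g (k+2) ≤ g k + 2 (2q+n-1) and k g (k+2) ≤ (n+k) g k because 2 k (2q+n-1) ≤ n g k.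
* Gam_W: on the sphere W q j p i = (1 + (q-j) c) ∂i p + (q-j) up j i p with c = (2j+n-2)⁻¹
  (`ev_up`).  Fubini (`integral_integral_swap`; the integrand sg ⟪u,v⟫ * F i u * W .. v is
  integrable on the product: bounded kernel, `Integrable.mul_prod`/`bdd_mul`), `real_inner_comm`,
  `funk_hecke` for ∂i p (degree j - 1) and up j i p (degree j + 1), `ev_up` again, then
  `WG.pair_pderiv`, `WG.pair_X`.
* memLp_Sg: measurable as a parametric integral (`StronglyMeasurable.integral_prod_right'` /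
  `AEStronglyMeasurable.integral_prod_right'`), bounded by ∫ |f|. -/

namespace Vale.Agent.P237B

open MeasureTheory MvPolynomial Finset
open scoped RealInnerProductSpace

variable {n : ℕ}

/-- The integral operator with kernel `sg ⟪u, v⟫`. -/
noncomputable def Sg (f : E n → ℝ) (v : E n) : ℝ := ∫ u, sg ⟪u, v⟫ * f u ∂sig n

/-- The bilinear form on pairs of vector fields. -/
noncomputable def Gam (F F' : Fin n → E n → ℝ) : ℝ := ∑ i, ∫ v, Sg (F i) v * F' i v ∂sig n

/-- Eigenvalue of `Gam` in degree `j`. -/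
noncomputable def gam (n q j : ℕ) : ℝ :=
  sC n (j - 1) * (j * ((j : ℝ) + n - 2 + q) ^ 2 / (2 * (j : ℝ) + n - 2)) +
    sC n (j + 1) * (((q : ℝ) - j) ^ 2 * ((j : ℝ) + n - 2) / (2 * (j : ℝ) + n - 2))

/-- Bound for the eigenvalues in degrees other than 0 and 2, divided by `s1 n`. -/
noncomputable def c4 (n q : ℕ) : ℝ :=
  (((q : ℝ) + n - 1) ^ 2 / (n + 3) + 3 * (2 * (q : ℝ) + n - 1)) / (n + 1)

theorem gam_zero (hn : 3 ≤ n) (q : ℕ) : gam n q 0 = s1 n * (q : ℝ) ^ 2 := by
  have h3 : (3 : ℝ) ≤ n := by exact_mod_cast hn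
  have : (n : ℝ) - 2 ≠ 0 := by linarith
  simp only [gam, sC, Nat.zero_sub, zero_add, Nat.cast_zero, zero_mul, mul_zero, sub_zero]
  field_simp

theorem gam_eq (hn : 3 ≤ n) (q k : ℕ) : gam n q (k + 1) =
    sC n k * (((q : ℝ) + n - 1) ^ 2 / (n + k) + k * (2 * (q : ℝ) + n - 1)) := by
  have h3 : (3 : ℝ) ≤ n := by exact_mod_cast hn
  have hk : (0 : ℝ) ≤ k := Nat.cast_nonneg k
  have h1 : (n : ℝ) + k ≠ 0 := by linarith
  have e : sC n (k + 1 + 1) = -sC n k * k / (n + k) := rfl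
  have h4 : 2 * (k : ℝ) + n ≠ 0 := by linarith
  simp only [gam, e, Nat.add_sub_cancel, Nat.cast_add, Nat.cast_one]
  rw [show 2 * ((k : ℝ) + 1) + n - 2 = 2 * k + n by ring]
  field_simp
  ring

theorem c4_pos (hn : 3 ≤ n) (q : ℕ) : 0 < c4 n q := by
  have h3 : (3 : ℝ) ≤ n := by exact_mod_cast hn
  have hq : (0 : ℝ) ≤ q := Nat.cast_nonneg q
  have h1 : 0 < 2 * (q : ℝ) + n - 1 := by linarith
  unfold c4
  positivity

variable [NeZero n]

theorem GamA.step (hn : 3 ≤ n) (q : ℕ) : ∀ k : ℕ, k ≠ 1 →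
    |sC n k| * (((q : ℝ) + n - 1) ^ 2 / (n + k) + k * (2 * (q : ℝ) + n - 1)) ≤ s1 n * c4 n q := by
  have h3 : (3 : ℝ) ≤ n := by exact_mod_cast hn
  have hq : (0 : ℝ) ≤ q := Nat.cast_nonneg q
  have hB : 0 < 2 * (q : ℝ) + n - 1 := by linarith
  have hs := s1_pos (n := n)
  have hc := mul_pos hs (c4_pos hn q)
  intro k
  induction k using Nat.twoStepInduction with
  | zero => intro _; simpa [sC] using hc.le
  | one => intro h; exact absurd rfl h
  | more k ih _ =>
    intro _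
    have e : sC n (k + 2) = -sC n k * k / (n + k) := rfl
    have hk : (0 : ℝ) ≤ k := Nat.cast_nonneg k
    have h1 : 0 < (n : ℝ) + k := by linarith
    rw [e, abs_div, abs_mul, abs_neg, abs_of_nonneg hk, abs_of_pos h1]
    by_cases hk1 : k = 1
    · subst hk1
      have e1 : sC n 1 = s1 n := rfl
      rw [e1, abs_of_pos hs, c4]
      push_cast
      refine le_of_eq ?_
      ring
    · refine le_trans ?_ (ih hk1)
      rw [mul_div_assoc, mul_assoc]
      refine mul_le_mul_of_nonneg_left ?_ (abs_nonneg _)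
      push_cast
      set A := ((q : ℝ) + n - 1) ^ 2 with hA
      have hA0 : 0 ≤ A := sq_nonneg _
      set B := 2 * (q : ℝ) + n - 1
      rw [div_mul_eq_mul_div, div_le_iff₀ h1]
      have a1 : (k : ℝ) * (A / (n + (k + 2))) ≤ A := by
        rw [← mul_div_assoc, div_le_iff₀ (by linarith)]
        nlinarith
      have a2 : A / (n + k) * (n + k) = A := div_mul_cancel₀ _ h1.ne'
      have a3 : (k : ℝ) * ((k + 2) * B) ≤ k * B * (n + k) := by
        have : 0 ≤ (k : ℝ) * B := by positivity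
        nlinarith
      nlinarith

theorem abs_gam_le (hn : 3 ≤ n) (q : ℕ) {j : ℕ} (h0 : j ≠ 0) (h2 : j ≠ 2) :
    |gam n q j| ≤ s1 n * c4 n q := by
  obtain ⟨k, rfl⟩ := Nat.exists_eq_succ_of_ne_zero h0
  have h3 : (3 : ℝ) ≤ n := by exact_mod_cast hn
  have hq : (0 : ℝ) ≤ q := Nat.cast_nonneg q
  have hB : 0 < 2 * (q : ℝ) + n - 1 := by linarith
  rw [Nat.succ_eq_add_one, gam_eq hn, abs_mul, abs_of_nonneg (a := _ + _) (by positivity)]
  exact GamA.step hn q k (by omega)

omit [NeZero n] in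
theorem GamA.meas : Measurable fun z : E n × E n => sg ⟪z.1, z.2⟫ :=
  measurable_sg.comp (by fun_prop)

theorem GamA.int_prod {f g : E n → ℝ} (hf : Integrable f (sig n)) (hg : Integrable g (sig n)) :
    Integrable (fun z : E n × E n => sg ⟪z.1, z.2⟫ * (f z.1 * g z.2)) ((sig n).prod (sig n)) :=
  (hf.mul_prod hg).bdd_mul (c := 1) GamA.meas.aestronglyMeasurable
    (ae_of_all _ fun _ => abs_sg_le _)

theorem memLp_Sg {f : E n → ℝ} (hf : MemLp f 2 (sig n)) : MemLp (Sg f) 2 (sig n) := by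
  have hi : Integrable f (sig n) := hf.integrable one_le_two
  have h1 := (GamA.int_prod hi (integrable_const (1 : ℝ))).integral_prod_right
  simp only [mul_one] at h1
  refine MemLp.of_bound h1.1 (∫ u, |f u| ∂sig n) (ae_of_all _ fun v => ?_)
  refine norm_integral_le_of_norm_le hi.abs (ae_of_all _ fun u => ?_)
  rw [Real.norm_eq_abs, abs_mul]
  exact mul_le_of_le_one_left (abs_nonneg _) (abs_sg_le _)

theorem GamA.swap {f g : E n → ℝ} (hf : Integrable f (sig n)) (hg : Integrable g (sig n)) :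
    ∫ v, Sg f v * g v ∂sig n = ∫ u, f u * Sg g u ∂sig n := by
  have h := integral_integral_swap (f := fun u v : E n => sg ⟪u, v⟫ * (f u * g v))
    (GamA.int_prod hf hg)
  refine Eq.trans ?_ (h.symm.trans ?_)
  · refine integral_congr_ae (ae_of_all _ fun v => ?_)
    simp only [Sg, ← integral_mul_const, mul_assoc]
  · refine integral_congr_ae (ae_of_all _ fun u => ?_)
    simp only [Sg, ← integral_const_mul]
    refine integral_congr_ae (ae_of_all _ fun v => ?_)
    simp only [real_inner_comm u v]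
    ring

omit [NeZero n] in
theorem GamA.int_sg {f : E n → ℝ} (hf : Integrable f (sig n)) (v : E n) :
    Integrable (fun u : E n => sg ⟪u, v⟫ * f u) (sig n) :=
  hf.bdd_mul (c := 1) (measurable_sg.comp (by fun_prop)).aestronglyMeasurable
    (ae_of_all _ fun _ => abs_sg_le _)

theorem GamA.Sg_W (hn : 3 ≤ n) (q : ℕ) {p : Pol n} {j : ℕ} (hp : Harm j p) (i : Fin n) {v : E n}
    (hv : ‖v‖ = 1) : Sg (W q j p i) v =
      ((1 + ((q : ℝ) - j) * (2 * (j : ℝ) + n - 2)⁻¹) * sC n (j - 1) -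
        ((q : ℝ) - j) * (2 * (j : ℝ) + n - 2)⁻¹ * sC n (j + 1)) * ev (pderiv i p) v +
      ((q : ℝ) - j) * sC n (j + 1) * (v i * ev p v) := by
  have h1 := funk_hecke hn (hp.pderiv i) hv
  have h2 := funk_hecke hn (hp.up hn i) hv
  have i1 := GamA.int_sg ((memLp_ev (pderiv i p) 2).integrable one_le_two) v
  have i2 := GamA.int_sg ((memLp_ev (up j i p) 2).integrable one_le_two) v
  have e : Sg (W q j p i) v =
      (1 + ((q : ℝ) - j) * (2 * (j : ℝ) + n - 2)⁻¹) * ∫ u, sg ⟪u, v⟫ * ev (pderiv i p) u ∂sig n +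
        ((q : ℝ) - j) * ∫ u, sg ⟪u, v⟫ * ev (up j i p) u ∂sig n := by
    rw [← integral_const_mul, ← integral_const_mul, ← integral_add (i1.const_mul _) (i2.const_mul _)]
    refine integral_congr_ae ?_
    filter_upwards [ae_norm] with u hu
    rw [W, ev_up j i p hu]
    ring
  rw [e, h1, h2, ev_up j i p hv]
  ring

theorem Gam_W (hn : 3 ≤ n) {q : ℕ} {Φ : E n → ℝ} {F : Fin n → E n → ℝ} (h : WG q Φ F)
    {p : Pol n} {j : ℕ} (hp : Harm j p) :
    Gam F (W q j p) = gam n q j * ∫ u, Φ u * ev p u ∂sig n := by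
  have h3 : (3 : ℝ) ≤ n := by exact_mod_cast hn
  have hj : (0 : ℝ) ≤ j := Nat.cast_nonneg j
  have h2 : 2 * (j : ℝ) + n - 2 ≠ 0 := by linarith
  set a := (1 + ((q : ℝ) - j) * (2 * (j : ℝ) + n - 2)⁻¹) * sC n (j - 1) -
    ((q : ℝ) - j) * (2 * (j : ℝ) + n - 2)⁻¹ * sC n (j + 1) with ha
  set b := ((q : ℝ) - j) * sC n (j + 1) with hb
  have e : ∀ i, ∫ v, Sg (F i) v * W q j p i v ∂sig n =
      a * ∫ u, F i u * ev (pderiv i p) u ∂sig n + b * ∫ u, F i u * (u i * ev p u) ∂sig n := fun i => by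
    have i1 := integrable_mul2 (h.memF i) (memLp_ev (pderiv i p) 2)
    have i2 : Integrable (fun u => F i u * (u i * ev p u)) (sig n) := by
      refine (integrable_mul2 (h.memF i) (memLp_ev (X i * p) 2)).congr (ae_of_all _ fun u => ?_)
      simp only [ev_mul, ev_X]
    rw [GamA.swap ((h.memF i).integrable one_le_two) ((memLp_W q j p i).integrable one_le_two),
      ← integral_const_mul, ← integral_const_mul, ← integral_add (i1.const_mul _) (i2.const_mul _)]
    refine integral_congr_ae ?_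
    filter_upwards [ae_norm] with u hu
    rw [GamA.Sg_W hn q hp i hu]
    ring
  rw [Gam, sum_congr rfl fun i _ => e i, sum_add_distrib, ← mul_sum, ← mul_sum, h.pair_pderiv hp,
    h.pair_X hp.1, ha, hb, gam]
  obtain ⟨d, hd⟩ : ∃ d : ℝ, 2 * (j : ℝ) + n - 2 = d := ⟨_, rfl⟩
  rw [hd] at h2 ⊢
  rw [show (n : ℝ) = d - 2 * j + 2 by linarith]
  field_simp
  ring

end Vale.Agent.P237B
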