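import Vale.Agent.P237B.HarmA

/-! Expansions in spherical harmonics.

PLAN.
* orth_sum: only the term j survives (`orth`).  orth_poly: `fischer`, `ae_norm`.
* integral_sq_sum, pyth: expand the square, `orth`, `Expa.eq`.
* tail: `dense`; ∫ (g - S N)^2 ≤ ∫ (g - r)^2 as soon as g - S N is orthogonal to r and to S N.
* zero: p 0 = C c (`ev_deg_zero`), `Expa.eq` with r = C 1.
* odd: ∫ (p j)^2 = ∫ g * p j = - ∫ g * p j (`integral_neg_sig`, `ev_neg_arg`). -/

namespace Vale.Agent.P237B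

open MeasureTheory MvPolynomial Finset
open scoped ENNReal

variable {n : ℕ} [NeZero n]

/-- `p j` is the component of degree `j` of `g`. -/
structure Expa (g : E n → ℝ) (p : ℕ → Pol n) : Prop where
  mem : MemLp g 2 (sig n)
  harm : ∀ j, Harm j (p j)
  eq : ∀ j r, Harm j r → ∫ u, g u * ev r u ∂sig n = ∫ u, ev (p j) u * ev r u ∂sig n

theorem exists_expa {g : E n → ℝ} (hg : MemLp g 2 (sig n)) : ∃ p, Expa g p := by
  choose p hp using exists_proj hg
  exact ⟨p, hg, fun j => (hp j).1, fun j => (hp j).2⟩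

namespace HarmB

theorem memLp_sum (s : Finset ℕ) (p : ℕ → Pol n) :
    MemLp (fun u => ∑ k ∈ s, ev (p k) u) 2 (sig n) :=
  memLp_finsetSum _ fun k _ => memLp_ev (p k) 2

theorem int_mul (p r : Pol n) : Integrable (fun u => ev p u * ev r u) (sig n) :=
  integrable_mul2 (memLp_ev p 2) (memLp_ev r 2)

theorem orth_mem (hn : 3 ≤ n) {g : E n → ℝ} {p : ℕ → Pol n} (h : Expa g p) {s : Finset ℕ} {j : ℕ}
    (hj : j ∈ s) {r : Pol n} (hr : Harm j r) :
    ∫ u, (g u - ∑ k ∈ s, ev (p k) u) * ev r u ∂sig n = 0 := by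
  simp only [sub_mul]
  rw [integral_sub (integrable_mul2 h.mem (memLp_ev r 2))
    (integrable_mul2 (memLp_sum s p) (memLp_ev r 2)), h.eq j r hr]
  simp only [sum_mul]
  rw [integral_finsetSum _ fun k _ => int_mul _ _,
    sum_eq_single_of_mem j hj fun k _ hk => orth hn (h.harm k) hr hk, sub_self]

theorem orth_S (hn : 3 ≤ n) {g : E n → ℝ} {p : ℕ → Pol n} (h : Expa g p) (s : Finset ℕ) :
    ∫ u, (g u - ∑ k ∈ s, ev (p k) u) * ∑ k ∈ s, ev (p k) u ∂sig n = 0 := by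
  simp only [mul_sum]
  rw [integral_finsetSum _ fun k _ =>
    integrable_mul2 (f := fun u => g u - ∑ k ∈ s, ev (p k) u) (h.mem.sub (memLp_sum s p))
      (memLp_ev (p k) 2)]
  exact sum_eq_zero fun k hk => orth_mem hn h hk (h.harm k)

omit [NeZero n] in
theorem sq_add {a b : E n → ℝ} (ha : MemLp a 2 (sig n)) (hb : MemLp b 2 (sig n))
    (h : ∫ u, a u * b u ∂sig n = 0) :
    ∫ u, (a u + b u) ^ 2 ∂sig n = ∫ u, a u ^ 2 ∂sig n + ∫ u, b u ^ 2 ∂sig n := by
  simp only [add_sq, mul_assoc]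
  have h1 : Integrable (fun u => 2 * (a u * b u)) (sig n) := (ha.integrable_mul hb).const_mul 2
  rw [integral_add (f := fun u => a u ^ 2 + 2 * (a u * b u)) (ha.integrable_sq.add h1)
    hb.integrable_sq, integral_add ha.integrable_sq h1, integral_const_mul, h, mul_zero, add_zero]

end HarmB

theorem Expa.orth_sum (hn : 3 ≤ n) {g : E n → ℝ} {p : ℕ → Pol n} (h : Expa g p) {N j : ℕ}
    (hj : j < N) {r : Pol n} (hr : Harm j r) :
    ∫ u, (g u - ∑ k ∈ range N, ev (p k) u) * ev r u ∂sig n = 0 := by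
  exact HarmB.orth_mem hn h (mem_range.2 hj) hr

theorem Expa.orth_poly (hn : 3 ≤ n) (r : Pol n) : ∃ N₀, ∀ N, N₀ ≤ N →
    ∀ (g : E n → ℝ) (p : ℕ → Pol n), Expa g p →
      ∫ u, (g u - ∑ k ∈ range N, ev (p k) u) * ev r u ∂sig n = 0 := by
  obtain ⟨N₀, h, h1, h2⟩ := fischer hn r
  refine ⟨N₀, fun N hN g p hp => ?_⟩
  rw [integral_congr_ae (g := fun u => ∑ j ∈ range N₀,
    (g u - ∑ k ∈ range N, ev (p k) u) * ev (h j) u)
      (ae_norm.mono fun u hu => by simp only [h2 u hu, mul_sum]),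
    integral_finsetSum _ fun k _ => integrable_mul2 (f := fun u => g u - ∑ k ∈ range N, ev (p k) u)
      (hp.mem.sub (HarmB.memLp_sum _ p)) (memLp_ev (h k) 2)]
  exact sum_eq_zero fun k hk => hp.orth_sum hn ((mem_range.1 hk).trans_le hN) (h1 k)

theorem integral_sq_sum (hn : 3 ≤ n) {p : ℕ → Pol n} (hp : ∀ j, Harm j (p j)) (s : Finset ℕ)
    (c : ℕ → ℝ) : ∫ u, (∑ k ∈ s, c k * ev (p k) u) ^ 2 ∂sig n =
      ∑ k ∈ s, c k ^ 2 * ∫ u, ev (p k) u ^ 2 ∂sig n := by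
  simp only [sq, sum_mul_sum, mul_mul_mul_comm (c _) (ev _ _)]
  rw [integral_finsetSum _ fun k _ => integrable_finsetSum _ fun l _ =>
    (HarmB.int_mul _ _).const_mul _]
  refine sum_congr rfl fun k hk => ?_
  rw [integral_finsetSum _ fun l _ => (HarmB.int_mul _ _).const_mul _,
    sum_eq_single_of_mem k hk fun l _ hl => by
      rw [integral_const_mul, orth hn (hp k) (hp l) hl.symm, mul_zero], integral_const_mul]

theorem Expa.pyth (hn : 3 ≤ n) {g : E n → ℝ} {p : ℕ → Pol n} (h : Expa g p) (s : Finset ℕ) :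
    ∫ u, (g u - ∑ k ∈ s, ev (p k) u) ^ 2 ∂sig n =
      ∫ u, g u ^ 2 ∂sig n - ∑ k ∈ s, ∫ u, ev (p k) u ^ 2 ∂sig n := by
  have h1 := HarmB.sq_add (a := fun u => g u - ∑ k ∈ s, ev (p k) u)
    (h.mem.sub (HarmB.memLp_sum s p)) (HarmB.memLp_sum s p) (HarmB.orth_S hn h s)
  have h2 := integral_sq_sum hn h.harm s fun _ => 1
  simp only [sub_add_cancel, one_mul, one_pow] at h1 h2
  rw [h1, h2, add_sub_cancel_right]

theorem Expa.tail (hn : 3 ≤ n) {g : E n → ℝ} {p : ℕ → Pol n} (h : Expa g p) {ε : ℝ}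
    (hε : 0 < ε) : ∃ N₀, ∀ N, N₀ ≤ N →
      ∫ u, (g u - ∑ k ∈ range N, ev (p k) u) ^ 2 ∂sig n ≤ ε := by
  obtain ⟨r, hr⟩ := dense h.mem hε
  obtain ⟨N₀, h0⟩ := Expa.orth_poly hn r
  refine ⟨N₀, fun N hN => le_trans ?_ hr⟩
  have hS := HarmB.memLp_sum (range N) p
  have h1 := HarmB.sq_add (a := fun u => g u - ∑ k ∈ range N, ev (p k) u)
    (b := fun u => ∑ k ∈ range N, ev (p k) u - ev r u) (h.mem.sub hS) (hS.sub (memLp_ev r 2)) (by
      simp only [mul_sub (g _ - _)]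
      rw [integral_sub (integrable_mul2 (f := fun u => g u - ∑ k ∈ range N, ev (p k) u)
        (h.mem.sub hS) hS) (integrable_mul2 (f := fun u => g u - ∑ k ∈ range N, ev (p k) u)
        (h.mem.sub hS) (memLp_ev r 2)), HarmB.orth_S hn h, h0 N hN g p h, sub_self])
  simp only [sub_add_sub_cancel] at h1
  rw [h1]
  exact le_add_of_nonneg_right (integral_nonneg fun u => sq_nonneg _)

theorem Expa.zero {g : E n → ℝ} {p : ℕ → Pol n} (h : Expa g p) (u : E n) :
    ev (p 0) u = ∫ x, g x ∂sig n := by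
  obtain ⟨c, hc⟩ := ev_deg_zero (h.harm 0).1
  have h1 := h.eq 0 _ (Harm.const 1)
  simpa [hc] using h1.symm

theorem Expa.odd {g : E n → ℝ} {p : ℕ → Pol n} (h : Expa g p) (he : ∀ x, g (-x) = g x) {j : ℕ}
    (hj : Odd j) : ∫ u, ev (p j) u ^ 2 ∂sig n = 0 := by
  have h1 := h.eq j _ (h.harm j)
  have h2 := integral_neg_sig fun u => g u * ev (p j) u
  simp only [he, ev_neg_arg (h.harm j).1, hj.neg_one_pow, neg_mul, one_mul, mul_neg,
    integral_neg] at h2
  simp only [sq]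
  linarith

end Vale.Agent.P237B
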