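import Vale.Agent.P237B.Calc

/-! Integration by parts on the sphere.

PLAN.
* ae_diff_vol: `LipschitzOnWith.ae_differentiableWithinAt_of_mem` on countably many open sets
  (`TopologicalSpace.countable_cover_nhdsWithin` for {0}ᶜ, `ae_all_iff`/`ae_ball_iff`), {0} is null
  or handle n = 0 separately (then every function is differentiable).
  ae_diff: `ae_sig` and `Hom.differentiableAt_smul` with r⁻¹.
* exists_cut: a bump function, e.g. `ContDiffBump (1 : ℝ)` with rIn = 1/8, rOut = 1/4 (then deriv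
  vanishes where claimed since χ is locally zero there);
  `HasCompactSupport.integral_Ioi_deriv_eq` applied to χ r * r^(k+1).
* lip_cut: g x = χ ‖x‖ * Φ x is LL, vanishes near 0 and outside the ball of radius 2, so it is
  locally Lipschitz everywhere, Lipschitz on closedBall 0 3
  (`LocallyLipschitzOn.exists_lipschitzOnWith_of_compact`), bounded; for ‖y‖ > 3 compare cases
  (‖x‖ ≥ 2: both zero; ‖x‖ < 2: dist ≥ 1).
* sibp: `LipschitzWith.integral_lineDeriv_mul_eq` with f = 1 gives ∫ lineDeriv g x (-e) = 0; a.e.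
  lineDeriv g x e = χ ‖x‖ * D Φ i x + χ' ‖x‖ * (x i / ‖x‖) * Φ x; both terms are integrable
  (measurable, bounded on the annulus by `LL.bdd`-type bounds or because the second is continuous with
  compact support and the sum is D g i, bounded with compact support);
  `polar` twice with ρ r = χ r * (r^d / r) and ρ r = χ' r * r^d; `exists_cut` with k = n + d - 2. -/

namespace Vale.Agent.P237B

open MeasureTheory Metric Set Filter Topology
open scoped RealInnerProductSpace ENNReal NNReal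

variable {n : ℕ}

theorem LL.ae_diff_vol {Φ : E n → ℝ} (h : LL Φ) : ∀ᵐ x, DifferentiableAt ℝ Φ x := by
  rcases subsingleton_or_nontrivial (E n) with hs | hs
  · exact ae_of_all _ fun x => (hasFDerivAt_of_subsingleton Φ x).differentiableAt
  have h1 : volume {x : E n | x ≠ 0 ∧ ¬ DifferentiableAt ℝ Φ x} = 0 := by
    refine measure_null_of_locally_null _ fun x hx => ?_
    obtain ⟨C, s, hs, hC⟩ := h x hx.1
    refine ⟨_, inter_mem_nhdsWithin _ (interior_mem_nhds.2 hs), ?_⟩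
    refine measure_mono_null ?_ (ae_iff.1 (hC.ae_differentiableWithinAt_of_mem (μ := volume)))
    intro y hy hy'
    exact hy.1.2 ((hy' (interior_subset hy.2)).differentiableAt (mem_interior_iff_mem_nhds.1 hy.2))
  filter_upwards [measure_eq_zero_iff_ae_notMem.1 h1, Measure.ae_ne volume (0 : E n)] with x h2 h3
  by_contra h4
  exact h2 ⟨h3, h4⟩

/-- A radial cut-off function. -/
theorem exists_cut : ∃ χ : ℝ → ℝ, ContDiff ℝ 1 χ ∧ (∀ r, 0 ≤ χ r) ∧
    (∀ r, r ≤ 1 / 2 ∨ 2 ≤ r → χ r = 0 ∧ deriv χ r = 0) ∧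
    ∀ k : ℕ, 0 < ∫ r in Ioi (0 : ℝ), χ r * r ^ k ∧
      ∫ r in Ioi (0 : ℝ), deriv χ r * r ^ (k + 1) =
        -((k : ℝ) + 1) * ∫ r in Ioi (0 : ℝ), χ r * r ^ k := by
  let f : ContDiffBump (1 : ℝ) := ⟨1 / 8, 1 / 4, by norm_num, by norm_num⟩
  have hf : ContDiff ℝ 1 f := f.contDiff
  have hs : HasCompactSupport f := f.hasCompactSupport
  refine ⟨f, hf, f.nonneg', fun r hr => ?_, fun k => ?_⟩
  · have h1 : r ∉ tsupport f := by
      rw [f.tsupport_eq, mem_closedBall, Real.dist_eq, abs_le]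
      show ¬ (-(1 / 4) ≤ r - 1 ∧ r - 1 ≤ 1 / 4)
      rcases hr with hr | hr <;> intro h <;> linarith [h.1, h.2]
    exact ⟨image_eq_zero_of_notMem_tsupport h1, by
      by_contra h; exact h1 (support_deriv_subset h)⟩
  have c1 : Continuous fun r : ℝ => f r * r ^ k := hf.continuous.mul (continuous_pow k)
  have i1 : Integrable fun r : ℝ => f r * r ^ k := c1.integrable_of_hasCompactSupport hs.mul_right
  have i2 : Integrable fun r : ℝ => deriv f r * r ^ (k + 1) :=
    ((hf.continuous_deriv le_rfl).mul (continuous_pow _)).integrable_of_hasCompactSupport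
      hs.deriv.mul_right
  constructor
  · refine (setIntegral_pos_iff_support_of_nonneg_ae ?_ i1.integrableOn).2
      ((c1.isOpen_support.inter isOpen_Ioi).measure_pos _ ⟨1, ?_, mem_Ioi.2 one_pos⟩)
    · filter_upwards [ae_restrict_mem measurableSet_Ioi] with r hr
      exact mul_nonneg f.nonneg (pow_nonneg (le_of_lt hr) _)
    · show f 1 * 1 ^ k ≠ 0
      rw [one_pow, mul_one]
      exact (f.pos_of_mem_ball (mem_ball_self f.rOut_pos)).ne'
  · have h1 := HasCompactSupport.integral_Ioi_deriv_eq (f := fun r : ℝ => f r * r ^ (k + 1))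
      (hf.mul (contDiff_id.pow _)) hs.mul_right 0
    have h2 : ∀ r : ℝ, deriv (fun r : ℝ => f r * r ^ (k + 1)) r =
        deriv f r * r ^ (k + 1) + ((k : ℝ) + 1) * (f r * r ^ k) := by
      intro r
      rw [(((hf.differentiable one_ne_zero) r).hasDerivAt.fun_mul (hasDerivAt_pow (k + 1) r)).deriv]
      push_cast
      ring
    simp only [h2] at h1
    rw [integral_add i2.integrableOn (i1.const_mul _).integrableOn, integral_const_mul] at h1
    simp only [ne_eq, Nat.add_eq_zero_iff, one_ne_zero, and_false, not_false_eq_true, zero_pow,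
      mul_zero, neg_zero] at h1
    linarith

theorem LL.lip_cut {Φ : E n → ℝ} (h : LL Φ) {χ : ℝ → ℝ} (hχ : ContDiff ℝ 1 χ)
    (h0 : ∀ r, r ≤ 1 / 2 ∨ 2 ≤ r → χ r = 0) :
    (∃ C, LipschitzWith C fun x => χ ‖x‖ * Φ x) ∧ HasCompactSupport fun x => χ ‖x‖ * Φ x := by
  have hz : ∀ x : E n, ‖x‖ ≤ 1 / 2 ∨ 2 ≤ ‖x‖ → χ ‖x‖ * Φ x = 0 := fun x hx => by
    rw [h0 _ hx, zero_mul]
  refine ⟨?_, HasCompactSupport.intro (isCompact_closedBall 0 2) fun x hx =>
    hz x (Or.inr (by simpa using (not_le.1 (mem_closedBall_zero_iff.not.1 hx)).le))⟩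
  have h1 : LL fun x : E n => χ ‖x‖ * Φ x :=
    ((LL.of_lipschitz lipschitzWith_one_norm).comp fun x _ => hχ.contDiffAt).mul h
  have h2 : LocallyLipschitzOn (closedBall (0 : E n) 3) fun x => χ ‖x‖ * Φ x := by
    intro x _
    by_cases hx : x = 0
    · refine ⟨0, closedBall 0 (1 / 2), mem_nhdsWithin_of_mem_nhds
        (hx ▸ closedBall_mem_nhds _ (by norm_num)), fun y hy z hz' => ?_⟩
      simp only [hz y (Or.inl (mem_closedBall_zero_iff.1 hy)),
        hz z (Or.inl (mem_closedBall_zero_iff.1 hz')), edist_self, zero_le]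
    · obtain ⟨C, s, hs, hC⟩ := h1 x hx
      exact ⟨C, s, mem_nhdsWithin_of_mem_nhds hs, hC⟩
  obtain ⟨K, hK⟩ := h2.exists_lipschitzOnWith_of_compact (isCompact_closedBall _ _)
  rw [lipschitzOnWith_iff_dist_le_mul] at hK
  have hK0 : (0 : ℝ) ≤ K := K.2
  have key : ∀ x y : E n, 3 < ‖y‖ → dist (χ ‖x‖ * Φ x) (χ ‖y‖ * Φ y) ≤ 2 * K * dist x y := by
    intro x y hy
    rw [hz y (Or.inr (by linarith))]
    rcases le_or_gt 2 ‖x‖ with hx | hx
    · rw [hz x (Or.inr hx), dist_self]; positivity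
    · have a1 := hK x (mem_closedBall_zero_iff.2 (by linarith)) 0 (mem_closedBall_self (by norm_num))
      rw [hz 0 (Or.inl (by simp)), dist_zero_right x] at a1
      have a2 : 1 ≤ dist x y := by
        have := norm_sub_norm_le y x
        rw [dist_comm, dist_eq_norm]; linarith
      nlinarith
  refine ⟨2 * K, LipschitzWith.of_dist_le_mul fun x y => ?_⟩
  push_cast
  rcases lt_or_ge 3 ‖y‖ with hy | hy
  · exact key x y hy
  rcases lt_or_ge 3 ‖x‖ with hx | hx
  · rw [dist_comm, dist_comm x]; exact key y x hx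
  have := hK x (mem_closedBall_zero_iff.2 hx) y (mem_closedBall_zero_iff.2 hy)
  nlinarith [dist_nonneg (x := x) (y := y)]

namespace IBP

theorem bdd_ann {Φ : E n → ℝ} (h : LL Φ) :
    ∃ C, ∀ u : E n, 1 / 2 ≤ ‖u‖ → ‖u‖ ≤ 2 → |Φ u| ≤ C ∧ ∀ i, |D Φ i u| ≤ C := by
  have hK : IsCompact (closedBall (0 : E n) 2 \ ball 0 (1 / 2)) :=
    (isCompact_closedBall _ _).diff isOpen_ball
  have hs : closedBall (0 : E n) 2 \ ball 0 (1 / 2) ⊆ {0}ᶜ := fun x hx h0 =>
    hx.2 (by rw [show x = 0 from h0]; exact mem_ball_self (by norm_num))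
  obtain ⟨C, hC⟩ := hK.exists_bound_of_continuousOn (h.continuousOn.mono hs)
  obtain ⟨C', hC'⟩ : ∃ C' : ℝ, ∀ u ∈ closedBall (0 : E n) 2 \ ball 0 (1 / 2),
      ‖fderiv ℝ Φ u‖ ≤ C' := by
    refine hK.induction_on
      (p := fun t => ∃ C' : ℝ, ∀ u ∈ t, ‖fderiv ℝ Φ u‖ ≤ C') ⟨0, by simp⟩
      (fun s t hst ⟨c, hc⟩ => ⟨c, fun u hu => hc u (hst hu)⟩)
      (fun s t ⟨c, hc⟩ ⟨c', hc'⟩ => ⟨max c c', fun u hu => hu.elim
        (fun hu => (hc u hu).trans (le_max_left _ _)) fun hu => (hc' u hu).trans (le_max_right _ _)⟩)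
      fun x hx => ?_
    obtain ⟨c, s, hs', hc⟩ := h x (hs hx)
    exact ⟨interior s, mem_nhdsWithin_of_mem_nhds (interior_mem_nhds.2 hs'), c, fun u hu =>
      norm_fderiv_le_of_lipschitzOn ℝ (mem_interior_iff_mem_nhds.1 hu) hc⟩
  refine ⟨max C C', fun u h1 h2 => ?_⟩
  have hu' : u ∈ closedBall (0 : E n) 2 \ ball 0 (1 / 2) :=
    ⟨mem_closedBall_zero_iff.2 h2, fun h3 => (mem_ball_zero_iff.1 h3).not_ge h1⟩
  refine ⟨(hC u hu').trans (le_max_left _ _), fun i => ?_⟩
  refine ((fderiv ℝ Φ u).le_opNorm _).trans ?_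
  rw [PiLp.norm_single, norm_one, mul_one]
  exact (hC' u hu').trans (le_max_right _ _)

theorem integrable_cut {ψ : ℝ → ℝ} (hψ : Continuous ψ) (h0 : ∀ r, r ≤ 1 / 2 ∨ 2 ≤ r → ψ r = 0)
    {F : E n → ℝ} (hF : Measurable F) {B : ℝ} (hB : ∀ x, 1 / 2 ≤ ‖x‖ → ‖x‖ ≤ 2 → |F x| ≤ B) :
    Integrable fun x : E n => ψ ‖x‖ * F x := by
  have h1 : Integrable fun x : E n => ψ ‖x‖ :=
    (hψ.comp continuous_norm).integrable_of_hasCompactSupport
      (HasCompactSupport.intro (isCompact_closedBall 0 2) fun x hx =>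
        h0 _ (Or.inr (not_le.1 (mem_closedBall_zero_iff.not.1 hx)).le))
  refine (h1.norm.mul_const B).mono'
    ((hψ.measurable.comp measurable_norm).mul hF).aestronglyMeasurable (ae_of_all _ fun x => ?_)
  by_cases hx : ‖x‖ ≤ 1 / 2 ∨ 2 ≤ ‖x‖
  · simp [h0 _ hx]
  · rw [not_or, not_le, not_le] at hx
    rw [norm_mul]
    exact mul_le_mul_of_nonneg_left (hB x hx.1.le hx.2.le) (norm_nonneg _)

theorem coord_le (x : E n) (i : Fin n) : |x i / ‖x‖| ≤ 1 := by
  rw [abs_div, abs_norm]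
  exact div_le_one_of_le₀ (PiLp.norm_apply_le x i) (norm_nonneg _)

theorem integral_D {g : E n → ℝ} {C : ℝ≥0} (hg : LipschitzWith C g) (hs : HasCompactSupport g)
    (i : Fin n) : ∫ x, D g i x = 0 := by
  have h1 := LipschitzWith.integral_lineDeriv_mul_eq (μ := volume)
    (LipschitzWith.const (α := E n) (1 : ℝ)) hg hs (-EuclideanSpace.single i 1)
  simp only [lineDeriv, deriv_const', zero_mul, integral_zero, neg_neg, mul_one] at h1
  rw [h1]
  refine integral_congr_ae ?_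
  filter_upwards [hg.ae_differentiableAt (μ := volume)] with x hx
  exact hx.lineDeriv_eq_fderiv.symm

theorem D_cut {χ : ℝ → ℝ} (hχ : ContDiff ℝ 1 χ) {Φ : E n → ℝ} {x : E n}
    (hx : DifferentiableAt ℝ Φ x) (hx0 : x ≠ 0) (i : Fin n) :
    D (fun x => χ ‖x‖ * Φ x) i x = χ ‖x‖ * D Φ i x + deriv χ ‖x‖ * (x i / ‖x‖ * Φ x) := by
  have hn : DifferentiableAt ℝ (fun x : E n => ‖x‖) x :=
    (contDiffAt_norm ℝ (n := 1) hx0).differentiableAt one_ne_zero
  have hd := (hχ.differentiable one_ne_zero ‖x‖).hasDerivAt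
  rw [D_mul (Φ := fun x => χ ‖x‖) (hd.differentiableAt.comp x hn) hx, D_comp hn hd, D_norm hx0]
  ring

end IBP

variable [NeZero n]

theorem LL.memLp {Φ : E n → ℝ} (h : LL Φ) (p : ℝ≥0∞) : MemLp Φ p (sig n) :=
  memLp_of_contOn h.continuousOn p

theorem LL.memLp_D {Φ : E n → ℝ} (h : LL Φ) (i : Fin n) (p : ℝ≥0∞) :
    MemLp (D Φ i) p (sig n) := by
  obtain ⟨C, hC⟩ := h.bdd
  exact memLp_of_bdd (measurable_D Φ i).aestronglyMeasurable (fun u hu => (hC u hu).2.2 i) p

theorem LL.integrable_gradient {Φ : E n → ℝ} (h : LL Φ) : Integrable (gradient Φ) (sig n) := by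
  obtain ⟨C, hC⟩ := h.bdd
  have hm : Measurable (gradient Φ) :=
    (InnerProductSpace.toDual ℝ (E n)).symm.continuous.measurable.comp (measurable_fderiv ℝ Φ)
  refine Integrable.of_bound hm.aestronglyMeasurable C (ae_norm.mono fun u hu => ?_)
  rw [gradient, LinearIsometryEquiv.norm_map]
  exact (hC u hu).2.1

theorem LL.ae_diff {Φ : E n → ℝ} (h : LL Φ) {d : ℕ} (hd : Hom d Φ) :
    ∀ᵐ u ∂sig n, DifferentiableAt ℝ Φ u := by
  refine ae_sig h.ae_diff_vol fun x r hr hx => ?_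
  have := hd.differentiableAt_smul hx (inv_pos.2 hr)
  rwa [inv_smul_smul₀ hr.ne'] at this

/-- Integration by parts on the sphere. -/
theorem sibp (hn : 2 ≤ n) {Φ : E n → ℝ} (h : LL Φ) {d : ℕ} (hd : Hom d Φ) (i : Fin n) :
    ∫ u, D Φ i u ∂sig n = ((n : ℝ) + d - 1) * ∫ u, u i * Φ u ∂sig n := by
  obtain ⟨χ, hχ, -, hz, hk⟩ := exists_cut
  obtain ⟨m, rfl⟩ : ∃ m, n = m + 2 := ⟨n - 2, by omega⟩
  obtain ⟨⟨C, hC⟩, hs⟩ := h.lip_cut hχ fun r hr => (hz r hr).1
  obtain ⟨B, hB⟩ := IBP.bdd_ann h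
  have h1 := IBP.integral_D hC hs i
  have iA : Integrable fun x : E (m + 2) => χ ‖x‖ * D Φ i x :=
    IBP.integrable_cut hχ.continuous (fun r hr => (hz r hr).1) (measurable_D Φ i)
      fun x h1 h2 => (hB x h1 h2).2 i
  have iB : Integrable fun x : E (m + 2) => deriv χ ‖x‖ * (x i / ‖x‖ * Φ x) :=
    IBP.integrable_cut (hχ.continuous_deriv le_rfl) (fun r hr => (hz r hr).2)
      (((by fun_prop : Measurable fun x : E (m + 2) => x i).div measurable_norm).mul h.measurable)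
      (B := B) fun x h1 h2 => by
        rw [abs_mul]
        exact (mul_le_of_le_one_left (abs_nonneg _) (IBP.coord_le x i)).trans (hB x h1 h2).1
  have h2 : ∫ x, D (fun x => χ ‖x‖ * Φ x) i x =
      ∫ x : E (m + 2), (χ ‖x‖ * D Φ i x + deriv χ ‖x‖ * (x i / ‖x‖ * Φ x)) := by
    refine integral_congr_ae ?_
    filter_upwards [h.ae_diff_vol, Measure.ae_ne volume (0 : E (m + 2))] with x hx hx0
    exact IBP.D_cut hχ hx hx0 i
  have pA := polar (A := fun x : E (m + 2) => χ ‖x‖ * D Φ i x) (a := D Φ i)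
    (ρ := fun r => χ r * (r ^ d / r)) (by
      filter_upwards [ae_norm, h.ae_diff hd] with u hu hu' r hr
      rw [norm_smul, hu, mul_one, Real.norm_of_nonneg hr.le, hd.D_smul hu' hr, mul_assoc])
  have pB := polar (A := fun x : E (m + 2) => deriv χ ‖x‖ * (x i / ‖x‖ * Φ x))
    (a := fun u => u i * Φ u) (ρ := fun r => deriv χ r * r ^ d) (by
      filter_upwards [ae_norm] with u hu r hr
      rw [norm_smul, hu, mul_one, Real.norm_of_nonneg hr.le, hd u r hr, PiLp.smul_apply,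
        smul_eq_mul]
      field_simp)
  have eA : ∫ r in Ioi (0 : ℝ), χ r * (r ^ d / r) * r ^ (m + 2 - 1) =
      ∫ r in Ioi (0 : ℝ), χ r * r ^ (d + m) :=
    setIntegral_congr_fun measurableSet_Ioi fun r hr => by
      have : r ≠ 0 := ne_of_gt hr
      simp only [show m + 2 - 1 = m + 1 from rfl]
      field_simp
      ring
  have eB : ∫ r in Ioi (0 : ℝ), deriv χ r * r ^ d * r ^ (m + 2 - 1) =
      ∫ r in Ioi (0 : ℝ), deriv χ r * r ^ (d + m + 1) :=
    setIntegral_congr_fun measurableSet_Ioi fun r _ => by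
      simp only [show m + 2 - 1 = m + 1 from rfl]
      ring
  rw [h2, integral_add iA iB, pA, pB, eA, eB, (hk (d + m)).2] at h1
  have hp := mul_pos (Sph.nk_pos (n := m + 2)) (hk (d + m)).1
  refine mul_left_cancel₀ hp.ne' ?_
  push_cast at h1 ⊢
  linarith

end Vale.Agent.P237B
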