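import Vale.Agent.P237B.Poly
import Vale.Agent.P237B.IBP

/-! Spherical harmonics: orthogonality, projections, density.

PLAN.
* orth: `sibp` for Φ = ev p * ev (∂i r) (degree j + (k-1)), summed over i, with `ev_lap`, `ev_euler`:
  ∑ ∫ ∂i p ∂i r = (n + j + k - 2) k ∫ p r (trivial when k = 0); the same with p, r swapped gives
  the factor j; n + j + k - 2 > 0.
* exists_proj: in Lp ℝ 2 (sig n) take the finite-dimensional subspace that is the image of the
  submodule of harmonic homogeneous polynomials of degree j (≤ `homogeneousSubmodule`, finite by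
  `homogeneousSubmodule_fg`) under the linear map p ↦ (memLp_ev p 2).toLp; use
  `Submodule.starProjection` / `sub_starProjection_mem_orthogonal`, `L2.inner_def`.
* dense: `MemLp.exists_boundedContinuous_eLpNorm_sub_le` or
  `MemLp.exists_boundedContinuous_integral_rpow_sub_le`, then Stone-Weierstrass on the compact sphere
  (`ContinuousMap.exists_mem_subalgebra_near_continuous_of_separatesPoints`, subalgebra = range of
  the algebra map p ↦ ev p restricted to the sphere), (a+b)^2 ≤ 2a^2 + 2b^2, `ae_norm`. -/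

namespace Vale.Agent.P237B

open MeasureTheory MvPolynomial Finset
open scoped ENNReal

variable {n : ℕ} [NeZero n]

theorem memLp_ev (p : Pol n) (q : ℝ≥0∞) : MemLp (ev p) q (sig n) := (ll_ev p).memLp q

theorem integrable_mul2 {f g : E n → ℝ} (hf : MemLp f 2 (sig n)) (hg : MemLp g 2 (sig n)) :
    Integrable (fun u => f u * g u) (sig n) := hf.integrable_mul hg

theorem integrable_sq {f : E n → ℝ} (hf : MemLp f 2 (sig n)) :
    Integrable (fun u => f u ^ 2) (sig n) := hf.integrable_sq

theorem memLp_mul_ev {f : E n → ℝ} (hf : MemLp f 2 (sig n)) (p : Pol n) :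
    MemLp (fun u => f u * ev p u) 2 (sig n) := by
  exact (memLp_ev p ∞).mul' hf

namespace HarmA

theorem int_ev (p : Pol n) : Integrable (ev p) (sig n) := memLp_one_iff_integrable.1 (memLp_ev p 1)

theorem key (hn : 2 ≤ n) {p r : Pol n} {j k : ℕ} (hp : p.IsHomogeneous j) (hr : Harm k r) :
    ∫ u, ∑ i, ev (pderiv i p) u * ev (pderiv i r) u ∂sig n =
      ((n : ℝ) + j + k - 2) * k * ∫ u, ev p u * ev r u ∂sig n := by
  rcases k with _ | k
  · simp [Poly.pderiv_zero hr.1]
  have h1 : ∀ i, ∫ u, ev (pderiv i (p * pderiv i r)) u ∂sig n =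
      ((n : ℝ) + (j + k : ℕ) - 1) * ∫ u, ev (X i * (p * pderiv i r)) u ∂sig n := fun i => by
    simpa only [D_ev, ev_mul, ev_X, Nat.add_sub_cancel] using
      sibp hn (ll_ev (p * pderiv i r)) (hom_ev (hp.mul (hr.pderiv i).1)) i
  have h2 := sum_congr (s₁ := univ) rfl fun i _ => h1 i
  rw [← mul_sum, ← integral_finsetSum _ fun i _ => int_ev _,
    ← integral_finsetSum _ fun i _ => int_ev _] at h2
  have h3 : ∀ u, ∑ i, ev (pderiv i (p * pderiv i r)) u =
      ∑ i, ev (pderiv i p) u * ev (pderiv i r) u := fun u => by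
    simp only [pderiv_mul, ev_add, ev_mul, sum_add_distrib, ← mul_sum, ev_lap hr, mul_zero,
      add_zero]
  have h4 : ∀ u, ∑ i, ev (X i * (p * pderiv i r)) u = (k + 1 : ℕ) * (ev p u * ev r u) := fun u => by
    rw [mul_left_comm, ← ev_euler hr.1, mul_sum]
    exact sum_congr rfl fun i _ => by simp only [ev_mul, ev_X]; ring
  simp only [h3, h4, integral_const_mul] at h2
  rw [h2]
  push_cast
  ring

/-- polynomials as elements of `L²` -/
noncomputable def toL : Pol n →ₗ[ℝ] Lp ℝ 2 (sig n) where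
  toFun p := (memLp_ev p 2).toLp
  map_add' p q := by
    rw [← MemLp.toLp_add]
    exact MemLp.toLp_congr _ _ (ae_of_all _ fun u => ev_add p q u)
  map_smul' c p := by
    rw [RingHom.id_apply, ← MemLp.toLp_const_smul]
    exact MemLp.toLp_congr _ _ (ae_of_all _ fun u => ev_smul c p u)

omit [NeZero n] in
theorem inner_toLp {f g : E n → ℝ} (hf : MemLp f 2 (sig n)) (hg : MemLp g 2 (sig n)) :
    inner ℝ hg.toLp hf.toLp = ∫ u, f u * g u ∂sig n := by
  rw [L2.inner_def]
  refine integral_congr_ae ?_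
  filter_upwards [hf.coeFn_toLp, hg.coeFn_toLp] with u h1 h2
  rw [h1, h2]
  simp

/-- harmonic homogeneous polynomials -/
def HS (n j : ℕ) : Submodule ℝ (Pol n) where
  carrier := {p | Harm j p}
  add_mem' := Harm.add
  zero_mem' := Harm.zero j
  smul_mem' c _ h := h.smul c

/-- polynomials as continuous maps -/
noncomputable def toC (n : ℕ) : Pol n →ₐ[ℝ] C(E n, ℝ) :=
  aeval fun i => ⟨fun x => x i, by fun_prop⟩

omit [NeZero n] in
theorem toC_apply (p : Pol n) (x : E n) : toC n p x = ev p x := by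
  induction p using MvPolynomial.induction_on with
  | C c => simp [toC]
  | add p q hp hq => simp [hp, hq]
  | mul_X p i hp =>
    rw [map_mul, ContinuousMap.mul_apply, hp, ev_mul, ev_X]
    simp [toC]

end HarmA

theorem orth (hn : 3 ≤ n) {p r : Pol n} {j k : ℕ} (hp : Harm j p) (hr : Harm k r) (h : j ≠ k) :
    ∫ u, ev p u * ev r u ∂sig n = 0 := by
  have h1 := HarmA.key (by omega) hp.1 hr
  have h2 := HarmA.key (by omega) hr.1 hp
  simp only [mul_comm (ev (pderiv _ r) _), mul_comm (ev r _)] at h2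
  have h3 : (3 : ℝ) ≤ n := by exact_mod_cast hn
  have h4 : (0 : ℝ) < n + j + k - 2 := by
    linarith [(Nat.cast_nonneg j : (0 : ℝ) ≤ j), (Nat.cast_nonneg k : (0 : ℝ) ≤ k)]
  have h5 : ((n : ℝ) + j + k - 2) * ((j : ℝ) - k) * ∫ u, ev p u * ev r u ∂sig n = 0 := by
    linear_combination h1 - h2
  exact (mul_eq_zero.1 h5).resolve_left (mul_ne_zero h4.ne' (sub_ne_zero.2 (by exact_mod_cast h)))

theorem exists_proj {g : E n → ℝ} (hg : MemLp g 2 (sig n)) (j : ℕ) :
    ∃ p, Harm j p ∧ ∀ r, Harm j r → ∫ u, g u * ev r u ∂sig n = ∫ u, ev p u * ev r u ∂sig n := by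
  have h1 : Module.Finite ℝ (homogeneousSubmodule (Fin n) ℝ j) :=
    Module.Finite.iff_fg.2 (homogeneousSubmodule_fg _ _ j)
  have h2 : FiniteDimensional ℝ (HarmA.HS n j) :=
    Submodule.finiteDimensional_of_le (S₂ := homogeneousSubmodule (Fin n) ℝ j) fun p hp => hp.1
  obtain ⟨_, ⟨p, hp, rfl⟩, h⟩ := Submodule.HasOrthogonalProjection.exists_orthogonal
    (K := (HarmA.HS n j).map HarmA.toL) hg.toLp
  refine ⟨p, hp, fun r hr => ?_⟩
  have h3 := h _ ⟨r, hr, rfl⟩
  rw [inner_sub_right, sub_eq_zero] at h3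
  exact (HarmA.inner_toLp hg (memLp_ev r 2)).symm.trans
    (h3.trans (HarmA.inner_toLp (memLp_ev p 2) (memLp_ev r 2)))

theorem dense {g : E n → ℝ} (hg : MemLp g 2 (sig n)) {ε : ℝ} (hε : 0 < ε) :
    ∃ p : Pol n, ∫ u, (g u - ev p u) ^ 2 ∂sig n ≤ ε := by
  obtain ⟨f, hf, hf'⟩ := MemLp.exists_boundedContinuous_integral_rpow_sub_le (μ := sig n)
    (p := 2) two_pos (f := g) (by simpa using hg) (ε := ε / 4) (by positivity)
  have hs : (HarmA.toC n).range.SeparatesPoints := by
    intro x y hxy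
    obtain ⟨i, hi⟩ : ∃ i, x i ≠ y i := by
      by_contra h
      push Not at h
      exact hxy (PiLp.ext h)
    exact ⟨_, ⟨_, ⟨X i, rfl⟩, rfl⟩, by simpa [HarmA.toC] using hi⟩
  obtain ⟨_, ⟨p, rfl⟩, hp⟩ :=
    ContinuousMap.exists_mem_subalgebra_near_continuous_of_isCompact_of_separatesPoints hs
      f.toContinuousMap (isCompact_sphere (0 : E n) 1) (Real.sqrt_pos.2 (by positivity : 0 < ε / 4))
  have hf2 : MemLp f 2 (sig n) := by simpa using hf'
  have h1 : Integrable (fun u => (g u - f u) ^ 2) (sig n) := integrable_sq (hg.sub hf2)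
  refine ⟨p, (integral_mono_ae (g := fun u => 2 * (g u - f u) ^ 2 + ε / 2)
    (integrable_sq (hg.sub (memLp_ev p 2))) ((h1.const_mul 2).add (integrable_const _)) ?_).trans ?_⟩
  · filter_upwards [ae_norm] with u hu
    have h2 := hp u (mem_sphere_zero_iff_norm.2 hu)
    have h3 : (ev p u - f u) ^ 2 ≤ ε / 4 := by
      rw [← sq_abs, ← Real.sq_sqrt (by positivity : 0 ≤ ε / 4)]
      refine pow_le_pow_left₀ (abs_nonneg _) (le_of_lt ?_) 2
      rw [← HarmA.toC_apply]
      exact h2
    rw [Pi.sub_apply]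
    nlinarith [sq_nonneg (g u - f u + (ev p u - f u))]
  · rw [integral_add (h1.const_mul 2) (integrable_const _), integral_const_mul]
    simp only [Real.norm_eq_abs, Real.rpow_two, sq_abs] at hf
    simp only [integral_const, probReal_univ, one_smul]
    linarith

end Vale.Agent.P237B
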