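import Vale.Agent.P237B.OB1A

/-! The one-norm inequality with `q = 1` in dimensions 4 and 5: certificates. -/

namespace Vale.Agent.P237B

open MeasureTheory Set

theorem cert1_4a : Cert1 4 (121 / 25) (867 / 500) (97 / 50) (0) := by
  intro y hy
  obtain ⟨s, rfl⟩ : ∃ s, y = 1 + s := ⟨y - 1, by ring⟩
  have hs : 0 ≤ s := by linarith
  have h : 0 ≤ s ^ 2 * (1 + s)⁻¹ ^ 8 * (
      1 / 75 * s ^ 7 + 163 / 1600 * s ^ 6 + 67 / 200 * s ^ 5 + 49 / 80 * s ^ 4 +
      133 / 200 * s ^ 3 + 167 / 400 * s ^ 2 + 13 / 100 * s ^ 1 + 1 / 100 * s ^ 0) := by positivity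
  rw [← sub_nonneg]
  convert h using 1
  simp only [U1, W1, F1]
  push_cast
  field_simp
  ring

theorem cert1_4b : Cert1 4 (133 / 25) (283 / 200) (181 / 100) (3 / 250) := by
  intro y hy
  obtain ⟨s, rfl⟩ : ∃ s, y = 1 + s := ⟨y - 1, by ring⟩
  have hs : 0 ≤ s := by linarith
  have h : 0 ≤ s ^ 0 * (1 + s)⁻¹ ^ 20 * (
      107 / 450 * s ^ 21 + 221821 / 48000 * s ^ 20 + 101981 / 2400 * s ^ 19 +
      3535957 / 14400 * s ^ 18 + 799159 / 800 * s ^ 17 + 9715617 / 3200 * s ^ 16 +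
      21414139 / 3000 * s ^ 15 + 5302253 / 400 * s ^ 14 + 3934733 / 200 * s ^ 13 +
      675230681 / 28800 * s ^ 12 + 53744777 / 2400 * s ^ 11 + 407721143 / 24000 * s ^ 10 +
      72332999 / 7200 * s ^ 9 + 14316863 / 3200 * s ^ 8 + 22475 / 16 * s ^ 7 +
      643813 / 2400 * s ^ 6 + 39191 / 2000 * s ^ 5 + 1407 / 800 * s ^ 4 + 2123 / 600 * s ^ 3 +
      297 / 200 * s ^ 2 + 6 / 25 * s ^ 1 + 3 / 250 * s ^ 0) := by positivity
  rw [← sub_nonneg]
  convert h using 1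
  simp only [U1, W1, F1]
  push_cast
  field_simp
  ring

theorem cert1_4c : Cert1 4 (137 / 20) (499 / 500) (111 / 100) (511 / 2000) := by
  intro y hy
  obtain ⟨s, rfl⟩ : ∃ s, y = 1 + s := ⟨y - 1, by ring⟩
  have hs : 0 ≤ s := by linarith
  have h : 0 ≤ s ^ 0 * (1 + s)⁻¹ ^ 8 * (
      1 / 900 * s ^ 9 + 37 / 4000 * s ^ 8 + 17 / 500 * s ^ 7 + 217 / 3000 * s ^ 6 +
      49 / 500 * s ^ 5 + 239 / 400 * s ^ 4 + 3137 / 1500 * s ^ 3 + 3079 / 1000 * s ^ 2 +
      511 / 250 * s ^ 1 + 511 / 2000 * s ^ 0) := by positivity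
  rw [← sub_nonneg]
  convert h using 1
  simp only [U1, W1, F1]
  push_cast
  field_simp
  ring

theorem cert1_5a : Cert1 5 (273 / 50) (827 / 500) (91 / 50) (0) := by
  intro y hy
  obtain ⟨s, rfl⟩ : ∃ s, y = 1 + s := ⟨y - 1, by ring⟩
  have hs : 0 ≤ s := by linarith
  have h : 0 ≤ s ^ 2 * (1 + s)⁻¹ ^ 10 * (
      43 / 2750 * s ^ 9 + 473 / 3125 * s ^ 8 + 817 / 1250 * s ^ 7 + 1032 / 625 * s ^ 6 +
      1677 / 625 * s ^ 5 + 1806 / 625 * s ^ 4 + 2537 / 1250 * s ^ 3 + 43 / 50 * s ^ 2 +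
      43 / 250 * s ^ 1) := by positivity
  rw [← sub_nonneg]
  convert h using 1
  simp only [U1, W1, F1]
  push_cast
  field_simp
  ring

theorem cert1_5b : Cert1 5 (379 / 50) (11 / 10) (7 / 5) (151 / 1000) := by
  intro y hy
  obtain ⟨s, rfl⟩ : ∃ s, y = 1 + s := ⟨y - 1, by ring⟩
  have hs : 0 ≤ s := by linarith
  have h : 0 ≤ s ^ 0 * (1 + s)⁻¹ ^ 10 * (
      1 / 5 * s ^ 11 + 9759 / 5000 * s ^ 10 + 4259 / 500 * s ^ 9 + 21831 / 1000 * s ^ 8 +
      4527 / 125 * s ^ 7 + 20139 / 500 * s ^ 6 + 7553 / 250 * s ^ 5 + 1567 / 100 * s ^ 4 +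
      34 / 5 * s ^ 3 + 683 / 200 * s ^ 2 + 151 / 100 * s ^ 1 + 151 / 1000 * s ^ 0) := by positivity
  rw [← sub_nonneg]
  convert h using 1
  simp only [U1, W1, F1]
  push_cast
  field_simp
  ring

theorem cert1_5c : Cert1 5 (859 / 100) (249 / 250) (109 / 100) (419 / 2000) := by
  intro y hy
  obtain ⟨s, rfl⟩ : ∃ s, y = 1 + s := ⟨y - 1, by ring⟩
  have hs : 0 ≤ s := by linarith
  have h : 0 ≤ s ^ 0 * (1 + s)⁻¹ ^ 12 * (
      19 / 5500 * s ^ 13 + 20377 / 550000 * s ^ 12 + 24081 / 137500 * s ^ 11 +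
      11731 / 25000 * s ^ 10 + 463 / 625 * s ^ 9 + 5553 / 10000 * s ^ 8 + 13 / 100 * s ^ 7 +
      2069 / 1250 * s ^ 6 + 4494 / 625 * s ^ 5 + 27057 / 2000 * s ^ 4 + 1776 / 125 * s ^ 3 +
      8507 / 1000 * s ^ 2 + 1257 / 500 * s ^ 1 + 419 / 2000 * s ^ 0) := by positivity
  rw [← sub_nonneg]
  convert h using 1
  simp only [U1, W1, F1]
  push_cast
  field_simp
  ring

variable {n : ℕ} [NeZero n]

theorem ob_one (hn : n = 4 ∨ n = 5) {G : E n → ℝ} (hG : IsNrm G)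
    (h1 : ∫ u, (G u)⁻¹ ^ n ∂sig n = 1) : OB 1 G := by
  obtain ⟨δ, h0, h⟩ := ob_one_of (by omega) hG h1
  rcases hn with rfl | rfl
  · rcases le_total δ (77 / 1000) with h1 | h1
    · exact h (143 / 200) _ _ _ _ (by norm_num) (by norm_num) (by norm_num [c4])
        (by norm_num [c4]) (by norm_num) cert1_4a (by nlinarith [mul_nonneg h0 (sub_nonneg.2 h1)])
        (by push_cast; linarith)
    rcases le_total δ (3 / 8) with h2 | h2
    · exact h (13 / 20) _ _ _ _ (by norm_num) (by norm_num) (by norm_num [c4])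
        (by norm_num [c4]) (by norm_num) cert1_4b (by nlinarith [mul_nonneg (sub_nonneg.2 h1) (sub_nonneg.2 h2)])
        (by push_cast; linarith)
    · exact h (101 / 200) _ _ _ _ (by norm_num) (by norm_num) (by norm_num [c4])
        (by norm_num [c4]) (by norm_num) cert1_4c (by nlinarith [sq_nonneg δ])
        (by push_cast; linarith)
  · rcases le_total δ (53 / 200) with h1 | h1
    · exact h (129 / 200) _ _ _ _ (by norm_num) (by norm_num) (by norm_num [c4])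
        (by norm_num [c4]) (by norm_num) cert1_5a (by nlinarith [mul_nonneg h0 (sub_nonneg.2 h1)])
        (by push_cast; linarith)
    rcases le_total δ (11 / 25) with h2 | h2
    · exact h (93 / 200) _ _ _ _ (by norm_num) (by norm_num) (by norm_num [c4])
        (by norm_num [c4]) (by norm_num) cert1_5b (by nlinarith [mul_nonneg (sub_nonneg.2 h1) (sub_nonneg.2 h2)])
        (by push_cast; linarith)
    · exact h (41 / 100) _ _ _ _ (by norm_num) (by norm_num) (by norm_num [c4])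
        (by norm_num [c4]) (by norm_num) cert1_5c (by nlinarith [sq_nonneg δ])
        (by push_cast; linarith)

end Vale.Agent.P237B
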