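import Vale.Agent.P237B.OB2A

/-! The one-norm inequality with `q = 2` in dimensions at least 6: certificates. -/

namespace Vale.Agent.P237B

open MeasureTheory Set

theorem cert2a : Cert2 6 5 (43 / 20) (2 / 3) := by
  intro y hy
  obtain ⟨s, rfl⟩ : ∃ s, y = 1 + s := ⟨y - 1, by ring⟩
  have hs : 0 ≤ s := by linarith
  have h : 0 ≤ s ^ 2 * (1 + s)⁻¹ ^ 12 * (
      991 / 4500 * s ^ 12 + 140279 / 58500 * s ^ 11 + 317147 / 27000 * s ^ 10 +
      38336 / 1125 * s ^ 9 + 48719 / 750 * s ^ 8 + 1159741 / 13500 * s ^ 7 +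
      744547 / 9000 * s ^ 6 + 70786 / 1125 * s ^ 5 + 1147709 / 27000 * s ^ 4 +
      29461 / 1125 * s ^ 3 + 18757 / 1500 * s ^ 2 + 2683 / 750 * s ^ 1 + 391 / 1000 * s ^ 0) := by positivity
  rw [← sub_nonneg]
  convert h using 1
  simp only [U2, W2, F2]
  push_cast
  field_simp
  ring

theorem cert2b : Cert2 7 5 (23 / 10) (13 / 20) := by
  intro y hy
  obtain ⟨s, rfl⟩ : ∃ s, y = 1 + s := ⟨y - 1, by ring⟩
  have hs : 0 ≤ s := by linarith
  have h : 0 ≤ s ^ 2 * (1 + s)⁻¹ ^ 12 * (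
      397 / 1500 * s ^ 12 + 4481 / 1500 * s ^ 11 + 32267 / 2100 * s ^ 10 +
      10019 / 210 * s ^ 9 + 1051523 / 10500 * s ^ 8 + 1592833 / 10500 * s ^ 7 +
      1833239 / 10500 * s ^ 6 + 84113 / 525 * s ^ 5 + 36239 / 300 * s ^ 4 +
      54757 / 750 * s ^ 3 + 23951 / 750 * s ^ 2 + 1038 / 125 * s ^ 1 + 79 / 100 * s ^ 0) := by positivity
  rw [← sub_nonneg]
  convert h using 1
  simp only [U2, W2, F2]
  push_cast
  field_simp
  ring

theorem cert2c : Cert2 8 6 (27 / 10) (2 / 3) := by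
  intro y hy
  obtain ⟨s, rfl⟩ : ∃ s, y = 1 + s := ⟨y - 1, by ring⟩
  have hs : 0 ≤ s := by linarith
  have h : 0 ≤ s ^ 2 * (1 + s)⁻¹ ^ 14 * (
      993 / 3500 * s ^ 14 + 2619 / 700 * s ^ 13 + 4450689 / 196000 * s ^ 12 +
      1175109 / 14000 * s ^ 11 + 5901597 / 28000 * s ^ 10 + 531999 / 1400 * s ^ 9 +
      14226927 / 28000 * s ^ 8 + 7230227 / 14000 * s ^ 7 + 11514861 / 28000 * s ^ 6 +
      33606 / 125 * s ^ 5 + 302889 / 2000 * s ^ 4 + 72369 / 1000 * s ^ 3 +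
      51273 / 2000 * s ^ 2 + 1269 / 250 * s ^ 1 + 189 / 1000 * s ^ 0) := by positivity
  rw [← sub_nonneg]
  convert h using 1
  simp only [U2, W2, F2]
  push_cast
  field_simp
  ring

theorem cert2d : Cert2 13 7 (77 / 20) (139 / 200) := by
  intro y hy
  obtain ⟨s, rfl⟩ : ∃ s, y = 1 + s := ⟨y - 1, by ring⟩
  have hs : 0 ≤ s := by linarith
  have h : 0 ≤ s ^ 2 * (1 + s)⁻¹ ^ 16 * (
      521 / 2000 * s ^ 16 + 459229 / 119000 * s ^ 15 + 38495567 / 1456000 * s ^ 14 +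
      10079439 / 91000 * s ^ 13 + 11494033 / 36400 * s ^ 12 + 8372407 / 13000 * s ^ 11 +
      3836187 / 4000 * s ^ 10 + 1039901 / 1000 * s ^ 9 + 5576709 / 7000 * s ^ 8 +
      69912 / 175 * s ^ 7 + 3173027 / 28000 * s ^ 6 + 113203 / 3500 * s ^ 5 +
      13089 / 250 * s ^ 4 + 14353 / 250 * s ^ 3 + 6359 / 200 * s ^ 2 + 4257 / 500 * s ^ 1 +
      73 / 125 * s ^ 0) := by positivity
  rw [← sub_nonneg]
  convert h using 1
  simp only [U2, W2, F2]
  push_cast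
  field_simp
  ring

variable {n : ℕ} [NeZero n]

theorem c4_two (hn : 6 ≤ n) : c4 n 2 = 4 * (((n : ℝ) ^ 2 + 5 * n + 7) / ((n + 1) * (n + 3))) := by
  rw [c4]
  push_cast
  field_simp
  ring

theorem ob_two (hn : 6 ≤ n) {G : E n → ℝ} (hG : IsNrm G)
    (h1 : ∫ u, (G u)⁻¹ ^ n ∂sig n = 1) : OB 2 G := by
  have hn' : (6 : ℝ) ≤ n := by exact_mod_cast hn
  have hp : (0 : ℝ) < (n + 1) * (n + 3) := by positivity
  have key : ∀ {m l : ℕ} {r A B : ℝ}, 1 ≤ l → l + 1 ≤ m → m ≤ n → 0 < r → r < 1 →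
      (n : ℝ) ^ 2 + 5 * n + 7 ≤ A * r * ((n + 1) * (n + 3)) →
      ((n : ℝ) ^ 2 + 5 * n + 7) * (n - 1) ≤ B * (1 - r) * (2 * n + 7) * ((n + 1) * (n + 3)) →
      4 * A ≤ 999 / 1000 * ((m : ℝ) + 3) → B ≤ 999 / 1000 * (3 / 4) → Cert2 m l A B →
      OB 2 G := by
    intro m l r A B a1 a2 a3 a4 a5 a6 a7 a8 a9 a10
    refine ob_two_of (by omega) hG h1 a1 a2 a3 a4 a5 ?_ ?_ a8 a9 a10
    · rw [c4_two hn]
      have := (div_le_iff₀ hp).2 a6
      linarith
    · rw [c4_two hn]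
      have := (div_le_iff₀ hp).2 a7
      rw [mul_comm, mul_div_assoc] at this
      linarith
  rcases Nat.lt_or_ge n 7 with h7 | h7
  · obtain rfl : n = 6 := by omega
    exact key (r := 27 / 50) (by norm_num) (by norm_num) le_rfl (by norm_num) (by norm_num)
      (by norm_num) (by norm_num) (by norm_num) (by norm_num) cert2a
  rcases Nat.lt_or_ge n 8 with h8 | h8
  · obtain rfl : n = 7 := by omega
    exact key (r := 1 / 2) (by norm_num) (by norm_num) le_rfl (by norm_num) (by norm_num)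
      (by norm_num) (by norm_num) (by norm_num) (by norm_num) cert2b
  rcases Nat.lt_or_ge n 13 with h13 | h13
  · refine key (r := 21 / 50) (by norm_num) (by norm_num) h8 (by norm_num) (by norm_num)
      ?_ ?_ (by norm_num) (by norm_num) cert2c <;> interval_cases n <;> norm_num
  · obtain ⟨k, rfl⟩ := Nat.exists_eq_add_of_le h13
    have hk : (0 : ℝ) ≤ k := Nat.cast_nonneg k
    refine key (r := 7 / 25) (by norm_num) (by norm_num) h13 (by norm_num) (by norm_num)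
      ?_ ?_ (by norm_num) (by norm_num) cert2d <;> push_cast <;>
      nlinarith [pow_nonneg hk 2, pow_nonneg hk 3]

end Vale.Agent.P237B
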