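import Vale.Agent.P237B.Core
import Vale.Agent.P237B.OB1
import Vale.Agent.P237B.OB2

/-! The projection-volume inequality with its equality case. -/

namespace Vale.Agent.P237B

open MeasureTheory Metric Set Filter Topology
open scoped Pointwise RealInnerProductSpace

variable {n : ℕ} [NeZero n]

theorem petty_of_OB (hn : 3 ≤ n) {q : ℕ} (hq : 1 ≤ q)
    (hOB : ∀ G : E n → ℝ, IsNrm G → ∫ u, (G u)⁻¹ ^ n ∂sig n = 1 → OB q G) {K : Set (E n)}
    (hK : IsBody K) :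
    kappa (n - 1) ^ n * kappa n ^ 2 * vol K ^ (n - 1) ≤ kappa n ^ n * vol (projBody K) ∧
      (kappa n ^ n * vol (projBody K) ≤ kappa (n - 1) ^ n * kappa n ^ 2 * vol K ^ (n - 1) →
        IsEllipsoid K) := by
  obtain ⟨G, hG, hZ⟩ := exists_nrm hK
  obtain ⟨S, hS⟩ := exists_inPos hG hq
  obtain ⟨T, hT⟩ := exists_adjoint S
  set d := |LinearMap.det (T : E n →ₗ[ℝ] E n)| with hd
  have hd0 : 0 < d := abs_pos.2 (LinearEquiv.isUnit_det' T).ne_zero
  have hZ' : projBody (T '' K) = {x | d⁻¹ * G (S x) ≤ 1} := by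
    ext x
    rw [mem_projBody_lin hK, hT, hZ, mem_ofPred_eq, mem_ofPred_eq, hG.smul,
      abs_of_pos (inv_pos.2 hd0)]
  obtain ⟨h1, h2⟩ := core hn hq hOB (hK.lin T) ((hG.comp S).const_mul (inv_pos.2 hd0)) hZ'
    (hS.const_mul d⁻¹)
  have hv : vol (T '' K) = d * vol K := vol_lin K (T : E n →ₗ[ℝ] E n)
  rw [vol_projBody_lin hK, hv, mul_pow, ← hd] at h1 h2
  have hp : 0 < d ^ (n - 1) := pow_pos hd0 _
  refine ⟨le_of_mul_le_mul_left (by linarith) hp, fun h => ?_⟩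
  obtain ⟨c, ρ, hρ, e⟩ := h2 (by nlinarith)
  exact IsEllipsoid.of_lin T hρ e

theorem petty (hn : 4 ≤ n) {K : Set (E n)} (hK : IsBody K) :
    kappa (n - 1) ^ n * kappa n ^ 2 * vol K ^ (n - 1) ≤ kappa n ^ n * vol (projBody K) ∧
      (kappa n ^ n * vol (projBody K) ≤ kappa (n - 1) ^ n * kappa n ^ 2 * vol K ^ (n - 1) →
        IsEllipsoid K) := by
  by_cases h : 6 ≤ n
  · exact petty_of_OB (by omega) one_le_two (fun G hG h1 => ob_two h hG h1) hK
  · exact petty_of_OB (by omega) le_rfl (fun G hG h1 => ob_one (by omega) hG h1) hK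

theorem isGreatest_shadow {K : Set (E n)} (hK : IsBody K) {u : E n} (hu : ‖u‖ = 1) :
    IsGreatest ((fun x => ⟪x, u⟫) '' projBody K) (shadow K u) := by
  obtain ⟨z, hz, e⟩ := exists_support hK u
  refine ⟨⟨z, hz, e.trans (by rw [hh, hu, one_mul])⟩, ?_⟩
  rintro _ ⟨x, hx, rfl⟩
  exact hx u hu

theorem isBody_projBody {K : Set (E n)} (hK : IsBody K) : IsBody (projBody K) := by
  obtain ⟨G, hG, e⟩ := exists_nrm hK
  rw [e]
  exact hG.isBody

theorem neg_mem_projBody {K : Set (E n)} (hK : IsBody K) {x : E n} (hx : x ∈ projBody K) :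
    -x ∈ projBody K := by
  obtain ⟨G, hG, e⟩ := exists_nrm hK
  rw [e] at hx ⊢
  change G (-x) ≤ 1
  rwa [hG.neg]

theorem final_form {K : Set (E n)}
    (h : kappa (n - 1) ^ n * kappa n ^ 2 * vol K ^ (n - 1) ≤ kappa n ^ n * vol (projBody K) ∧
      (kappa n ^ n * vol (projBody K) ≤ kappa (n - 1) ^ n * kappa n ^ 2 * vol K ^ (n - 1) →
        IsEllipsoid K)) :
    kappa (n - 1) ^ n * kappa n ^ (2 - (n : ℤ)) * vol K ^ (n - 1) ≤ vol (projBody K) ∧
      (vol (projBody K) = kappa (n - 1) ^ n * kappa n ^ (2 - (n : ℤ)) * vol K ^ (n - 1) ↔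
        IsEllipsoid K) := by
  have hκ := kappa_pos n
  have hp : 0 < kappa n ^ n := pow_pos hκ n
  have e : kappa n ^ n * (kappa (n - 1) ^ n * kappa n ^ (2 - (n : ℤ)) * vol K ^ (n - 1)) =
      kappa (n - 1) ^ n * kappa n ^ 2 * vol K ^ (n - 1) := by
    rw [zpow_sub₀ hκ.ne', zpow_natCast, zpow_ofNat]
    field_simp
  refine ⟨le_of_mul_le_mul_left (by rw [e]; exact h.1) hp, fun h' => h.2 (by rw [h', e]),
    fun h' => mul_left_cancel₀ hp.ne' (by rw [e]; exact h'.eq)⟩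

end Vale.Agent.P237B
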