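import Vale.Agent.P237B.OBM

/-! The one-norm inequality with `q = 1` from one variable inequalities. -/

namespace Vale.Agent.P237B

open MeasureTheory Set

noncomputable def U1 (m : ℕ) (z : ℝ) : ℝ := (1 - z ^ m) / m

noncomputable def W1 (m : ℕ) (y z : ℝ) : ℝ := y - 1 - U1 m z

noncomputable def F1 (m : ℕ) (y z : ℝ) : ℝ :=
  y - 1 - 2 * U1 m z + (1 - z ^ (2 * m + 1)) / (2 * (m : ℝ) + 1)

/-- The one variable inequality. -/
def Cert1 (m : ℕ) (A k lam mu : ℝ) : Prop := ∀ y : ℝ, 1 ≤ y →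
  A * U1 m y⁻¹ ^ 2 + k * (y * F1 m y y⁻¹ - W1 m y y⁻¹ ^ 2) ≤ mu + lam * W1 m y y⁻¹

theorem U1_deriv {m : ℕ} (hm : 1 ≤ m) (y : ℝ) (hy : 0 < y) :
    HasDerivAt (fun y => U1 m y⁻¹) (y⁻¹ ^ (m + 1)) y := by
  unfold U1
  refine (((hasDerivAt_inv_pow m hy).const_sub 1).div_const _).congr_deriv ?_
  have h1 : (0 : ℝ) < m := by exact_mod_cast hm
  generalize y⁻¹ = z
  field_simp

theorem W1_deriv {m : ℕ} (hm : 1 ≤ m) (y : ℝ) (hy : 0 < y) :
    HasDerivAt (fun y => W1 m y y⁻¹) (1 - y⁻¹ ^ (m + 1)) y :=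
  ((hasDerivAt_id' y).sub_const 1).fun_sub (U1_deriv hm y hy)

theorem F1_deriv {m : ℕ} (hm : 1 ≤ m) (y : ℝ) (hy : 0 < y) :
    HasDerivAt (fun y => F1 m y y⁻¹) ((1 - y⁻¹ ^ (m + 1)) ^ 2) y := by
  unfold F1
  refine ((((hasDerivAt_id' y).sub_const 1).fun_sub ((U1_deriv hm y hy).const_mul 2)).fun_add
    (((hasDerivAt_inv_pow (2 * m + 1) hy).const_sub 1).div_const _)).congr_deriv ?_
  generalize y⁻¹ = z
  push_cast
  field_simp
  ring

noncomputable def V1 (m : ℕ) (x : ℝ) : ℝ := W1 m (max x 1) (max x 1)⁻¹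

noncomputable def f1 (m : ℕ) (x : ℝ) : ℝ := F1 m (max x 1) (max x 1)⁻¹

theorem one_p1 {m : ℕ} {A k lam mu x : ℝ} (hm0 : (0 : ℝ) < m) (hA0 : 0 ≤ A) (hmu : 0 ≤ mu)
    (hC : Cert1 m A k lam mu) (hx : 0 < x) :
    A * (x - 1 - V1 m x) ^ 2 + k * (x * f1 m x - V1 m x ^ 2) ≤
      mu + lam * V1 m x + 2 * A / (m + 1) * (x - 1 + (x⁻¹ ^ m - 1) / m - V1 m x) := by
  rcases le_total 1 x with h | h
  · have := hC x h
    simp only [V1, f1, max_eq_left h]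
    have e : x - 1 - W1 m x x⁻¹ = U1 m x⁻¹ := by rw [W1]; ring
    have e2 : x - 1 + (x⁻¹ ^ m - 1) / m - W1 m x x⁻¹ = 0 := by rw [W1, U1]; ring
    rwa [e, e2, mul_zero, add_zero]
  · have e1 : V1 m x = 0 := by simp [V1, max_eq_right h, W1, U1]
    have e2 : f1 m x = 0 := by simp [f1, max_eq_right h, F1, U1]
    rw [e1, e2]
    have h2 : (1 - x) + ((m : ℝ) + 1) / 2 * (1 - x) ^ 2 ≤ (x⁻¹ ^ m - 1) / m := by
      rw [le_div_iff₀ hm0]
      linarith [inv_pow_ge hx h m]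
    have h3 : ((m : ℝ) + 1) / 2 * (1 - x) ^ 2 ≤ x - 1 + (x⁻¹ ^ m - 1) / m - 0 := by linarith
    have h4 := mul_le_mul_of_nonneg_left h3 (show 0 ≤ 2 * A / (m + 1) by positivity)
    have e : 2 * A / (m + 1) * (((m : ℝ) + 1) / 2 * (1 - x) ^ 2) = A * (x - 1 - 0) ^ 2 := by
      field_simp
      ring
    linarith

theorem one_p2 {m : ℕ} {x : ℝ} (hm : 1 ≤ m) (hx : 0 < x) :
    0 ≤ V1 m x ∧ V1 m x ≤ x - 1 + (x⁻¹ ^ m - 1) / m := by
  have hm0 : (0 : ℝ) < m := by exact_mod_cast hm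
  refine ⟨nonneg_of_deriv (W1_deriv hm) (by simp [W1, U1]) (fun y hy => ?_) (le_max_right x 1), ?_⟩
  · have : y⁻¹ ^ (m + 1) ≤ 1 := pow_le_one₀ (by positivity) (inv_le_one_of_one_le₀ hy)
    linarith
  rcases le_total 1 x with h | h
  · simp only [V1, max_eq_left h, W1, U1]
    exact le_of_eq (by ring)
  · have e1 : V1 m x = 0 := by simp [V1, max_eq_right h, W1, U1]
    have h2 : (1 - x) ≤ (x⁻¹ ^ m - 1) / m := by
      rw [le_div_iff₀ hm0]
      have : 0 ≤ m * ((m : ℝ) + 1) / 2 * (1 - x) ^ 2 := by positivity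
      linarith [inv_pow_ge hx h m]
    linarith

theorem alg_one {N t s x v δ a c r A k lam mu ν : ℝ} (hN : 3 ≤ N) (hr : 0 < r)
    (hr1 : r < 1) (hc : 0 < c) (ht0 : 0 ≤ t) (hA : c ≤ A * r)
    (hB : c * (N - 1) ≤ k * (1 - r) * (3 * (N + 3)))
    (ht2 : (4 * (N + 2) - (N - 1)) * t ≤ (N - 1) * x - (N - 1) * (v - δ ^ 2))
    (q1 : A * s + k * (x - v) ≤ mu + lam * δ + ν * (a - 1 - δ)) (q2 : δ ≤ a - 1) (q3 : 0 ≤ δ)
    (q7 : 0 ≤ s) (h1 : mu + lam * δ + k * δ ^ 2 ≤ 999 / 1000 * (2 * δ + δ ^ 2))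
    (h2 : ν ≤ 999 / 500 * (1 + δ)) :
    c * (s / r + t / (1 - r)) ≤ 999 / 1000 * 1 ^ 2 * (a ^ 2 - 1 ^ 2) := by
  have k1 : 3 * (N + 3) * t ≤ (N - 1) * (x - v + δ ^ 2) := by linarith
  have k0 : 0 ≤ x - v + δ ^ 2 := by
    have : 0 ≤ 3 * (N + 3) * t := by positivity
    exact nonneg_of_mul_nonneg_right (this.trans k1) (by linarith)
  have k2 : c * (t / (1 - r)) ≤ k * (x - v + δ ^ 2) := by
    rw [← mul_div_assoc, div_le_iff₀ (sub_pos.2 hr1)]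
    refine le_of_mul_le_mul_right ?_ (show (0 : ℝ) < 3 * (N + 3) by positivity)
    have := mul_le_mul_of_nonneg_left k1 hc.le
    have := mul_le_mul_of_nonneg_right hB k0
    linarith
  have k3 : c * (s / r) ≤ A * s := by
    rw [← mul_div_assoc, div_le_iff₀ hr]
    have := mul_le_mul_of_nonneg_right hA q7
    linarith
  have k4 := mul_le_mul_of_nonneg_right h2 (sub_nonneg.2 q2)
  nlinarith [sq_nonneg (a - 1 - δ)]

variable {n : ℕ} [NeZero n]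

theorem ob_one_of (hn : 3 ≤ n) {G : E n → ℝ} (hG : IsNrm G)
    (h1 : ∫ u, (G u)⁻¹ ^ n ∂sig n = 1) : ∃ δ : ℝ, 0 ≤ δ ∧ ∀ r A k lam mu : ℝ, 0 < r → r < 1 →
      c4 n 1 ≤ A * r → c4 n 1 * ((n : ℝ) - 1) ≤ k * (1 - r) * (3 * (n + 3)) → 0 ≤ mu →
      Cert1 n A k lam mu → mu + lam * δ + k * δ ^ 2 ≤ 999 / 1000 * (2 * δ + δ ^ 2) →
      2 * A / (n + 1) ≤ 999 / 500 * (1 + δ) → OB 1 G := by
  have hn' : (3 : ℝ) ≤ n := by exact_mod_cast hn
  have hm : 1 ≤ n := by omega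
  have hc := c4_pos hn 1
  have w1 : 1 - (1 : ℝ)⁻¹ ^ (n + 1) = 0 := by simp
  have hw : ContinuousOn (fun y : ℝ => 1 - y⁻¹ ^ (n + 1)) (Ioi 0) :=
    continuousOn_const.sub (continuousOn_inv_pow _)
  obtain ⟨t, ht, ht2⟩ := ob_max hn hG (W := fun y => W1 n y y⁻¹) (F := fun y => F1 n y y⁻¹)
    (W1_deriv hm) hw (F1_deriv hm) w1 (by simp [F1, U1]) (η := (n : ℝ) - 1) (by linarith)
  set V : ℝ → ℝ := V1 n with hV
  set f : ℝ → ℝ := f1 n with hf
  have cV : Continuous V := continuous_iff_continuousAt.2 fun x =>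
    (hasDerivAt_max (W1_deriv hm) w1 x).continuousAt
  have cf : Continuous f := continuous_iff_continuousAt.2 fun x =>
    (hasDerivAt_max (w := fun y => (1 - y⁻¹ ^ (n + 1)) ^ 2) (F1_deriv hm)
      (by rw [w1]; norm_num) x).continuousAt
  have iU : Integrable (fun u => (G u - 1 - V (G u)) ^ 2) (sig n) :=
    hG.integrable_comp (g := fun x => (x - 1 - V x) ^ 2) (by fun_prop)
  have iV : Integrable (fun u => V (G u)) (sig n) := hG.integrable_comp cV.continuousOn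
  have iV2 : Integrable (fun u => V (G u) ^ 2) (sig n) :=
    hG.integrable_comp (g := fun x => V x ^ 2) (by fun_prop)
  have iF : Integrable (fun u => G u * f (G u)) (sig n) :=
    hG.integrable_comp (g := fun x => x * f x) (by fun_prop)
  have i1 : Integrable G (sig n) := hG.integrable_comp (g := fun x => x) continuousOn_id
  have im : Integrable (fun u => (G u)⁻¹ ^ n) (sig n) :=
    hG.integrable_comp (continuousOn_inv_pow n)
  have hpos : ∀ᵐ u ∂sig n, 0 < G u := ae_norm.mono fun u hu => hG.pos_unit hu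
  have q3 : 0 ≤ ∫ u, V (G u) ∂sig n :=
    integral_nonneg_of_ae (hpos.mono fun u hu => (one_p2 hm hu).1)
  refine ⟨_, q3, fun r A k lam mu hr hr1 hA hB hmu hC a1 a2 => ?_⟩
  have hA0 : 0 ≤ A := by
    by_contra h
    nlinarith [mul_pos hr (neg_pos.2 (not_le.1 h))]
  have hT := T4le.add (H := fun u => G u ^ 1) (c := 1)
    (hG.memLp_comp (g := fun x => x - 1 - V x) (by fun_prop) 2)
    (hG.memLp_comp cV.continuousOn 2) (T4le.of_sq _) ht hr hr1 fun u _ => by ring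
  set ν := 2 * A / ((n : ℝ) + 1) with hν
  have q1 := int_lin iU iF iV2 iV i1 im (mu - ν - ν * (n : ℝ)⁻¹) (-A) (-k) k (lam - ν) ν
    (ν * (n : ℝ)⁻¹) (hpos.mono fun u hu => by
      have := one_p1 (by linarith) hA0 hmu hC hu
      rw [div_eq_mul_inv _ (n : ℝ)] at this
      linarith)
  have q2 := int_lin iV i1 im im im im (-1 - (n : ℝ)⁻¹) (-1) 1 (n : ℝ)⁻¹ 0 0 0
    (hpos.mono fun u hu => by
      have := (one_p2 hm hu).2
      rw [div_eq_mul_inv _ (n : ℝ)] at this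
      linarith)
  have q7 : 0 ≤ ∫ u, (G u - 1 - V (G u)) ^ 2 ∂sig n := integral_nonneg fun u => sq_nonneg _
  rw [h1] at q1 q2
  change _ ≤ _ * ∫ u, G u * f (G u) ∂sig n - _ * (∫ u, V (G u) ^ 2 ∂sig n -
    (∫ u, V (G u) ∂sig n) ^ 2) at ht2
  refine ⟨_, hT, ?_⟩
  simp only [Nat.sub_self, pow_zero, pow_one, integral_const, probReal_univ, smul_eq_mul,
    mul_one, Nat.cast_one]
  exact alg_one (ν := ν) hn' hr hr1 hc ht.nonneg hA hB ht2 (by linarith) (by linarith) q3 q7 a1 a2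

end Vale.Agent.P237B
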