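import Vale.Agent.P237B.OBM

/-! The one-norm inequality with `q = 2` from a one variable inequality. -/

namespace Vale.Agent.P237B

open MeasureTheory Set

noncomputable def U2 (l : ℕ) (z : ℝ) : ℝ := 2 * (1 - z ^ (l + 1)) / ((l : ℝ) + 1)

noncomputable def W2 (l : ℕ) (y z : ℝ) : ℝ := y ^ 2 - 1 - U2 l z

noncomputable def F2 (l : ℕ) (y z : ℝ) : ℝ :=
  4 * ((y ^ 3 - 1) / 3 - 2 * (1 - z ^ l) / l + (1 - z ^ (2 * l + 3)) / (2 * (l : ℝ) + 3))

/-- The one variable inequality. -/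
def Cert2 (m l : ℕ) (A B : ℝ) : Prop := ∀ y : ℝ, 1 ≤ y →
  A * U2 l y⁻¹ ^ 2 + B * (3 / 4 * (y * F2 l y y⁻¹) - W2 l y y⁻¹ ^ 2) ≤
    999 / 500 * (y ^ 2 - y + (y⁻¹ ^ m - 1) / m)

theorem W2_deriv (l : ℕ) (y : ℝ) (hy : 0 < y) :
    HasDerivAt (fun y => W2 l y y⁻¹) (2 * y - 2 * y⁻¹ ^ (l + 2)) y := by
  unfold W2 U2
  refine (((hasDerivAt_pow 2 y).sub_const 1).fun_sub
    ((((hasDerivAt_inv_pow (l + 1) hy).const_sub 1).const_mul 2).div_const _)).congr_deriv ?_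
  have : (0 : ℝ) < l + 1 := by positivity
  push_cast
  field_simp

theorem F2_deriv {l : ℕ} (hl : 1 ≤ l) (y : ℝ) (hy : 0 < y) :
    HasDerivAt (fun y => F2 l y y⁻¹) ((2 * y - 2 * y⁻¹ ^ (l + 2)) ^ 2) y := by
  unfold F2
  refine ((((((hasDerivAt_pow 3 y).sub_const 1).div_const 3).fun_sub
    ((((hasDerivAt_inv_pow l hy).const_sub 1).const_mul 2).div_const _)).fun_add
    (((hasDerivAt_inv_pow (2 * l + 3) hy).const_sub 1).div_const _)).const_mul 4).congr_deriv ?_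
  have h1 : (0 : ℝ) < l := by exact_mod_cast hl
  have h2 : y⁻¹ ^ (l + 1) = y * y⁻¹ ^ (l + 2) := by
    rw [pow_succ _ (l + 1), mul_comm y, mul_assoc, inv_mul_cancel₀ hy.ne', mul_one]
  rw [h2]
  generalize y⁻¹ = z
  push_cast
  field_simp
  ring

noncomputable def V2 (l : ℕ) (x : ℝ) : ℝ := W2 l (max x 1) (max x 1)⁻¹

noncomputable def f2 (l : ℕ) (x : ℝ) : ℝ := F2 l (max x 1) (max x 1)⁻¹

theorem two_p1 {m l : ℕ} {A B x : ℝ} (hm0 : (0 : ℝ) < m) (hA0 : 0 ≤ A)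
    (hA' : 4 * A ≤ 999 / 1000 * ((m : ℝ) + 3)) (hC : Cert2 m l A B) (hx : 0 < x) :
    A * (x ^ 2 - 1 - V2 l x) ^ 2 + B * (3 / 4 * (x * f2 l x) - V2 l x ^ 2) ≤
      999 / 500 * (x ^ 2 - x + (x⁻¹ ^ m - 1) / m) := by
  rcases le_total 1 x with h | h
  · have := hC x h
    simp only [V2, f2, max_eq_left h]
    have e : x ^ 2 - 1 - W2 l x x⁻¹ = U2 l x⁻¹ := by rw [W2]; ring
    rwa [e]
  · have e1 : V2 l x = 0 := by simp [V2, max_eq_right h, W2, U2]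
    have e2 : f2 l x = 0 := by simp [f2, max_eq_right h, F2]
    rw [e1, e2]
    have h2 : (1 - x) + ((m : ℝ) + 1) / 2 * (1 - x) ^ 2 ≤ (x⁻¹ ^ m - 1) / m := by
      rw [le_div_iff₀ hm0]
      linarith [inv_pow_ge hx h m]
    have h3 : (x ^ 2 - 1) ^ 2 ≤ 4 * (1 - x) ^ 2 := by
      have : (x + 1) ^ 2 ≤ 4 := by nlinarith
      nlinarith [mul_le_mul_of_nonneg_right this (sq_nonneg (1 - x))]
    have h4 := mul_le_mul_of_nonneg_left h3 hA0
    have h5 := mul_le_mul_of_nonneg_right hA' (sq_nonneg (1 - x))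
    nlinarith

theorem two_p2 {m l : ℕ} {x : ℝ} (hm0 : (0 : ℝ) < m) (hlm : l + 1 ≤ m) (hx : 0 < x) :
    0 ≤ V2 l x ∧ V2 l x ≤ x ^ 2 - 1 + 2 / m * (x⁻¹ ^ m - 1) := by
  refine ⟨nonneg_of_deriv (W2_deriv l) (by simp [W2, U2]) (fun y hy => ?_) (le_max_right x 1),
    ?_⟩
  · have : y⁻¹ ^ (l + 2) ≤ 1 := pow_le_one₀ (by positivity) (inv_le_one_of_one_le₀ hy)
    linarith
  rcases le_total 1 x with h | h
  · have := one_sub_pow_anti (z := x⁻¹) (by positivity) (inv_le_one_of_one_le₀ h)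
      (Nat.le_add_left 1 l) hlm
    simp only [V2, max_eq_left h, W2, U2]
    push_cast at this
    have e : 2 / (m : ℝ) * (x⁻¹ ^ m - 1) = -2 * ((1 - x⁻¹ ^ m) / m) := by ring
    rw [e, mul_div_assoc]
    linarith
  · have e1 : V2 l x = 0 := by simp [V2, max_eq_right h, W2, U2]
    have h2 : (1 - x) ≤ (x⁻¹ ^ m - 1) / m := by
      rw [le_div_iff₀ hm0]
      have : 0 ≤ m * ((m : ℝ) + 1) / 2 * (1 - x) ^ 2 := by positivity
      linarith [inv_pow_ge hx h m]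
    have e : 2 / (m : ℝ) * (x⁻¹ ^ m - 1) = 2 * ((x⁻¹ ^ m - 1) / m) := by ring
    rw [e1, e]
    nlinarith [sq_nonneg (1 - x)]

theorem alg_two {N M t s x v δ I a ψ c r A B : ℝ} (hN : 3 ≤ N) (hM : 0 ≤ M) (hr : 0 < r)
    (hr1 : r < 1) (hc : 0 < c) (ht0 : 0 ≤ t) (hA : c ≤ 4 * (A * r))
    (hB : c * (N - 1) ≤ 4 * (B * (1 - r)) * (2 * N + 7)) (hB' : B ≤ 999 / 1000 * (3 / 4))
    (ht2 : (4 * (N + 2) - 4 * (N - 1) / 3) * t ≤ (N - 1) * x - 4 * (N - 1) / 3 * (v - δ ^ 2))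
    (q1 : 0 ≤ -(999 / 500) * M + -A * s + -(B * (3 / 4)) * x + B * v + 999 / 500 * a +
      -(999 / 500) * ψ + 999 / 500 * M * I)
    (q2 : 0 ≤ -1 - 2 * M + -1 * δ + 1 * a + 2 * M * I + 0 * I + 0 * I + 0 * I) (q3 : 0 ≤ δ)
    (q4 : I ≤ 1) (q5 : 1 ≤ ψ) (q6 : ψ ^ 2 ≤ a) (q7 : 0 ≤ s) :
    c * (s / r + t / (1 - r)) ≤ 999 / 1000 * 2 ^ 2 * (a ^ 2 - ψ ^ 2) := by
  have k1 : (2 * N + 7) * t ≤ (N - 1) * (3 / 4 * x - v + δ ^ 2) := by linarith
  have k0 : 0 ≤ 3 / 4 * x - v + δ ^ 2 := by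
    have : 0 ≤ (2 * N + 7) * t := by positivity
    exact nonneg_of_mul_nonneg_right (this.trans k1) (by linarith)
  have k2 : c * (t / (1 - r)) ≤ 4 * B * (3 / 4 * x - v + δ ^ 2) := by
    rw [← mul_div_assoc, div_le_iff₀ (sub_pos.2 hr1)]
    refine le_of_mul_le_mul_right ?_ (show (0 : ℝ) < 2 * N + 7 by positivity)
    have := mul_le_mul_of_nonneg_left k1 hc.le
    have := mul_le_mul_of_nonneg_right hB k0
    linarith
  have k3 : c * (s / r) ≤ 4 * A * s := by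
    rw [← mul_div_assoc, div_le_iff₀ hr]
    have := mul_le_mul_of_nonneg_right hA q7
    linarith
  have k4 := mul_le_mul_of_nonneg_left q4 hM
  have k5 : δ ≤ a - 1 := by linarith
  have k6 : B * δ ^ 2 ≤ 999 / 1000 * (3 / 4) * (a - 1) ^ 2 :=
    mul_le_mul hB' (pow_le_pow_left₀ q3 k5 2) (sq_nonneg _) (by norm_num)
  have k7 : (ψ - 1) ^ 2 ≤ ((a - 1) / 2) ^ 2 :=
    pow_le_pow_left₀ (by linarith) (by nlinarith [sq_nonneg (ψ - 1)]) 2
  linarith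

variable {n : ℕ} [NeZero n]

theorem ob_two_of (hn : 3 ≤ n) {G : E n → ℝ} (hG : IsNrm G)
    (h1 : ∫ u, (G u)⁻¹ ^ n ∂sig n = 1) {m l : ℕ} (hl : 1 ≤ l) (hlm : l + 1 ≤ m) (hm : m ≤ n)
    {r A B : ℝ} (hr : 0 < r) (hr1 : r < 1) (hA : c4 n 2 ≤ 4 * (A * r))
    (hB : c4 n 2 * ((n : ℝ) - 1) ≤ 4 * (B * (1 - r)) * (2 * n + 7))
    (hA' : 4 * A ≤ 999 / 1000 * ((m : ℝ) + 3)) (hB' : B ≤ 999 / 1000 * (3 / 4))
    (hC : Cert2 m l A B) : OB 2 G := by
  have hn' : (3 : ℝ) ≤ n := by exact_mod_cast hn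
  have hm0 : (0 : ℝ) < m := by exact_mod_cast (show 0 < m by omega)
  have hc := c4_pos hn 2
  have hA0 : 0 ≤ A := by
    by_contra h
    nlinarith [mul_pos hr (neg_pos.2 (not_le.1 h))]
  have hB0 : 0 ≤ B := by
    by_contra h
    have h2 := mul_pos (mul_pos (sub_pos.2 hr1) (neg_pos.2 (not_le.1 h)))
      (show (0 : ℝ) < 2 * n + 7 by positivity)
    have h3 := mul_pos hc (show (0 : ℝ) < n - 1 by linarith)
    nlinarith
  have w1 : 2 * (1 : ℝ) - 2 * (1 : ℝ)⁻¹ ^ (l + 2) = 0 := by simp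
  have hw : ContinuousOn (fun y : ℝ => 2 * y - 2 * y⁻¹ ^ (l + 2)) (Ioi 0) :=
    (by fun_prop : ContinuousOn (fun y : ℝ => 2 * y) (Ioi 0)).sub
      (continuousOn_const.mul (continuousOn_inv_pow _))
  obtain ⟨t, ht, ht2⟩ := ob_max hn hG (W := fun y => W2 l y y⁻¹) (F := fun y => F2 l y y⁻¹)
    (W2_deriv l) hw (F2_deriv hl) w1 (by simp [F2]) (η := 4 * ((n : ℝ) - 1) / 3) (by linarith)
  set V : ℝ → ℝ := V2 l with hV
  set f : ℝ → ℝ := f2 l with hf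
  have cV : Continuous V := continuous_iff_continuousAt.2 fun x =>
    (hasDerivAt_max (W2_deriv l) w1 x).continuousAt
  have cf : Continuous f := continuous_iff_continuousAt.2 fun x =>
    (hasDerivAt_max (w := fun y => (2 * y - 2 * y⁻¹ ^ (l + 2)) ^ 2) (F2_deriv hl)
      (by rw [w1]; norm_num) x).continuousAt
  have iU : Integrable (fun u => (G u ^ 2 - 1 - V (G u)) ^ 2) (sig n) :=
    hG.integrable_comp (g := fun x => (x ^ 2 - 1 - V x) ^ 2) (by fun_prop)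
  have iV : Integrable (fun u => V (G u)) (sig n) := hG.integrable_comp cV.continuousOn
  have iV2 : Integrable (fun u => V (G u) ^ 2) (sig n) :=
    hG.integrable_comp (g := fun x => V x ^ 2) (by fun_prop)
  have iF : Integrable (fun u => G u * f (G u)) (sig n) :=
    hG.integrable_comp (g := fun x => x * f x) (by fun_prop)
  have i1 : Integrable G (sig n) := hG.integrable_comp (g := fun x => x) continuousOn_id
  have i2 : Integrable (fun u => G u ^ 2) (sig n) :=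
    hG.integrable_comp (g := fun x => x ^ 2) (by fun_prop)
  have im : Integrable (fun u => (G u)⁻¹ ^ m) (sig n) :=
    hG.integrable_comp (continuousOn_inv_pow m)
  have hT := T4le.add (H := fun u => G u ^ 2) (c := 1)
    (hG.memLp_comp (g := fun x => x ^ 2 - 1 - V x) (by fun_prop) 2)
    (hG.memLp_comp cV.continuousOn 2) (T4le.of_sq _) ht hr hr1 fun u _ => by ring
  have p1 := fun x hx => two_p1 (x := x) hm0 hA0 hA' hC hx
  have p2 := fun x hx => two_p2 (x := x) hm0 hlm hx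
  have hpos : ∀ᵐ u ∂sig n, 0 < G u := ae_norm.mono fun u hu => hG.pos_unit hu
  have q1 := int_lin iU iF iV2 i2 i1 im (-(999 / 500) * (m : ℝ)⁻¹) (-A) (-(B * (3 / 4))) B
    (999 / 500) (-(999 / 500)) (999 / 500 * (m : ℝ)⁻¹) (hpos.mono fun u hu => by
      have := p1 _ hu
      rw [div_eq_mul_inv _ (m : ℝ)] at this
      linarith)
  have q2 := int_lin iV i2 im im im im (-1 - 2 * (m : ℝ)⁻¹) (-1) 1 (2 * (m : ℝ)⁻¹) 0 0 0
    (hpos.mono fun u hu => by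
      have := (p2 _ hu).2
      rw [div_eq_mul_inv _ (m : ℝ)] at this
      linarith)
  have q3 : 0 ≤ ∫ u, V (G u) ∂sig n := integral_nonneg_of_ae (hpos.mono fun u hu => (p2 _ hu).1)
  have q4 := hG.inv_pow_le h1 hm
  have q5 := hG.mean_ge h1 le_rfl
  have q6 := hG.sq_mean_le
  have q7 : 0 ≤ ∫ u, (G u ^ 2 - 1 - V (G u)) ^ 2 ∂sig n := integral_nonneg fun u => sq_nonneg _
  simp only [Nat.sub_self, pow_zero, integral_const, probReal_univ, smul_eq_mul, one_mul,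
    pow_one] at q5
  refine ⟨_, hT, ?_⟩
  simp only [show 2 - 1 = 1 from rfl, pow_one, Nat.cast_ofNat]
  exact alg_two hn' (inv_nonneg.2 hm0.le) hr hr1 hc ht.nonneg hA hB hB' ht2 q1 q2 q3 q4 q5 q6 q7

end Vale.Agent.P237B
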