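import Vale.Agent.P237B.WG

/-! Poincare inequality above degree 2 for even functions on the sphere.

PLAN.  `exists_expa`; a j = ∫ (p j)^2 ≥ 0; t = ∫ (V - p 0 - p 2)^2 = ∫ V^2 - a 0 - a 2
(`Expa.pyth` with s = {0, 2}, `Expa.zero`: p 0 is the constant ∫ V, a 0 = (∫ V)^2).
For N ≥ 3, `WG.bessel` with s = range N and q = 0: ∑ i ∫ F i ^ 2 ≥ ∑ j < N, j (j+n-2) a j
≥ 2 n a 2 + 4 (n+2) ∑ j < N, j ∉ {0,2}, a j, because a j = 0 for odd j (`Expa.odd`) and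
j (j+n-2) ≥ 4 (n+2) for j ≥ 4; the last sum is t - ∫ (V - S N)^2 ≥ t - ε (`Expa.pyth`, `Expa.tail`).
Finally ∫ V^2 - (∫ V)^2 = t + a 2 and η ≤ 2 n. -/

namespace Vale.Agent.P237B

open MeasureTheory MvPolynomial Finset

variable {n : ℕ} [NeZero n]

theorem poincare (hn : 3 ≤ n) {V : E n → ℝ} {F : Fin n → E n → ℝ} (h : WG 0 V F)
    (he : ∀ x, V (-x) = V x) {η : ℝ} (hη : η ≤ 2 * n) :
    ∃ t, T4le V t ∧ (4 * ((n : ℝ) + 2) - η) * t +
      η * (∫ u, V u ^ 2 ∂sig n - (∫ u, V u ∂sig n) ^ 2) ≤ ∑ i, ∫ u, F i u ^ 2 ∂sig n := by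
  obtain ⟨p, hp⟩ := exists_expa h.mem
  set a : ℕ → ℝ := fun j => ∫ u, ev (p j) u ^ 2 ∂sig n with ha
  have ha0 : ∀ j, 0 ≤ a j := fun j => integral_nonneg fun u => sq_nonneg _
  have h0 : a 0 = (∫ u, V u ∂sig n) ^ 2 := by simp [ha, hp.zero]
  have hn' : (3 : ℝ) ≤ n := by exact_mod_cast hn
  refine ⟨∫ u, V u ^ 2 ∂sig n - (a 0 + a 2), ⟨∫ u, V u ∂sig n, p 2, hp.harm 2, le_of_eq ?_⟩, ?_⟩
  · simpa only [sum_pair (show 0 ≠ 2 by norm_num), hp.zero, ← sub_sub, ha] using hp.pyth hn {0, 2}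
  refine le_of_forall_pos_le_add fun ε hε => ?_
  obtain ⟨N₀, hN⟩ := hp.tail hn (ε := ε / (4 * ((n : ℝ) + 2))) (by positivity)
  have h1 := hN (N₀ + 3) (by omega)
  rw [hp.pyth hn, le_div_iff₀ (by positivity)] at h1
  have h2 := h.bessel hn hp (range (N₀ + 3))
  have h3 : 0 ≤ ∑ i, ∫ u, (F i u - ∑ j ∈ range (N₀ + 3), W 0 j (p j) i u) ^ 2 ∂sig n :=
    sum_nonneg fun i _ => integral_nonneg fun u => sq_nonneg _
  have h4 : ∑ j ∈ ({0, 2} : Finset ℕ), (j * ((j : ℝ) + n - 2) - 4 * (n + 2)) * a j ≤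
      ∑ j ∈ range (N₀ + 3), (j * ((j : ℝ) + n - 2) - 4 * (n + 2)) * a j := by
    refine sum_le_sum_of_subset_of_nonneg (fun j hj => ?_) fun j _ hj => ?_
    · simp only [mem_insert, mem_singleton] at hj
      rw [mem_range]
      omega
    · simp only [mem_insert, mem_singleton] at hj
      rcases Nat.even_or_odd j with h5 | h5
      · have h6 : (4 : ℝ) ≤ j := by
          obtain ⟨k, rfl⟩ := h5
          exact_mod_cast (by omega : 4 ≤ k + k)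
        exact mul_nonneg (by nlinarith) (ha0 j)
      · rw [show a j = 0 from hp.odd he h5, mul_zero]
  rw [sum_pair (show 0 ≠ 2 by norm_num)] at h4
  simp only [sub_mul, sum_sub_distrib, ← mul_sum] at h4
  simp only [Nat.cast_zero, ne_eq, OfNat.ofNat_ne_zero, not_false_eq_true, zero_pow,
    zero_add] at h2
  push_cast at h4
  nlinarith [mul_le_mul_of_nonneg_right hη (ha0 2)]

end Vale.Agent.P237B
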