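import Vale.Agent.P237B.Nrm
import Vale.Agent.P237B.Cvx
import Vale.Agent.P237B.Poinc
import Vale.Agent.P237B.GamA

/-! Poincare inequality combined with convexity, for a function of a norm.

PLAN.  Let g x = G x / ‖x‖ (LL by `LL.div_norm`, Hom 0, even, positive off 0, = G on the sphere),
Ψ x = V (g x), φ x = f (g x).  V and f are C^1 on (0, ∞)
(`contDiffOn_succ_iff_deriv_of_isOpen` or `contDiffAt_one_iff`), so Ψ, φ are LL (`LL.comp`) and Hom 0.
For a.e. unit u (G differentiable at u): D g i u = D G i u - G u * u i (`D_mul`, `D_comp`, `D_norm`),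
D Ψ i u = v (G u) * D g i u, D φ i u = v (G u)^2 * D g i u, and with `Hom.euler`
(∑ u i D G i u = G u) and ∑ u i ^ 2 = 1:
∑ i (D Ψ i u)^2 = v^2 (∑ (D G i)^2 - G^2) = ∑ i D φ i u * D G i u.
Apply `poincare` to `WG.of_LL` (q = 0), `integral_finsetSum`, `convex_ibp`; replace Ψ by V ∘ G with
`integral_congr_ae` and `ae_norm` (also inside T4le). -/

namespace Vale.Agent.P237B

open MeasureTheory Set

variable {n : ℕ} [NeZero n]

theorem OBA.contDiffAt {V v : ℝ → ℝ} (hV : ∀ x, 0 < x → HasDerivAt V (v x) x)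
    (hv : ContinuousOn v (Ioi 0)) {x : ℝ} (hx : 0 < x) : ContDiffAt ℝ 1 V x := by
  have h1 : ContDiffOn ℝ (0 + 1) V (Ioi 0) := by
    refine (contDiffOn_succ_iff_deriv_of_isOpen isOpen_Ioi).2
      ⟨fun y hy => (hV y hy).differentiableAt.differentiableWithinAt, by simp, ?_⟩
    exact contDiffOn_zero.2 (hv.congr fun y hy => (hV y hy).deriv)
  simpa using h1.contDiffAt (Ioi_mem_nhds hx)

omit [NeZero n] in
theorem OBA.D_div {G : E n → ℝ} {u : E n} (hu : ‖u‖ = 1) (hd : DifferentiableAt ℝ G u) :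
    DifferentiableAt ℝ (fun x => G x / ‖x‖) u ∧
      ∀ i, D (fun x => G x / ‖x‖) i u = D G i u - G u * u i := by
  have h0 : u ≠ 0 := norm_ne_zero_iff.1 (by rw [hu]; exact one_ne_zero)
  have h1 : DifferentiableAt ℝ (fun x : E n => ‖x‖) u :=
    (contDiffAt_norm ℝ (n := 1) h0).differentiableAt one_ne_zero
  have h2 : ‖u‖ ≠ 0 := norm_ne_zero_iff.2 h0
  simp only [div_eq_mul_inv]
  refine ⟨hd.fun_mul (h1.fun_inv h2), fun i => ?_⟩
  rw [D_mul hd (h1.fun_inv h2), D_comp h1 (hasDerivAt_inv h2), D_norm h0, hu]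
  ring

theorem ob_ana (hn : 3 ≤ n) {G : E n → ℝ} (hG : IsNrm G) {V v f : ℝ → ℝ}
    (hV : ∀ x, 0 < x → HasDerivAt V (v x) x) (hv : ContinuousOn v (Ioi 0))
    (hf : ∀ x, 0 < x → HasDerivAt f (v x ^ 2) x) (hf0 : ∀ x, 0 < x → 0 ≤ f x) {η : ℝ}
    (hη : η ≤ 2 * n) : ∃ t, T4le (fun u => V (G u)) t ∧ (4 * ((n : ℝ) + 2) - η) * t ≤
      ((n : ℝ) - 1) * ∫ u, G u * f (G u) ∂sig n -
        η * (∫ u, V (G u) ^ 2 ∂sig n - (∫ u, V (G u) ∂sig n) ^ 2) := by
  obtain ⟨C, hC⟩ := hG.lipschitz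
  have gp : ∀ x : E n, x ≠ 0 → 0 < G x / ‖x‖ := fun x hx =>
    div_pos (hG.pos x hx) (norm_pos_iff.2 hx)
  have gh : ∀ (x : E n) (r : ℝ), 0 < r → G (r • x) / ‖r • x‖ = G x / ‖x‖ := by
    intro x r hr
    rw [hG.smul, norm_smul, Real.norm_eq_abs, mul_div_mul_left _ _ (abs_pos.2 hr.ne').ne']
  have l1 : LL fun x => V (G x / ‖x‖) :=
    hG.ll.div_norm.comp fun x hx => OBA.contDiffAt hV hv (gp x hx)
  have l2 : LL fun x => f (G x / ‖x‖) :=
    hG.ll.div_norm.comp fun x hx => OBA.contDiffAt hf (hv.pow 2) (gp x hx)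
  have h1 : Hom 0 fun x => V (G x / ‖x‖) := fun x r hr => by simp only [gh x r hr, pow_zero, one_mul]
  have h2 : Hom 0 fun x => f (G x / ‖x‖) := fun x r hr => by simp only [gh x r hr, pow_zero, one_mul]
  obtain ⟨t, ⟨c, p, hp, ht⟩, h3⟩ := poincare hn (WG.of_LL (by omega) l1 h1)
    (fun x => by simp only [hG.neg, norm_neg]) hη
  have h4 := convex_ibp (by omega) hC hG.convexOn hG.hom l2 h2 fun x hx => hf0 _ (gp x hx)
  have e1 : ∀ F : ℝ → E n → ℝ, ∫ u, F (G u / ‖u‖) u ∂sig n = ∫ u, F (G u) u ∂sig n := fun F =>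
    integral_congr_ae (ae_norm.mono fun u hu => by simp only [hu, div_one])
  rw [e1 fun a u => (V a - c - ev p u) ^ 2] at ht
  rw [e1 fun a _ => V a ^ 2, e1 fun a _ => V a,
    ← integral_finsetSum _ fun i _ => integrable_sq (l1.memLp_D i 2)] at h3
  rw [e1 fun a u => f a * G u] at h4
  have h5 : ∫ u, ∑ i, D (fun x => V (G x / ‖x‖)) i u ^ 2 ∂sig n =
      ∫ u, ∑ i, D (fun x => f (G x / ‖x‖)) i u * D G i u ∂sig n := by
    refine integral_congr_ae ?_
    filter_upwards [ae_norm, hG.ll.ae_diff hG.hom] with u hu hd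
    obtain ⟨d1, d2⟩ := OBA.D_div hu hd
    have h0 : 0 < G u / ‖u‖ := gp u (norm_ne_zero_iff.1 (by rw [hu]; exact one_ne_zero))
    have a1 := hG.hom.euler hd
    have a2 : ∑ i, u i ^ 2 = 1 := by
      rw [← EuclideanSpace.real_norm_sq_eq, hu, one_pow]
    simp only [D_comp d1 (hV _ h0), D_comp d1 (hf _ h0), d2]
    have a3 : ∑ i, (D G i u - G u * u i) * u i = 0 := by
      simp only [sub_mul, Finset.sum_sub_distrib, mul_comm (D G _ u), a1, mul_assoc, ← pow_two,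
        ← Finset.mul_sum, a2]
      simp
    have a4 : ∀ i, (v (G u / ‖u‖) * (D G i u - G u * u i)) ^ 2 =
        v (G u / ‖u‖) ^ 2 * (D G i u - G u * u i) * D G i u -
          v (G u / ‖u‖) ^ 2 * G u * ((D G i u - G u * u i) * u i) := fun i => by ring
    simp only [a4, Finset.sum_sub_distrib, ← Finset.mul_sum, a3, mul_zero, sub_zero]
  refine ⟨t, ⟨c, p, hp, ht⟩, ?_⟩
  simp only [mul_comm (G _) (f _)]
  linarith

/-- The one-norm inequality. -/
def OB (q : ℕ) (G : E n → ℝ) : Prop :=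
  ∃ t, T4le (fun u => G u ^ q) t ∧ c4 n q * t ≤ 999 / 1000 * (q : ℝ) ^ 2 *
    ((∫ u, G u ^ q ∂sig n) ^ 2 - (∫ u, G u ^ (q - 1) ∂sig n) ^ 2)

end Vale.Agent.P237B
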