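import Vale.Agent.P237B.OBA

/-! Test functions that vanish below 1. -/

namespace Vale.Agent.P237B

open MeasureTheory Set Filter Topology

theorem hasDerivAt_max {W w : ℝ → ℝ} (hW : ∀ y, 0 < y → HasDerivAt W (w y) y) (h1 : w 1 = 0)
    (x : ℝ) : HasDerivAt (fun x => W (max x 1)) (w (max x 1)) x := by
  rcases lt_trichotomy x 1 with h | rfl | h
  · rw [max_eq_right h.le, h1]
    refine (hasDerivAt_const x (W 1)).congr_of_eventuallyEq ?_
    filter_upwards [Iio_mem_nhds h] with y hy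
    rw [max_eq_right (le_of_lt hy)]
  · rw [max_self, ← hasDerivWithinAt_univ, ← Iic_union_Ici (a := (1 : ℝ))]
    refine HasDerivWithinAt.union ?_ ?_
    · rw [h1]
      exact (hasDerivWithinAt_const (1 : ℝ) _ (W 1)).congr (fun y hy => by rw [max_eq_right hy])
        (by rw [max_self])
    · exact (hW 1 one_pos).hasDerivWithinAt.congr (fun y hy => by rw [max_eq_left hy])
        (by rw [max_self])
  · rw [max_eq_left h.le]
    refine (hW x (by linarith)).congr_of_eventuallyEq ?_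
    filter_upwards [Ioi_mem_nhds h] with y hy
    rw [max_eq_left (le_of_lt hy)]

theorem nonneg_of_deriv {F f : ℝ → ℝ} (hF : ∀ y, 0 < y → HasDerivAt F (f y) y) (h1 : F 1 = 0)
    (hf : ∀ y, 1 ≤ y → 0 ≤ f y) {y : ℝ} (hy : 1 ≤ y) : 0 ≤ F y := by
  have : MonotoneOn F (Ici 1) := monotoneOn_of_deriv_nonneg (convex_Ici 1)
    (fun z hz => (hF z (lt_of_lt_of_le one_pos hz)).continuousAt.continuousWithinAt)
    (fun z hz => (hF z (lt_of_lt_of_le one_pos (interior_subset hz))).differentiableAt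
      |>.differentiableWithinAt)
    fun z hz => by
      have hz' : 1 ≤ z := interior_subset hz
      rw [(hF z (by linarith)).deriv]
      exact hf z hz'
  exact h1 ▸ this self_mem_Ici hy hy

theorem hasDerivAt_inv_pow (j : ℕ) {y : ℝ} (hy : 0 < y) :
    HasDerivAt (fun y : ℝ => y⁻¹ ^ j) (-(j : ℝ) * y⁻¹ ^ (j + 1)) y := by
  refine ((hasDerivAt_inv hy.ne').fun_pow j).congr_deriv ?_
  cases j with
  | zero => simp
  | succ k => rw [Nat.add_sub_cancel, ← inv_pow]; ring

theorem continuousOn_inv_pow (j : ℕ) : ContinuousOn (fun y : ℝ => y⁻¹ ^ j) (Ioi 0) :=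
  fun _ hy => (hasDerivAt_inv_pow j hy).continuousAt.continuousWithinAt

theorem one_sub_pow_anti {z : ℝ} (h0 : 0 ≤ z) (h1 : z ≤ 1) {j m : ℕ} (hj : 1 ≤ j) (hm : j ≤ m) :
    (1 - z ^ m) / m ≤ (1 - z ^ j) / j := by
  induction m, hm using Nat.le_induction with
  | base => exact le_rfl
  | succ m hm ih =>
    refine le_trans ?_ ih
    have hm0 : (0 : ℝ) < m := by exact_mod_cast (show 0 < m by omega)
    rw [div_le_div_iff₀ (by positivity) hm0]
    have key : ∀ k : ℕ, (k : ℝ) * z ^ k * (1 - z) ≤ 1 - z ^ k := by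
      intro k
      induction k with
      | zero => simp
      | succ k ih =>
        have h2 : 0 ≤ z ^ k := pow_nonneg h0 k
        have h3 : z ^ k ≤ 1 := pow_le_one₀ h0 h1
        have h4 := mul_le_mul_of_nonneg_left ih h0
        have h5 : z ^ k * z ≤ 1 := mul_le_one₀ h3 h0 h1
        have h6 := mul_le_mul_of_nonneg_right h5 (sub_nonneg.2 h1)
        push_cast
        rw [pow_succ]
        nlinarith
    have := key m
    push_cast
    rw [pow_succ]
    nlinarith

theorem inv_pow_ge {x : ℝ} (h0 : 0 < x) (h1 : x ≤ 1) (m : ℕ) :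
    1 + m * (1 - x) + m * ((m : ℝ) + 1) / 2 * (1 - x) ^ 2 ≤ x⁻¹ ^ m := by
  have hy : 0 ≤ 1 - x := sub_nonneg.2 h1
  have h2 : 1 + (1 - x) + (1 - x) ^ 2 ≤ x⁻¹ := by
    rw [← one_div, le_div_iff₀ h0]
    nlinarith [pow_nonneg hy 3]
  induction m with
  | zero => simp
  | succ m ih =>
    rw [pow_succ]
    refine le_trans ?_ (mul_le_mul ih h2 (by nlinarith [sq_nonneg (1 - x)])
      (pow_nonneg (inv_nonneg.2 h0.le) m))
    push_cast
    have hm : (0 : ℝ) ≤ m := Nat.cast_nonneg m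
    have h3 : 0 ≤ (m + m * ((m : ℝ) + 1) / 2) * (1 - x) ^ 3 +
      m * ((m : ℝ) + 1) / 2 * (1 - x) ^ 4 := by positivity
    nlinarith

variable {n : ℕ} [NeZero n]

theorem ob_max (hn : 3 ≤ n) {G : E n → ℝ} (hG : IsNrm G) {W w F : ℝ → ℝ}
    (hW : ∀ y, 0 < y → HasDerivAt W (w y) y) (hw : ContinuousOn w (Ioi 0))
    (hF : ∀ y, 0 < y → HasDerivAt F (w y ^ 2) y) (w1 : w 1 = 0) (F1 : F 1 = 0) {η : ℝ}
    (hη : η ≤ 2 * n) : ∃ t, T4le (fun u => W (max (G u) 1)) t ∧ (4 * ((n : ℝ) + 2) - η) * t ≤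
      ((n : ℝ) - 1) * ∫ u, G u * F (max (G u) 1) ∂sig n -
        η * (∫ u, W (max (G u) 1) ^ 2 ∂sig n - (∫ u, W (max (G u) 1) ∂sig n) ^ 2) :=
  ob_ana hn hG (V := fun x => W (max x 1)) (v := fun x => w (max x 1))
    (f := fun x => F (max x 1)) (fun x _ => hasDerivAt_max hW w1 x)
    (hw.comp (by fun_prop) fun x _ => lt_of_lt_of_le one_pos (le_max_right x 1))
    (fun x _ => hasDerivAt_max (w := fun y => w y ^ 2) hF (by rw [w1]; norm_num) x)
    (fun x _ => nonneg_of_deriv hF F1 (fun _ _ => sq_nonneg _) (le_max_right x 1)) hη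

theorem IsNrm.sq_mean_le {G : E n → ℝ} (hG : IsNrm G) :
    (∫ u, G u ∂sig n) ^ 2 ≤ ∫ u, G u ^ 2 ∂sig n := by
  have h1 : Integrable G (sig n) := hG.integrable_comp (g := fun x => x) continuousOn_id
  have h2 : Integrable (fun u => G u ^ 2) (sig n) :=
    hG.integrable_comp (g := fun x => x ^ 2) (by fun_prop)
  set a := ∫ u, G u ∂sig n with ha
  have h3 : ∫ u, (2 * a * G u - a ^ 2) ∂sig n ≤ ∫ u, G u ^ 2 ∂sig n :=
    integral_mono ((h1.const_mul _).sub (integrable_const _)) h2 fun u => by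
      nlinarith [sq_nonneg (G u - a)]
  rw [integral_sub (h1.const_mul _) (integrable_const _), integral_const_mul] at h3
  simp only [integral_const, probReal_univ, smul_eq_mul, one_mul] at h3
  linarith

theorem int_lin {f1 f2 f3 f4 f5 f6 : E n → ℝ} (i1 : Integrable f1 (sig n))
    (i2 : Integrable f2 (sig n)) (i3 : Integrable f3 (sig n)) (i4 : Integrable f4 (sig n))
    (i5 : Integrable f5 (sig n)) (i6 : Integrable f6 (sig n)) (c0 c1 c2 c3 c4 c5 c6 : ℝ)
    (h : ∀ᵐ u ∂sig n,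
      0 ≤ c0 + c1 * f1 u + c2 * f2 u + c3 * f3 u + c4 * f4 u + c5 * f5 u + c6 * f6 u) :
    0 ≤ c0 + c1 * ∫ u, f1 u ∂sig n + c2 * ∫ u, f2 u ∂sig n + c3 * ∫ u, f3 u ∂sig n +
      c4 * ∫ u, f4 u ∂sig n + c5 * ∫ u, f5 u ∂sig n + c6 * ∫ u, f6 u ∂sig n := by
  have h0 := integral_nonneg_of_ae h
  have j1 : Integrable (fun u => c0 + c1 * f1 u) (sig n) := (integrable_const _).add (i1.const_mul _)
  have j2 : Integrable (fun u => c0 + c1 * f1 u + c2 * f2 u) (sig n) := j1.add (i2.const_mul _)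
  have j3 : Integrable (fun u => c0 + c1 * f1 u + c2 * f2 u + c3 * f3 u) (sig n) :=
    j2.add (i3.const_mul _)
  have j4 : Integrable (fun u => c0 + c1 * f1 u + c2 * f2 u + c3 * f3 u + c4 * f4 u) (sig n) :=
    j3.add (i4.const_mul _)
  have j5 : Integrable (fun u => c0 + c1 * f1 u + c2 * f2 u + c3 * f3 u + c4 * f4 u + c5 * f5 u)
    (sig n) := j4.add (i5.const_mul _)
  rw [integral_add j5 (i6.const_mul _), integral_add j4 (i5.const_mul _),
    integral_add j3 (i4.const_mul _), integral_add j2 (i3.const_mul _),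
    integral_add j1 (i2.const_mul _), integral_add (integrable_const _) (i1.const_mul _)] at h0
  simpa only [integral_const_mul, integral_const, probReal_univ, smul_eq_mul, one_mul] using h0

end Vale.Agent.P237B
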