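import Vale.Agent.P237B.PolyA

/-! Decomposition of polynomials into harmonic polynomials on the sphere.

PLAN.
* Harm.up: with s = ∑ k, X k ^ 2:  lap (X i * p) = 2 ∂i p + X i * lap p,
  lap (s * g) = 2 n g + 4 ∑ X k ∂k g + s * lap g; g = ∂i p is harmonic of degree j - 1
  (for j = 0 it vanishes), so lap (s * g) = (2 n + 4 j - 4) g.
* fischer: `MvPolynomial.induction_on`; for the step p * X i use Harm.up, ev_up and Harm.pderiv on
  every component: u i * h j = up j i (h j) + c j • ∂i (h j) on the sphere.  It is easier to work with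
  the predicate Q f := ∃ N h, (∀ j, Harm j (h j)) ∧ ∀ unit u, f u = ∑ j ∈ range N, ev (h j) u,
  closed under addition (pad with zeros: replace h j by 0 for j ≥ N), finite sums, and true for one
  harmonic polynomial of any degree (`Pi.single`). -/

namespace Vale.Agent.P237B

open MvPolynomial Finset

variable {n : ℕ}

/-- The harmonic part of `X i * p`. -/
noncomputable def up (j : ℕ) (i : Fin n) (p : Pol n) : Pol n :=
  X i * p - (2 * (j : ℝ) + n - 2)⁻¹ • ((∑ k, X k ^ 2) * pderiv i p)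

namespace Poly

theorem lap_mul (a b : Pol n) :
    lap (a * b) = lap a * b + 2 * ∑ k, pderiv k a * pderiv k b + a * lap b := by
  simp only [lap, pderiv_mul, map_add, sum_mul, mul_sum, ← sum_add_distrib]
  exact sum_congr rfl fun k _ => by ring

theorem lap_X (i : Fin n) : lap (X i : Pol n) = 0 := by
  refine sum_eq_zero fun k _ => ?_
  by_cases h : i = k
  · subst h
    rw [pderiv_X_self, pderiv_one]
  · rw [pderiv_X_of_ne h, map_zero]

theorem sum_dX (i : Fin n) (p : Pol n) :
    ∑ k, pderiv k (X i : Pol n) * pderiv k p = pderiv i p := by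
  rw [sum_eq_single i (fun k _ h => by rw [pderiv_X_of_ne h.symm, zero_mul]) (by simp),
    pderiv_X_self, one_mul]

theorem pderiv_s (k : Fin n) : pderiv k (∑ l, X l ^ 2 : Pol n) = 2 * X k := by
  rw [map_sum, sum_eq_single k (fun l _ h => by rw [pderiv_pow, pderiv_X_of_ne h, mul_zero])
    (by simp), pderiv_pow, pderiv_X_self]
  simp

theorem lap_s : lap (∑ l, X l ^ 2 : Pol n) = 2 * n := by
  simp only [lap, pderiv_s, two_mul, map_add, pderiv_X_self, sum_add_distrib, sum_const, card_univ,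
    Fintype.card_fin, nsmul_one]

theorem pderiv_zero {p : Pol n} (hp : p.IsHomogeneous 0) (i : Fin n) : pderiv i p = 0 := by
  obtain ⟨c, rfl⟩ := ev_deg_zero hp
  exact pderiv_C

theorem sum_sq {u : E n} (hu : ‖u‖ = 1) : ∑ k, u k ^ 2 = 1 := by
  rw [← EuclideanSpace.real_norm_sq_eq, hu, one_pow]

end Poly

theorem Harm.up (hn : 3 ≤ n) {p : Pol n} {j : ℕ} (hp : Harm j p) (i : Fin n) :
    Harm (j + 1) (up j i p) := by
  have hg := hp.pderiv i
  have h1 : (X i * p).IsHomogeneous (j + 1) := by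
    rw [add_comm]
    exact (isHomogeneous_X ℝ i).mul hp.1
  have h2 : ((∑ k, X k ^ 2) * MvPolynomial.pderiv i p).IsHomogeneous (j + 1) := by
    rcases j with _ | j
    · rw [Poly.pderiv_zero hp.1, mul_zero]
      exact isHomogeneous_zero _ _ _
    · rw [show j + 1 + 1 = 2 + (j + 1 - 1) by omega]
      exact (IsHomogeneous.sum _ _ _ fun k _ => isHomogeneous_X_pow k 2).mul hg.1
  have h3 : ∑ k, X k * MvPolynomial.pderiv k (MvPolynomial.pderiv i p) = ((j : ℝ) - 1) • MvPolynomial.pderiv i p := by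
    rcases j with _ | j
    · simp [Poly.pderiv_zero hp.1]
    · rw [hg.1.sum_X_mul_pderiv, ← Nat.cast_smul_eq_nsmul ℝ]
      simp
  refine ⟨h1.sub ((homogeneousSubmodule _ _ _).smul_mem _ h2), ?_⟩
  have h4 : (3 : ℝ) ≤ n := by exact_mod_cast hn
  have h5 : (2 * (j : ℝ) + n - 2) ≠ 0 := by
    have : (0 : ℝ) ≤ j := Nat.cast_nonneg j
    linarith
  have h6 : ∀ (a b : Pol n) (c : ℝ), lap (a - c • b) = lap a - c • lap b := fun a b c => by
    simp only [lap, map_sub, Derivation.map_smul, sum_sub_distrib, smul_sum]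
  have h7 : lap ((∑ k, X k ^ 2) * MvPolynomial.pderiv i p) = (2 * (j : ℝ) + n - 2) • (2 * MvPolynomial.pderiv i p) := by
    rw [Poly.lap_mul, hg.2, Poly.lap_s]
    simp only [Poly.pderiv_s, mul_assoc, ← mul_sum, h3, smul_eq_C_mul, map_sub, map_add, map_mul,
      map_natCast, map_ofNat, map_one]
    ring
  rw [P237B.up, h6, h7, Poly.lap_mul, Poly.lap_X, hp.2, Poly.sum_dX, inv_smul_smul₀ h5]
  ring

theorem ev_up (j : ℕ) (i : Fin n) (p : Pol n) {u : E n} (hu : ‖u‖ = 1) :
    ev (up j i p) u = u i * ev p u - (2 * (j : ℝ) + n - 2)⁻¹ * ev (pderiv i p) u := by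
  have := Poly.sum_sq hu
  simp only [up, ev_sub, ev_mul, ev_X, ev_smul, ev_sum, sq] at this ⊢
  rw [this, one_mul]

namespace Poly

/-- sums of harmonics on the sphere -/
def Q (f : E n → ℝ) : Prop := ∃ (N : ℕ) (h : ℕ → Pol n), (∀ j, Harm j (h j)) ∧
  (∀ j, N ≤ j → h j = 0) ∧ ∀ u : E n, ‖u‖ = 1 → f u = ∑ j ∈ range N, ev (h j) u

theorem Q.congr {f g : E n → ℝ} (h : Q f) (e : ∀ u, ‖u‖ = 1 → g u = f u) : Q g := by
  obtain ⟨N, h, h1, h2, h3⟩ := h
  exact ⟨N, h, h1, h2, fun u hu => (e u hu).trans (h3 u hu)⟩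

theorem Q.add {f g : E n → ℝ} (hf : Q f) (hg : Q g) : Q fun u => f u + g u := by
  obtain ⟨N, h, h1, h2, h3⟩ := hf
  obtain ⟨M, k, k1, k2, k3⟩ := hg
  refine ⟨max N M, fun j => h j + k j, fun j => (h1 j).add (k1 j), fun j hj => by
    simp only [h2 j ((le_max_left _ _).trans hj), k2 j ((le_max_right _ _).trans hj), add_zero],
    fun u hu => ?_⟩
  simp only [ev_add, sum_add_distrib, h3 u hu, k3 u hu]
  congr 1
  · exact sum_subset (range_subset_range.2 (le_max_left _ _)) fun j _ hj => by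
      rw [h2 j (by simpa using hj), ev_zero]
  · exact sum_subset (range_subset_range.2 (le_max_right _ _)) fun j _ hj => by
      rw [k2 j (by simpa using hj), ev_zero]

theorem Q.harm {p : Pol n} {j : ℕ} (hp : Harm j p) : Q (ev p) := by
  refine ⟨j + 1, Pi.single j p, fun k => ?_, fun k hk => Pi.single_eq_of_ne (by omega) _,
    fun u _ => ?_⟩
  · by_cases h : k = j
    · subst h
      rwa [Pi.single_eq_same]
    · rw [Pi.single_eq_of_ne h]
      exact Harm.zero k
  · rw [sum_eq_single j (fun k _ h => by rw [Pi.single_eq_of_ne h, ev_zero]) (by simp),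
      Pi.single_eq_same]

theorem Q.sum {ι : Type*} (s : Finset ι) {f : ι → E n → ℝ} (h : ∀ i ∈ s, Q (f i)) :
    Q fun u => ∑ i ∈ s, f i u := by
  classical
  induction s using Finset.induction_on with
  | empty => exact (Q.harm (Harm.zero 0)).congr fun u _ => by simp
  | insert a s ha ih =>
    exact ((h a (mem_insert_self _ _)).add (ih fun i hi => h i (mem_insert_of_mem hi))).congr
      fun u _ => sum_insert ha

end Poly

/-- On the sphere every polynomial is a sum of harmonic homogeneous polynomials. -/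
theorem fischer (hn : 3 ≤ n) (p : Pol n) : ∃ (N : ℕ) (h : ℕ → Pol n), (∀ j, Harm j (h j)) ∧
    ∀ u : E n, ‖u‖ = 1 → ev p u = ∑ j ∈ range N, ev (h j) u := by
  suffices h : Poly.Q (ev p) by
    obtain ⟨N, h, h1, -, h3⟩ := h
    exact ⟨N, h, h1, h3⟩
  induction p using MvPolynomial.induction_on with
  | C c => exact Poly.Q.harm (Harm.const c)
  | add p q hp hq => exact (hp.add hq).congr fun u _ => ev_add p q u
  | mul_X p i hp =>
    obtain ⟨N, h, h1, -, h3⟩ := hp
    refine (Poly.Q.sum (range N) fun j _ => (Poly.Q.harm ((h1 j).up hn i)).add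
      (Poly.Q.harm (((h1 j).pderiv i).smul (2 * (j : ℝ) + n - 2)⁻¹))).congr fun u hu => ?_
    rw [ev_mul, ev_X, h3 u hu, sum_mul]
    refine sum_congr rfl fun j _ => ?_
    rw [ev_up j i _ hu, ev_smul]
    ring

end Vale.Agent.P237B
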