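import Vale.Agent.P237B.Calc

/-! Polynomials as functions on `E n`, harmonic homogeneous polynomials.

PLAN.
* contDiff_ev, D_ev: `MvPolynomial.induction_on` (use `D_mul`, `EuclideanSpace.proj`).
* ev_smul_arg: write p as the sum of its monomials (`eval_eq'`, degree of each monomial of the
  support is j), or induct with `IsHomogeneous` lemmas.  ev_euler: `IsHomogeneous.sum_X_mul_pderiv`.
* ev_deg_zero: `totalDegree_zero_iff_isHomogeneous`, `totalDegree_eq_zero_iff_eq_C`.
* pderiv_comm: induction or `pderiv_monomial`. -/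

namespace Vale.Agent.P237B

open MvPolynomial Finset

variable {n : ℕ}

/-- Real polynomials in `n` variables. -/
abbrev Pol (n : ℕ) := MvPolynomial (Fin n) ℝ

/-- Evaluation of a polynomial at a point. -/
noncomputable def ev (p : Pol n) (x : E n) : ℝ := eval (fun i => x i) p

/-- Laplacian. -/
noncomputable def lap (p : Pol n) : Pol n := ∑ i, pderiv i (pderiv i p)

/-- Harmonic and homogeneous of degree `j`. -/
def Harm (j : ℕ) (p : Pol n) : Prop := p.IsHomogeneous j ∧ lap p = 0

@[simp] theorem ev_add (p q : Pol n) (x : E n) : ev (p + q) x = ev p x + ev q x := by simp [ev]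
@[simp] theorem ev_sub (p q : Pol n) (x : E n) : ev (p - q) x = ev p x - ev q x := by simp [ev]
@[simp] theorem ev_mul (p q : Pol n) (x : E n) : ev (p * q) x = ev p x * ev q x := by simp [ev]
@[simp] theorem ev_zero (x : E n) : ev 0 x = 0 := by simp [ev]
@[simp] theorem ev_one (x : E n) : ev 1 x = 1 := by simp [ev]
@[simp] theorem ev_C (c : ℝ) (x : E n) : ev (C c) x = c := by simp [ev]
@[simp] theorem ev_X (i : Fin n) (x : E n) : ev (X i) x = x i := by simp [ev]
@[simp] theorem ev_smul (c : ℝ) (p : Pol n) (x : E n) : ev (c • p) x = c * ev p x := by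
  simp [ev]
@[simp] theorem ev_sum {ι : Type*} (s : Finset ι) (p : ι → Pol n) (x : E n) :
    ev (∑ i ∈ s, p i) x = ∑ i ∈ s, ev (p i) x := by simp [ev]

theorem contDiff_ev (p : Pol n) : ContDiff ℝ 1 (ev p) := by
  induction p using MvPolynomial.induction_on with
  | C a =>
    have : ev (C a : Pol n) = fun _ : E n => a := by funext x; rw [ev_C]
    rw [this]; exact contDiff_const
  | add p q hp hq =>
    have : ev (p + q) = fun x : E n => ev p x + ev q x := by funext x; rw [ev_add]
    rw [this]; exact hp.add hq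
  | mul_X p i hp =>
    have : ev (p * X i) = fun x : E n => ev p x * (EuclideanSpace.proj i : E n →L[ℝ] ℝ) x :=
      by funext x; rw [ev_mul, ev_X]; rfl
    rw [this]; exact hp.mul (EuclideanSpace.proj i : E n →L[ℝ] ℝ).contDiff

theorem continuous_ev (p : Pol n) : Continuous (ev p) := (contDiff_ev p).continuous

theorem differentiableAt_ev (p : Pol n) (x : E n) : DifferentiableAt ℝ (ev p) x :=
  (contDiff_ev p).differentiable one_ne_zero x

theorem ll_ev (p : Pol n) : LL (ev p) := LL.of_contDiff fun _ _ => (contDiff_ev p).contDiffAt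

theorem D_ev (p : Pol n) (i : Fin n) (x : E n) : D (ev p) i x = ev (pderiv i p) x := by
  induction p using MvPolynomial.induction_on with
  | C a =>
    have : ev (C a : Pol n) = fun _ : E n => a := by funext x; rw [ev_C]
    rw [this]; simp [D]
  | add p q hp hq =>
    have : ev (p + q) = fun x : E n => ev p x + ev q x := by funext x; rw [ev_add]
    rw [this, map_add, ev_add, ← hp, ← hq]
    unfold D
    rw [fderiv_fun_add (differentiableAt_ev p x) (differentiableAt_ev q x)]
    rfl
  | mul_X p k hp =>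
    have : ev (p * X k) = fun x : E n => ev p x * (EuclideanSpace.proj k : E n →L[ℝ] ℝ) x :=
      by funext x; rw [ev_mul, ev_X]; rfl
    rw [this, D_mul (differentiableAt_ev p x)
      (EuclideanSpace.proj k : E n →L[ℝ] ℝ).differentiableAt, hp, pderiv_mul, ev_add, ev_mul,
      ev_mul, ev_X]
    have h2 : D (EuclideanSpace.proj k : E n →L[ℝ] ℝ) i x = ev (pderiv i (X k : Pol n)) x := by
      unfold D
      rw [ContinuousLinearMap.fderiv]
      by_cases h : k = i
      · subst h; simp
      · rw [pderiv_X_of_ne h]; simp [h]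
    rw [h2]
    rfl

theorem ev_smul_arg {p : Pol n} {j : ℕ} (h : p.IsHomogeneous j) (r : ℝ) (x : E n) :
    ev p (r • x) = r ^ j * ev p x := by
  unfold ev
  rw [eval_eq', eval_eq', Finset.mul_sum]
  refine Finset.sum_congr rfl fun d hd => ?_
  have hdeg : ∑ i, d i = j := by
    have h1 : d.degree = j := by
      by_contra hne
      exact (mem_support_iff.1 hd) (h.coeff_eq_zero hne)
    rw [← h1, Finsupp.degree_eq_sum]
  have : ∏ i, (r • x) i ^ d i = r ^ j * ∏ i, x i ^ d i := by
    rw [← hdeg, ← Finset.prod_pow_eq_pow_sum, ← Finset.prod_mul_distrib]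
    refine Finset.prod_congr rfl fun i _ => ?_
    rw [PiLp.smul_apply, smul_eq_mul, mul_pow]
  rw [this]; ring

theorem hom_ev {p : Pol n} {j : ℕ} (h : p.IsHomogeneous j) : Hom j (ev p) :=
  fun x r _ => ev_smul_arg h r x

theorem ev_neg_arg {p : Pol n} {j : ℕ} (h : p.IsHomogeneous j) (x : E n) :
    ev p (-x) = (-1) ^ j * ev p x := by
  rw [← ev_smul_arg h, neg_one_smul]

theorem ev_euler {p : Pol n} {j : ℕ} (h : p.IsHomogeneous j) (x : E n) :
    ∑ i, x i * ev (pderiv i p) x = j * ev p x := by
  have h1 := congrArg (fun q => ev q x) h.sum_X_mul_pderiv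
  simp only [ev_sum, ev_mul, ev_X] at h1
  rw [h1, ← Nat.cast_smul_eq_nsmul ℝ, ev_smul]

theorem ev_deg_zero {p : Pol n} (h : p.IsHomogeneous 0) : ∃ c : ℝ, p = C c := by
  exact ⟨_, totalDegree_eq_zero_iff_eq_C.1 ((totalDegree_zero_iff_isHomogeneous _).2 h)⟩

theorem pderiv_comm (p : Pol n) (i k : Fin n) : pderiv i (pderiv k p) = pderiv k (pderiv i p) := by
  induction p using MvPolynomial.induction_on with
  | C a => simp
  | add p q hp hq => simp only [map_add, hp, hq]
  | mul_X p m hp =>
    have hX : ∀ a b : Fin n, pderiv a (pderiv b (X m : Pol n)) = 0 := by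
      intro a b
      by_cases h : m = b
      · subst h; rw [pderiv_X_self, pderiv_one]
      · rw [pderiv_X_of_ne h, map_zero]
    simp only [pderiv_mul, map_add, hX, hp]
    ring

theorem ev_lap {p : Pol n} {j : ℕ} (h : Harm j p) (x : E n) :
    ∑ i, ev (pderiv i (pderiv i p)) x = 0 := by
  have h1 := congrArg (fun q => ev q x) h.2
  simpa [lap] using h1

theorem Harm.zero (j : ℕ) : Harm j (0 : Pol n) := by
  exact ⟨isHomogeneous_zero _ _ _, by simp [lap]⟩

theorem Harm.const (c : ℝ) : Harm 0 (C c : Pol n) := by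
  exact ⟨isHomogeneous_C _ _, by simp [lap]⟩

theorem Harm.add {p q : Pol n} {j : ℕ} (hp : Harm j p) (hq : Harm j q) : Harm j (p + q) := by
  refine ⟨hp.1.add hq.1, ?_⟩
  have h1 := hp.2
  have h2 := hq.2
  unfold lap at *
  simp only [map_add, Finset.sum_add_distrib, h1, h2, add_zero]

theorem Harm.smul {p : Pol n} {j : ℕ} (hp : Harm j p) (c : ℝ) : Harm j (c • p) := by
  refine ⟨(homogeneousSubmodule (Fin n) ℝ j).smul_mem c hp.1, ?_⟩
  have h1 := hp.2
  unfold lap at *
  simp only [Derivation.map_smul]
  rw [← Finset.smul_sum, h1, smul_zero]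

theorem Harm.sum {ι : Type*} {s : Finset ι} {p : ι → Pol n} {j : ℕ}
    (hp : ∀ i ∈ s, Harm j (p i)) : Harm j (∑ i ∈ s, p i) := by
  classical
  induction s using Finset.induction_on with
  | empty => simpa using Harm.zero j
  | insert a s ha ih =>
    rw [Finset.sum_insert ha]
    exact (hp a (Finset.mem_insert_self _ _)).add
      (ih fun i hi => hp i (Finset.mem_insert_of_mem hi))

theorem Harm.pderiv {p : Pol n} {j : ℕ} (hp : Harm j p) (i : Fin n) :
    Harm (j - 1) (pderiv i p) := by
  refine ⟨hp.1.pderiv, ?_⟩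
  have h1 := congrArg (MvPolynomial.pderiv i) hp.2
  unfold lap at *
  rw [map_sum, map_zero] at h1
  rw [← h1]
  refine Finset.sum_congr rfl fun k _ => ?_
  rw [pderiv_comm p k i, pderiv_comm (MvPolynomial.pderiv k p) k i]

end Vale.Agent.P237B
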