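import Vale.Agent.P237B.Harm

/-! Weak gradients of `q`-homogeneous extensions, Bessel inequality for gradients.

`WG q Φ F` says that `F` behaves like the gradient, on the sphere, of the `q`-homogeneous extension
of `Φ`.  `W q j p` is that gradient for a homogeneous polynomial `p` of degree `j`.

PLAN.
* of_LL: `sibp` for Φ * ev r (degree q + k), `D_mul` a.e. (`LL.ae_diff`), `D_ev`.
* of_hom: of_LL for ev p with q := j, plus the extra term (q - j) ∫ u i p r.
* pair_pderiv: ibp with r = ∂i p (degree j - 1; for j = 0 both sides vanish), sum over i, `ev_euler`,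
  `ev_lap`.  pair_X: ibp with r = X i * p (degree j + 1), ∑ u i ^ 2 = 1 a.e., `ev_euler`,
  ∂i (X i * p) = p + X i ∂i p.  pair = pair_pderiv + (q - j) pair_X.
* WG.rest: WG is closed under differences and finite sums.
* bessel: with R i = F i - ∑ j ∈ s, W q j (p j) i, which is the weak gradient of g - ∑ p j:
  ∑ i ∫ R i * W q j (p j) i = (q^2 + Λ j) ∫ (g - ∑ p k) p j = 0 for j ∈ s, and
  ∑ i ∫ W j * W k = (q^2 + Λ k) ∫ p j p k (pair for of_hom); expand the square. -/

namespace Vale.Agent.P237B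

open MeasureTheory MvPolynomial Finset

variable {n : ℕ}

/-- Gradient on the sphere of the `q`-homogeneous extension of a polynomial of degree `j`. -/
noncomputable def W (q j : ℕ) (p : Pol n) (i : Fin n) (u : E n) : ℝ :=
  ev (pderiv i p) u + ((q : ℝ) - j) * (u i * ev p u)

/-- Weak gradient of the `q`-homogeneous extension. -/
structure WG (q : ℕ) (Φ : E n → ℝ) (F : Fin n → E n → ℝ) : Prop where
  mem : MemLp Φ 2 (sig n)
  memF : ∀ i, MemLp (F i) 2 (sig n)
  ibp : ∀ (i : Fin n) (k : ℕ) (r : Pol n), r.IsHomogeneous k →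
    ∫ u, F i u * ev r u ∂sig n = ((n : ℝ) + q + k - 1) * ∫ u, Φ u * (u i * ev r u) ∂sig n -
      ∫ u, Φ u * ev (pderiv i r) u ∂sig n

/-- `f` is within squared distance `t` of the harmonics of degrees 0 and 2. -/
def T4le (f : E n → ℝ) (t : ℝ) : Prop :=
  ∃ (c : ℝ) (p : Pol n), Harm 2 p ∧ ∫ u, (f u - c - ev p u) ^ 2 ∂sig n ≤ t

variable [NeZero n]

namespace WGa

theorem int_ev {f : E n → ℝ} (hf : MemLp f 2 (sig n)) (p : Pol n) :
    Integrable (fun u => f u * ev p u) (sig n) := integrable_mul2 hf (memLp_ev p 2)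

theorem int_X {f : E n → ℝ} (hf : MemLp f 2 (sig n)) (i : Fin n) (p : Pol n) :
    Integrable (fun u => f u * (u i * ev p u)) (sig n) := by
  have h := int_ev hf (X i * p)
  simpa only [ev_mul, ev_X] using h

theorem sum_euler {f : E n → ℝ} (hf : MemLp f 2 (sig n)) {p : Pol n} {j : ℕ}
    (hp : p.IsHomogeneous j) : ∑ i, ∫ u, f u * (u i * ev (pderiv i p) u) ∂sig n =
      j * ∫ u, f u * ev p u ∂sig n := by
  rw [← integral_finsetSum _ fun i _ => int_X hf i _, ← integral_const_mul]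
  refine integral_congr_ae (ae_of_all _ fun u => ?_)
  simp only [← mul_sum, ev_euler hp]
  ring

theorem sub {q : ℕ} {Φ Ψ : E n → ℝ} {F G : Fin n → E n → ℝ} (h : WG q Φ F) (h' : WG q Ψ G) :
    WG q (fun u => Φ u - Ψ u) fun i u => F i u - G i u := by
  refine ⟨h.mem.sub h'.mem, fun i => (h.memF i).sub (h'.memF i), fun i k r hr => ?_⟩
  simp only [sub_mul]
  rw [integral_sub (int_ev (h.memF i) r) (int_ev (h'.memF i) r),
    integral_sub (int_X h.mem i r) (int_X h'.mem i r),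
    integral_sub (int_ev h.mem _) (int_ev h'.mem _), h.ibp i k r hr, h'.ibp i k r hr]
  ring

theorem sq_sub {f g : E n → ℝ} (hf : MemLp f 2 (sig n)) (hg : MemLp g 2 (sig n)) :
    ∫ u, (f u - g u) ^ 2 ∂sig n =
      ∫ u, f u ^ 2 ∂sig n - 2 * ∫ u, f u * g u ∂sig n + ∫ u, g u * g u ∂sig n := by
  have i1 := (integrable_mul2 hf hg).const_mul 2
  have i2 : Integrable (fun u => f u ^ 2 - 2 * (f u * g u)) (sig n) := (integrable_sq hf).sub i1
  rw [← integral_const_mul, ← integral_sub (integrable_sq hf) i1,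
    ← integral_add i2 (integrable_mul2 hg hg)]
  refine integral_congr_ae (ae_of_all _ fun u => ?_)
  ring

end WGa

open WGa

theorem memLp_W (q j : ℕ) (p : Pol n) (i : Fin n) : MemLp (W q j p i) 2 (sig n) := by
  have e : W q j p i = ev (pderiv i p + ((q : ℝ) - j) • (X i * p)) := by
    funext u
    simp [W]
  rw [e]
  exact memLp_ev _ 2

theorem WG.of_LL (hn : 2 ≤ n) {Φ : E n → ℝ} {q : ℕ} (h : LL Φ) (hq : Hom q Φ) :
    WG q Φ (D Φ) := by
  refine ⟨h.memLp 2, fun i => h.memLp_D i 2, fun i k r hr => ?_⟩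
  have h1 := sibp hn (h.mul (ll_ev r)) (hq.mul (hom_ev hr)) i
  rw [integral_congr_ae (g := fun u => D Φ i u * ev r u + Φ u * ev (pderiv i r) u)
    ((h.ae_diff hq).mono fun u hu => by rw [D_mul hu (differentiableAt_ev r u), D_ev]),
    integral_add (int_ev (h.memLp_D i 2) r) (int_ev (h.memLp 2) _)] at h1
  simp only [mul_left_comm _ (Φ _)] at h1
  rw [eq_sub_of_add_eq h1]
  push_cast
  ring

theorem WG.of_hom (hn : 2 ≤ n) {p : Pol n} {j : ℕ} (h : p.IsHomogeneous j) (q : ℕ) :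
    WG q (ev p) (W q j p) := by
  refine ⟨memLp_ev p 2, memLp_W q j p, fun i k r hr => ?_⟩
  have h1 := (WG.of_LL hn (ll_ev p) (hom_ev h)).ibp i k r hr
  have e : ∀ u, W q j p i u * ev r u =
      ev (pderiv i p) u * ev r u + ((q : ℝ) - j) * (ev p u * (u i * ev r u)) := fun u => by
    rw [W]
    ring
  simp only [D_ev] at h1
  simp only [e]
  rw [integral_add (int_ev (memLp_ev _ 2) r) ((int_X (memLp_ev p 2) i r).const_mul _),
    integral_const_mul, h1]
  ring

theorem WG.pair_pderiv {q : ℕ} {Φ : E n → ℝ} {F : Fin n → E n → ℝ} (h : WG q Φ F) {p : Pol n}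
    {j : ℕ} (hp : Harm j p) : ∑ i, ∫ u, F i u * ev (pderiv i p) u ∂sig n =
      j * ((n : ℝ) + q + j - 2) * ∫ u, Φ u * ev p u ∂sig n := by
  have h1 : ∑ i, ∫ u, Φ u * ev (pderiv i (pderiv i p)) u ∂sig n = 0 := by
    rw [← integral_finsetSum _ fun i _ => int_ev h.mem _]
    simp only [← mul_sum, ev_lap hp, mul_zero, integral_zero]
  simp only [fun i => h.ibp i (j - 1) _ (hp.1.pderiv (i := i))]
  rw [sum_sub_distrib, h1, ← mul_sum, sum_euler h.mem hp.1]
  cases j with
  | zero => simp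
  | succ j =>
    rw [Nat.add_sub_cancel]
    push_cast
    ring

theorem WG.pair_X {q : ℕ} {Φ : E n → ℝ} {F : Fin n → E n → ℝ} (h : WG q Φ F) {p : Pol n}
    {j : ℕ} (hp : p.IsHomogeneous j) : ∑ i, ∫ u, F i u * (u i * ev p u) ∂sig n =
      q * ∫ u, Φ u * ev p u ∂sig n := by
  have h1 : ∀ i, ∫ u, F i u * (u i * ev p u) ∂sig n =
      ((n : ℝ) + q + j) * ∫ u, Φ u * (u i * (u i * ev p u)) ∂sig n -
        (∫ u, Φ u * ev p u ∂sig n + ∫ u, Φ u * (u i * ev (pderiv i p) u) ∂sig n) := fun i => by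
    have h2 := h.ibp i (1 + j) _ ((isHomogeneous_X ℝ i).mul hp)
    simp only [pderiv_mul, pderiv_X_self, one_mul, ev_add, ev_mul, ev_X, mul_add] at h2
    rw [h2, integral_add (int_ev h.mem p) (int_X h.mem i _)]
    push_cast
    ring
  have h2 : ∑ i, ∫ u, Φ u * (u i * (u i * ev p u)) ∂sig n = ∫ u, Φ u * ev p u ∂sig n := by
    rw [← integral_finsetSum _ fun i _ => by
      have h3 := int_X h.mem i (X i * p)
      simpa only [ev_mul, ev_X] using h3]
    refine integral_congr_ae (ae_norm.mono fun u hu => ?_)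
    have h3 := EuclideanSpace.real_norm_sq_eq u
    rw [hu, one_pow] at h3
    simp only [← mul_sum, ← mul_assoc (u _), ← sq, ← sum_mul, ← h3, one_mul]
  simp only [h1]
  rw [sum_sub_distrib, sum_add_distrib, ← mul_sum, h2, sum_euler h.mem hp, sum_const, card_univ,
    Fintype.card_fin, nsmul_eq_mul]
  ring

theorem WG.pair {q : ℕ} {Φ : E n → ℝ} {F : Fin n → E n → ℝ} (h : WG q Φ F) {p : Pol n}
    {j : ℕ} (hp : Harm j p) : ∑ i, ∫ u, F i u * W q j p i u ∂sig n =
      ((q : ℝ) ^ 2 + j * ((j : ℝ) + n - 2)) * ∫ u, Φ u * ev p u ∂sig n := by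
  have h1 : ∀ i, ∫ u, F i u * W q j p i u ∂sig n = ∫ u, F i u * ev (pderiv i p) u ∂sig n +
      ((q : ℝ) - j) * ∫ u, F i u * (u i * ev p u) ∂sig n := fun i => by
    rw [← integral_const_mul, ← integral_add (int_ev (h.memF i) _)
      ((int_X (h.memF i) i p).const_mul _)]
    refine integral_congr_ae (ae_of_all _ fun u => ?_)
    simp only [W]
    ring
  simp only [h1]
  rw [sum_add_distrib, ← mul_sum, h.pair_pderiv hp, h.pair_X hp.1]
  ring

theorem WG.rest (hn : 2 ≤ n) {q : ℕ} {Φ : E n → ℝ} {F : Fin n → E n → ℝ} (h : WG q Φ F)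
    {p : ℕ → Pol n} (hp : ∀ j, Harm j (p j)) (s : Finset ℕ) :
    WG q (fun u => Φ u - ∑ j ∈ s, ev (p j) u) fun i u => F i u - ∑ j ∈ s, W q j (p j) i u := by
  induction s using Finset.induction_on with
  | empty => simpa using h
  | insert a s ha ih =>
    simpa only [sum_insert ha, add_comm _ (∑ j ∈ s, _), ← sub_sub] using
      sub ih (WG.of_hom hn (hp a).1 q)

theorem WG.bessel (hn : 3 ≤ n) {q : ℕ} {Φ : E n → ℝ} {F : Fin n → E n → ℝ} (h : WG q Φ F)
    {p : ℕ → Pol n} (hp : Expa Φ p) (s : Finset ℕ) :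
    ∑ i, ∫ u, (F i u - ∑ j ∈ s, W q j (p j) i u) ^ 2 ∂sig n +
      ∑ j ∈ s, ((q : ℝ) ^ 2 + j * ((j : ℝ) + n - 2)) * ∫ u, ev (p j) u ^ 2 ∂sig n =
        ∑ i, ∫ u, F i u ^ 2 ∂sig n := by
  induction s using Finset.induction_on with
  | empty => simp
  | insert a s ha ih =>
    have h1 := h.rest (by omega) hp.harm s
    have h2 := h1.pair (hp.harm a)
    have h3 := (WG.of_hom (by omega) (hp.harm a).1 q).pair (hp.harm a)
    have h4 : ∫ u, (Φ u - ∑ j ∈ s, ev (p j) u) * ev (p a) u ∂sig n =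
        ∫ u, ev (p a) u * ev (p a) u ∂sig n := by
      simp only [sub_mul, sum_mul]
      rw [integral_sub (int_ev h.mem _) (integrable_finsetSum _ fun j _ => int_ev (memLp_ev _ 2) _),
        integral_finsetSum _ fun j _ => int_ev (memLp_ev _ 2) _, hp.eq a _ (hp.harm a),
        sum_eq_zero fun j hj => orth hn (hp.harm j) (hp.harm a) (by rintro rfl; exact ha hj),
        sub_zero]
    simp only [sum_insert ha, add_comm _ (∑ j ∈ s, _), ← sub_sub,
      fun i => sq_sub (h1.memF i) (memLp_W q a (p a) i)]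
    rw [sum_add_distrib, sum_sub_distrib, ← mul_sum, h2, h3, h4, ← ih]
    simp only [sq (ev (p a) _)]
    ring

theorem T4le.mono {f : E n → ℝ} {s t : ℝ} (h : T4le f s) (hst : s ≤ t) : T4le f t := by
  obtain ⟨c, p, hp, h⟩ := h
  exact ⟨c, p, hp, h.trans hst⟩

theorem T4le.nonneg {f : E n → ℝ} {t : ℝ} (h : T4le f t) : 0 ≤ t := by
  obtain ⟨c, p, -, h⟩ := h
  exact (integral_nonneg fun u => sq_nonneg _).trans h

theorem T4le.of_sq (f : E n → ℝ) : T4le f (∫ u, f u ^ 2 ∂sig n) :=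
  ⟨0, 0, Harm.zero 2, by simp⟩

theorem T4le.add {U V H : E n → ℝ} {s t r c : ℝ} (hU : MemLp U 2 (sig n))
    (hV : MemLp V 2 (sig n)) (h1 : T4le U s) (h2 : T4le V t) (hr : 0 < r) (hr1 : r < 1)
    (hH : ∀ u, ‖u‖ = 1 → H u = c + U u + V u) : T4le H (s / r + t / (1 - r)) := by
  obtain ⟨c1, p1, hp1, h1⟩ := h1
  obtain ⟨c2, p2, hp2, h2⟩ := h2
  have m1 : MemLp (fun u => U u - c1 - ev p1 u) 2 (sig n) :=
    (hU.sub (memLp_const c1)).sub (memLp_ev p1 2)
  have m2 : MemLp (fun u => V u - c2 - ev p2 u) 2 (sig n) :=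
    (hV.sub (memLp_const c2)).sub (memLp_ev p2 2)
  have hr2 : 0 < 1 - r := sub_pos.2 hr1
  refine ⟨c + c1 + c2, p1 + p2, hp1.add hp2, ?_⟩
  refine (integral_mono_of_nonneg (ae_of_all _ fun u => sq_nonneg _)
    (((integrable_sq m1).div_const r).add ((integrable_sq m2).div_const (1 - r)))
    (ae_norm.mono fun u hu => ?_)).trans ?_
  · have key : ∀ a b : ℝ, (a + b) ^ 2 ≤ a ^ 2 / r + b ^ 2 / (1 - r) := fun a b => by
      rw [div_add_div _ _ hr.ne' hr2.ne', le_div_iff₀ (mul_pos hr hr2)]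
      nlinarith [sq_nonneg (a * (1 - r) - b * r)]
    refine le_of_eq_of_le ?_ (key _ _)
    simp only [hH u hu, ev_add]
    ring
  · simp only [Pi.add_apply]
    rw [integral_add ((integrable_sq m1).div_const r) ((integrable_sq m2).div_const (1 - r)),
      integral_div, integral_div]
    gcongr

end Vale.Agent.P237B
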