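import Vale.Agent.P237B.Sub

/-! The zonoid of an integrable vector field and its covering by sums of segments.

PLAN.
* shape: convex combinations and negatives of admissible s are admissible; s • m is integrable
  (`Integrable.bdd_smul`-like); ‖∫ s • m‖ ≤ ∫ ‖m‖.
* zon_cover: choose a simple function g with ∫ ‖m - g‖ ≤ δ (`MemLp.exists_simpleFunc_eLpNorm_sub_lt`
  or `tendsto_integral_norm_approxOn_sub`, for a strongly measurable version of m).  Index type
  ι = g.range ⊕ Fin n: a (inl b) = μ.real (g ⁻¹' {b}) • b, a (inr i) = δ • single i 1.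
  ∫ s • g = ∑ b, (∫ x in g ⁻¹' {b}, s x) • b with |∫ x in g ⁻¹' {b}, s| ≤ μ.real (g ⁻¹' {b});
  y = ∫ s • (m - g) has ‖y‖ ≤ δ, so y = ∑ i, (y i / δ) • (δ • single i 1).
  The set {∑ c i • a i | |c i| ≤ 1} is compact (image of a cube), so it contains the closure.
  ∑ hh K (a i) = ∫ hh K ∘ g + δ ∑ hh K (single i 1) ≤ ∫ hh K ∘ m + C δ + n C δ
  (`hh_add`, `hh_bounds`, `hh_smul_arg`; hh K is Lipschitz). -/

namespace Vale.Agent.P237B

open MeasureTheory Metric Set Filter Topology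
open scoped Pointwise RealInnerProductSpace

variable {n : ℕ} {Ω : Type} [MeasurableSpace Ω] {μ : Measure Ω} {m : Ω → E n}

/-- The set of averages of `m` against measurable multipliers with values in `[-1, 1]`. -/
def Zon (μ : Measure Ω) (m : Ω → E n) : Set (E n) :=
  {x | ∃ s : Ω → ℝ, Measurable s ∧ (∀ w, |s w| ≤ 1) ∧ x = ∫ w, s w • m w ∂μ}

namespace Zon

theorem int_smul {f : Ω → E n} (hf : Integrable f μ) {s : Ω → ℝ} (hs : Measurable s)
    (h1 : ∀ w, |s w| ≤ 1) : Integrable (fun w => s w • f w) μ :=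
  hf.bdd_smul 1 hs.aestronglyMeasurable (Eventually.of_forall h1)

theorem norm_le {f : Ω → E n} (hf : Integrable f μ) {s : Ω → ℝ} (h1 : ∀ w, |s w| ≤ 1) :
    ‖∫ w, s w • f w ∂μ‖ ≤ ∫ w, ‖f w‖ ∂μ := by
  refine norm_integral_le_of_norm_le hf.norm (Eventually.of_forall fun w => ?_)
  rw [norm_smul]
  exact mul_le_of_le_one_left (norm_nonneg _) (h1 w)

theorem int_simple {V : Type} [NormedAddCommGroup V] [NormedSpace ℝ V] (g : SimpleFunc Ω (E n))
    {F : Ω → E n → V} (hF : ∀ b, Integrable (fun w => F w b) μ) :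
    ∫ w, F w (g w) ∂μ = ∑ b : g.range, ∫ w in g ⁻¹' {b.1}, F w b ∂μ := by
  classical
  have e : ∀ w, F w (g w) = ∑ b ∈ g.range, (g ⁻¹' {b}).indicator (fun w => F w b) w := by
    intro w
    rw [Finset.sum_eq_single_of_mem (g w) (g.mem_range_self w)]
    · rw [indicator_of_mem (by simp)]
    · intro b _ hb
      exact indicator_of_notMem (fun h => hb h.symm) _
  simp_rw [e]
  rw [integral_finsetSum _ fun b _ => (hF b).indicator (g.measurableSet_fiber b),
    Finset.sum_coe_sort g.range fun b => ∫ w in g ⁻¹' {b}, F w b ∂μ]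
  exact Finset.sum_congr rfl fun b _ => integral_indicator (g.measurableSet_fiber b)

theorem exists_coef {I M : ℝ} (h : |I| ≤ M) : ∃ c : ℝ, |c| ≤ 1 ∧ I = c * M := by
  rcases ((abs_nonneg I).trans h).eq_or_lt with h0 | h0
  · refine ⟨0, by simp, ?_⟩
    rw [zero_mul]
    exact abs_nonpos_iff.1 (h0 ▸ h)
  · refine ⟨I / M, ?_, (div_mul_cancel₀ I h0.ne').symm⟩
    rw [abs_div, abs_of_pos h0, div_le_one h0]
    exact h

theorem isClosed_cube {ι : Type} [Fintype ι] (a : ι → E n) :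
    IsClosed {x : E n | ∃ c : ι → ℝ, (∀ i, |c i| ≤ 1) ∧ x = ∑ i, c i • a i} := by
  have e : {x : E n | ∃ c : ι → ℝ, (∀ i, |c i| ≤ 1) ∧ x = ∑ i, c i • a i} =
      (fun c : ι → ℝ => ∑ i, c i • a i) '' Icc (fun _ => -1) fun _ => 1 := by
    ext x
    simp only [mem_ofPred_eq, mem_image, mem_Icc, Pi.le_def, abs_le, forall_and, eq_comm]
  rw [e]
  exact (isCompact_Icc.image (by fun_prop)).isClosed

theorem hh_lip [NeZero n] {K : Set (E n)} (hK : IsBody K) :
    ∃ C : ℝ, 0 ≤ C ∧ (∀ a, hh K a ≤ C * ‖a‖) ∧ ∀ a b, hh K b ≤ hh K a + C * ‖a - b‖ := by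
  obtain ⟨c, C, -, hb⟩ := hh_bounds hK
  have h : ∀ a, hh K a ≤ |C| * ‖a‖ := fun a =>
    (hb a).2.trans (mul_le_mul_of_nonneg_right (le_abs_self C) (norm_nonneg a))
  refine ⟨|C|, abs_nonneg C, h, fun a b => ?_⟩
  have h1 := hh_add hK a (b - a)
  have h2 := h (b - a)
  rw [norm_sub_rev] at h2
  rw [add_sub_cancel] at h1
  linarith

end Zon

theorem zon_convex (hm : Integrable m μ) : Convex ℝ (Zon μ m) := by
  rintro _ ⟨s, hs, hs1, rfl⟩ _ ⟨t, ht, ht1, rfl⟩ a b ha hb hab
  refine ⟨fun w => a * s w + b * t w, by fun_prop, fun w => ?_, ?_⟩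
  · have h1 := abs_le.1 (hs1 w)
    have h2 := abs_le.1 (ht1 w)
    rw [abs_le]
    constructor <;> nlinarith [h1.1, h1.2, h2.1, h2.2]
  · simp_rw [add_smul, mul_smul]
    rw [← integral_smul, ← integral_smul]
    exact (integral_add ((Zon.int_smul hm hs hs1).smul a) ((Zon.int_smul hm ht ht1).smul b)).symm

theorem zon_neg {x : E n} (hx : x ∈ Zon μ m) : -x ∈ Zon μ m := by
  obtain ⟨s, hs, hs1, rfl⟩ := hx
  refine ⟨fun w => -s w, hs.neg, fun w => by simpa using hs1 w, ?_⟩
  simp_rw [neg_smul]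
  rw [integral_neg]

theorem zon_bounded (hm : Integrable m μ) : Bornology.IsBounded (Zon μ m) := by
  refine (isBounded_closedBall (x := (0 : E n)) (r := ∫ w, ‖m w‖ ∂μ)).subset ?_
  rintro _ ⟨s, -, hs1, rfl⟩
  exact mem_closedBall_zero_iff.2 (Zon.norm_le hm hs1)

theorem continuous_hh [NeZero n] {K : Set (E n)} (hK : IsBody K) : Continuous (hh K) := by
  obtain ⟨C, hC, -, h⟩ := Zon.hh_lip hK
  refine (LipschitzWith.of_dist_le_mul (K := ⟨C, hC⟩) fun a b => ?_).continuous
  have h1 := h a b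
  have h2 := h b a
  rw [norm_sub_rev] at h2
  change |hh K a - hh K b| ≤ C * dist a b
  rw [dist_eq_norm, abs_le]
  constructor <;> linarith

theorem integrable_hh [NeZero n] {K : Set (E n)} (hK : IsBody K) (hm : Integrable m μ) :
    Integrable (fun w => hh K (m w)) μ := by
  obtain ⟨C, -, h, -⟩ := Zon.hh_lip hK
  refine (hm.norm.const_mul C).mono' ((continuous_hh hK).comp_aestronglyMeasurable hm.1)
    (Eventually.of_forall fun w => ?_)
  rw [Real.norm_of_nonneg (hh_nonneg _ _)]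
  exact h _

theorem zon_cover [NeZero n] [IsFiniteMeasure μ] {K : Set (E n)} (hK : IsBody K)
    (hm : Integrable m μ) {ε : ℝ} (hε : 0 < ε) :
    ∃ (ι : Type) (_ : Fintype ι) (a : ι → E n),
      (∀ x ∈ closure (Zon μ m), ∃ c : ι → ℝ, (∀ i, |c i| ≤ 1) ∧ x = ∑ i, c i • a i) ∧
      ∑ i, hh K (a i) ≤ ∫ w, hh K (m w) ∂μ + ε := by
  obtain ⟨C, hC, h1, h2⟩ := Zon.hh_lip hK
  have hN : 0 < C * (n + 1) + 1 := by positivity
  set δ := ε / (C * (n + 1) + 1) with hδ
  have hδ0 : 0 < δ := div_pos hε hN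
  obtain ⟨g, hg, hgi⟩ := (memLp_one_iff_integrable.2 hm).exists_simpleFunc_eLpNorm_sub_lt
    ENNReal.one_ne_top (ENNReal.ofReal_pos.2 hδ0).ne'
  rw [memLp_one_iff_integrable] at hgi
  have hd : Integrable (fun w => m w - g w) μ := hm.sub hgi
  have hg' : ∫ w, ‖m w - g w‖ ∂μ ≤ δ := by
    rw [integral_norm_eq_lintegral_enorm hd.1]
    rw [eLpNorm_one_eq_lintegral_enorm] at hg
    exact ENNReal.toReal_le_of_le_ofReal hδ0.le hg.le
  refine ⟨g.range ⊕ Fin n, inferInstance, Sum.elim (fun b => μ.real (g ⁻¹' {b.1}) • b.1)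
    fun i => δ • EuclideanSpace.single i 1, closure_minimal ?_ (Zon.isClosed_cube _), ?_⟩
  · rintro _ ⟨s, hs, hs1, rfl⟩
    have hsi : Integrable s μ :=
      (integrable_const 1).mono' hs.aestronglyMeasurable (Eventually.of_forall hs1)
    choose c hc hc' using fun b : g.range =>
      Zon.exists_coef (I := ∫ w in g ⁻¹' {b.1}, s w ∂μ) (M := μ.real (g ⁻¹' {b.1})) (by
        simpa using norm_setIntegral_le_of_norm_le_const (f := s) (C := 1)
          (measure_lt_top μ (g ⁻¹' {b.1})) fun w _ => hs1 w)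
    set y := ∫ w, s w • (m w - g w) ∂μ with hy
    choose e he he' using fun i : Fin n => Zon.exists_coef (I := y i) (M := δ)
      ((PiLp.norm_apply_le y i).trans ((Zon.norm_le hd hs1).trans hg'))
    refine ⟨Sum.elim c e, by rintro (b | i); exacts [hc b, he i], ?_⟩
    have h3 : ∫ w, s w • m w ∂μ = ∫ w, s w • g w ∂μ + y := by
      rw [hy, ← integral_add (Zon.int_smul hgi hs hs1) (Zon.int_smul hd hs hs1)]
      simp_rw [← smul_add, add_sub_cancel]
    rw [h3, Fintype.sum_sum_type, Zon.int_simple g (F := fun w b => s w • b)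
      fun b => hsi.smul_const b]
    simp only [Sum.elim_inl, Sum.elim_inr, smul_smul, ← hc', ← he', integral_smul_const]
    congr 1
    ext j
    simp [Finset.sum_apply, Pi.single_apply]
  · have h3 : ∫ w, hh K (g w) ∂μ ≤ ∫ w, hh K (m w) ∂μ + C * δ := by
      refine (integral_mono (integrable_hh hK hgi)
        ((integrable_hh hK hm).add (hd.norm.const_mul C)) fun w => h2 (m w) (g w)).trans ?_
      simp only [Pi.add_apply]
      rw [integral_add (integrable_hh hK hm) (hd.norm.const_mul C), integral_const_mul]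
      gcongr
    have h4 : ∑ i : Fin n, hh K (δ • EuclideanSpace.single i 1) ≤ n * (C * δ) := by
      refine (Finset.sum_le_card_nsmul _ _ (C * δ) fun i _ => (h1 _).trans_eq ?_).trans_eq ?_
      · simp [norm_smul, abs_of_pos hδ0]
      · simp
    rw [Zon.int_simple g (F := fun _ b => hh K b) fun b => integrable_const _] at h3
    have h5 : δ * (C * (n + 1) + 1) = ε := div_mul_cancel₀ _ hN.ne'
    simp only [Fintype.sum_sum_type, Sum.elim_inl, Sum.elim_inr, hh_smul_arg K (μ.real _),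
      abs_of_nonneg measureReal_nonneg, setIntegral_const, smul_eq_mul] at h3 ⊢
    nlinarith

end Vale.Agent.P237B
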