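import Vale.Agent.P237B.Nrm
import Vale.Agent.P237B.WG
import Vale.Agent.P237B.Zon

/-! Existence of the position in which the mean of `G ^ q` over the sphere is minimal among maps of
given determinant.

PLAN.  On the finite-dimensional space of continuous linear maps S (or matrices) let
ψ S = ∫ G (S u)^q.  ψ is continuous (`continuous_of_dominated`, or
`MeasureTheory.continuous_parametric_integral_of_continuous`-type lemmas, or Lipschitz estimates),
ψ (t • S) = |t|^q ψ S, and ψ S > 0 for S ≠ 0 (else G (S u) = 0 for all unit u, `eq_of_ae_sig`).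
Maximise the continuous function det(S)^(2q) / ψ(S)^(2n) (0-homogeneous) on the unit sphere of
the space of maps; the maximiser S₀ has det ≠ 0 (compare with the identity) and maximises over all
S ≠ 0.  With G₀ = G ∘ S₀, Φ = G₀^q and A = the elementary map x ↦ x j • single i 1:
t ↦ ∫ Φ (u + t • A u) has derivative ∫ D Φ i u * u j at 0
(`hasDerivAt_integral_of_dominated_loc_of_lip`, Φ Lipschitz on the ball of radius 2,
`LL.ae_diff`, `fderiv_eq_sum`), det (1 + t A) = 1 + t δ_ij
(`Matrix.det_one_add_replicateCol_mul_replicateRow`, `Matrix.det_transvection_of_ne`,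
`Matrix.det_diagonal`); `IsLocalMax.hasDerivAt_eq_zero` gives ∫ D Φ i u * u j = δ_ij q ψ / n. -/

namespace Vale.Agent.P237B

open MeasureTheory Metric Set Filter Topology
open scoped RealInnerProductSpace

variable {n : ℕ}

/-- Isotropy of the gradient of `G ^ q`. -/
def InPos (q : ℕ) (G : E n → ℝ) : Prop :=
  ∃ c : ℝ, ∀ i j : Fin n,
    ∫ u, D (fun x => G x ^ q) i u * u j ∂sig n = if i = j then c else 0

variable [NeZero n] {G : E n → ℝ} {q : ℕ}

namespace PosA

theorem cont (h : IsNrm G) : Continuous fun S : E n →L[ℝ] E n => ∫ u, G (S u) ^ q ∂sig n := by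
  have h1 := continuous_parametric_integral_of_continuous (μ := sig n)
    (f := fun (S : E n →L[ℝ] E n) (u : E n) => G (S u) ^ q)
    ((h.continuous.comp (by fun_prop)).pow q) (isCompact_sphere 0 1)
  rwa [Measure.restrict_eq_self_of_ae_mem
    (ae_norm.mono fun u hu => mem_sphere_zero_iff_norm.2 hu)] at h1

theorem pos (h : IsNrm G) {S : E n →L[ℝ] E n} (hS : S ≠ 0) : 0 < ∫ u, G (S u) ^ q ∂sig n := by
  have hc : Continuous fun u => G (S u) ^ q := (h.continuous.comp S.continuous).pow q
  have h0 : 0 ≤ fun u => G (S u) ^ q := fun u => pow_nonneg (h.nonneg _) q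
  refine (integral_nonneg h0).lt_of_ne' fun h1 => hS ?_
  rw [integral_eq_zero_iff_of_nonneg h0 (integrable_of_contOn hc.continuousOn)] at h1
  ext1 x
  by_contra h2
  have hx : x ≠ 0 := by
    rintro rfl
    simp at h2
  have h3 := eq_of_ae_sig hc.continuousOn continuous_zero.continuousOn h1
    (norm_smul_inv_norm (𝕜 := ℝ) hx)
  refine (pow_pos (h.pos _ ?_) q).ne' h3
  rw [map_smul]
  exact smul_ne_zero (inv_ne_zero (by simpa using hx)) h2

theorem exists_max (h : IsNrm G) (hq : 1 ≤ q) : ∃ S : E n →L[ℝ] E n, S.det ≠ 0 ∧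
    ∀ T : E n →L[ℝ] E n, |T.det| ^ q * (∫ u, G (S u) ^ q ∂sig n) ^ n ≤
      |S.det| ^ q * (∫ u, G (T u) ^ q ∂sig n) ^ n := by
  have : Nontrivial (E n) := Module.nontrivial_of_finrank_pos (R := ℝ)
    (by rw [finrank_euclideanSpace_fin]; exact NeZero.pos n)
  have hs : ∀ S ∈ sphere (0 : E n →L[ℝ] E n) 1, S ≠ 0 := fun S hS =>
    ne_zero_of_mem_sphere one_ne_zero ⟨S, hS⟩
  obtain ⟨S, hS, hm⟩ := (isCompact_sphere (0 : E n →L[ℝ] E n) 1).exists_isMaxOn
    ⟨.id ℝ _, by simp⟩ (f := fun T => |T.det| ^ q / (∫ u, G (T u) ^ q ∂sig n) ^ n)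
    (((ContinuousLinearMap.continuous_det.abs.pow q).continuousOn).div
      ((cont h).pow n).continuousOn fun T hT => (pow_pos (pos h (hs T hT)) n).ne')
  have hp := pow_pos (pos (q := q) h (hs S hS)) n
  have key : ∀ T : E n →L[ℝ] E n, |T.det| ^ q * (∫ u, G (S u) ^ q ∂sig n) ^ n ≤
      |S.det| ^ q * (∫ u, G (T u) ^ q ∂sig n) ^ n := by
    intro T
    by_cases hT : T = 0
    · subst hT
      have h0 : (0 : E n →L[ℝ] E n).det = 0 := by
        simp [ContinuousLinearMap.det]
      rw [h0, abs_zero, zero_pow (by omega), zero_mul]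
      exact mul_nonneg (by positivity)
        (pow_nonneg (integral_nonneg fun u => pow_nonneg (h.nonneg _) q) n)
    · have hr : 0 < ‖T‖⁻¹ := inv_pos.2 (norm_pos_iff.2 hT)
      have h1 := hm (mem_sphere_zero_iff_norm.2 (norm_smul_inv_norm (𝕜 := ℝ) hT))
      have h2 : (‖T‖⁻¹ • T).det = ‖T‖⁻¹ ^ n * T.det := by
        simp [ContinuousLinearMap.det, LinearMap.det_smul]
      have h3 : ∫ u, G ((‖T‖⁻¹ • T) u) ^ q ∂sig n = ‖T‖⁻¹ ^ q * ∫ u, G (T u) ^ q ∂sig n := by
        simp_rw [smul_apply, h.smul, abs_of_pos hr, mul_pow]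
        exact integral_const_mul _ _
      simp only [mem_ofPred_eq, RCLike.ofReal_real_eq_id, id_eq] at h1
      rw [h2, h3, abs_mul, abs_of_pos (pow_pos hr n), mul_pow, mul_pow, ← pow_mul, ← pow_mul,
        mul_comm q n, mul_div_mul_left _ _ (pow_pos hr _).ne',
        div_le_div_iff₀ (pow_pos (pos h hT) n) hp] at h1
      exact h1
  refine ⟨S, fun h0 => ?_, key⟩
  have h1 := key (.id ℝ _)
  have h2 : (ContinuousLinearMap.id ℝ (E n)).det = 1 := by simp [ContinuousLinearMap.det]
  rw [h0, h2, abs_zero, zero_pow (by omega), zero_mul, abs_one, one_pow, one_mul] at h1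
  exact h1.not_gt hp

theorem hasDeriv (h : IsNrm G) (i j : Fin n) :
    HasDerivAt (fun t : ℝ => ∫ u, G (u + t • u j • EuclideanSpace.single i 1) ^ q ∂sig n)
      (∫ u, D (fun x => G x ^ q) i u * u j ∂sig n) 0 := by
  obtain ⟨C, hC⟩ := h.lipschitz
  have hL : LocallyLipschitz fun x => G x ^ q :=
    (contDiff_id.pow q : ContDiff ℝ 1 fun t : ℝ => t ^ q).locallyLipschitz.comp hC.locallyLipschitz
  obtain ⟨K, hK⟩ := hL.locallyLipschitzOn.exists_lipschitzOnWith_of_compact
    (isCompact_closedBall 0 2)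
  have hc : ∀ t : ℝ, Continuous fun u : E n => G (u + t • u j • EuclideanSpace.single i 1) ^ q :=
    fun t => (h.continuous.comp (by fun_prop)).pow q
  refine (hasDerivAt_integral_of_dominated_loc_of_lip (bound := fun _ => K)
    (ball_mem_nhds 0 one_pos) (Eventually.of_forall fun t => (hc t).aestronglyMeasurable)
    (integrable_of_contOn (hc 0).continuousOn)
    ((measurable_D _ i).mul (by fun_prop)).aestronglyMeasurable (ae_norm.mono fun u hu => ?_)
    (integrable_const _) (((h.ll_pow q).ae_diff (h.hom_pow q)).mono fun u hu => ?_)).2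
  · have h1 : ‖u j • EuclideanSpace.single i (1 : ℝ)‖ ≤ 1 := by
      simpa [norm_smul, hu] using PiLp.norm_apply_le u j
    have h2 : LipschitzWith 1 fun t : ℝ => u + t • u j • EuclideanSpace.single i 1 := by
      refine LipschitzWith.of_dist_le_mul fun s t => ?_
      rw [dist_add_left, dist_eq_norm, ← sub_smul, norm_smul, NNReal.coe_one, one_mul,
        dist_eq_norm]
      exact mul_le_of_le_one_right (norm_nonneg _) h1
    have h3 := hK.comp (h2.lipschitzOnWith (s := ball 0 1)) fun t ht => by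
      rw [mem_closedBall_zero_iff]
      refine (norm_add_le _ _).trans ?_
      rw [norm_smul, hu]
      nlinarith [mem_ball_zero_iff.1 ht, norm_nonneg t]
    rw [mul_one] at h3
    rw [Real.nnabs_coe]
    exact h3
  · have h1 : HasDerivAt (fun t : ℝ => u + t • u j • EuclideanSpace.single i (1 : ℝ))
        (u j • EuclideanSpace.single i 1) 0 := by
      simpa using ((hasDerivAt_id (0 : ℝ)).smul_const
        (u j • EuclideanSpace.single i (1 : ℝ))).const_add u
    have h2 := hu.hasFDerivAt.comp_hasDerivAt_of_eq 0 h1 (by simp)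
    rw [map_smul, smul_eq_mul, mul_comm] at h2
    exact h2

end PosA

theorem exists_inPos (h : IsNrm G) (hq : 1 ≤ q) :
    ∃ S : E n ≃ₗ[ℝ] E n, InPos q fun x => G (S x) := by
  obtain ⟨S, hS, hm⟩ := PosA.exists_max h hq
  let S' := (S.toContinuousLinearEquivOfDetNeZero hS).toLinearEquiv
  have h' : IsNrm fun x => G (S x) := h.comp S'
  have hp := h'.integral_pow_pos q
  refine ⟨S', q * (∫ u, G (S u) ^ q ∂sig n) / n, fun i j => ?_⟩
  change ∫ u, D (fun x => G (S x) ^ q) i u * u j ∂sig n = _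
  have hd := PosA.hasDeriv (q := q) h' i j
  set ψ := ∫ u, G (S u) ^ q ∂sig n with hψ
  set φ := fun t : ℝ => ∫ u, G (S (u + t • u j • EuclideanSpace.single i 1)) ^ q ∂sig n with hφ
  set δ : ℝ := if i = j then 1 else 0 with hδ
  have h0 : φ 0 = ψ := by simp [hφ, hψ]
  have h1 : ∀ t : ℝ, (1 + t * δ) ^ q * ψ ^ n ≤ φ t ^ n := by
    intro t
    let A := LinearMap.transvection (t • (EuclideanSpace.proj j : E n →L[ℝ] ℝ).toLinearMap)
      (EuclideanSpace.single i (1 : ℝ))
    have h2 := hm (S.comp (LinearMap.toContinuousLinearMap A))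
    have h3 : (S.comp (LinearMap.toContinuousLinearMap A)).det = S.det * (1 + t * δ) := by
      simp [ContinuousLinearMap.det, ContinuousLinearMap.toLinearMap_comp, A, hδ, eq_comm,
        LinearMap.det_comp]
    have h4 : ∫ u, G (S.comp (LinearMap.toContinuousLinearMap A) u) ^ q ∂sig n = φ t := by
      simp [hφ, A, LinearMap.transvection.apply, mul_smul]
    rw [h3, h4, abs_mul, mul_pow, mul_assoc, mul_le_mul_iff_right₀ (pow_pos (abs_pos.2 hS) q),
      ← abs_pow] at h2
    exact (mul_le_mul_of_nonneg_right (le_abs_self _) (pow_pos hp n).le).trans h2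
  have h2 : IsLocalMin (fun t => φ t ^ n - (1 + t * δ) ^ q * ψ ^ n) 0 :=
    Eventually.of_forall fun t => by simpa [h0] using h1 t
  have h3 := h2.hasDerivAt_eq_zero ((hd.fun_pow n).fun_sub
    (((((hasDerivAt_id' (0 : ℝ)).mul_const δ).const_add 1).fun_pow q).mul_const (ψ ^ n)))
  have hn : (0 : ℝ) < n := Nat.cast_pos.2 (NeZero.pos n)
  have h4 : ψ ^ n = ψ ^ (n - 1) * ψ := by rw [← pow_succ, Nat.sub_add_cancel NeZero.one_le]
  rw [h0, h4] at h3
  have h5 := pow_pos hp (n - 1)
  apply mul_left_cancel₀ (mul_pos hn h5).ne'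
  split_ifs at hδ ⊢
  · simp only [hδ, mul_one, add_zero, one_pow] at h3
    rw [sub_eq_zero.1 h3]
    field_simp
  · simp only [hδ] at h3
    linarith

end Vale.Agent.P237B
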