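import Vale.Agent.P237B.Defs

/-! Volume of `K + [0, a]` for a compact convex set `K`.

PLAN.  a = 0 is trivial.  For a ≠ 0 let s = ℝ ∙ a and use
`Submodule.measurePreserving_measurableEquivProd s 0` (with
`InnerProductSpace.euclideanHausdorffMeasure_eq_volume`), `Measure.prod_apply_symm`,
`volume_eq_of_finrank_eq_one` on the line s: volume A = ∫⁻ y : sᗮ, ‖a‖ₑ * volume {t : ℝ | t • a + y ∈ A}.
For y in the projection P of K the set I y = {t | t • a + y ∈ K} is a nonempty compact interval
[α, β] (`IsCompact`, `Convex.isPreconnected`/`OrdConnected`, `eq_Icc_of_connected_compact`) and the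
corresponding set for K + segment is [α, β + 1]; for y ∉ P both are empty.  So the section volume
of K + segment is that of K plus the indicator of P (P is compact, hence measurable);
`lintegral_add_right`, `lintegral_indicator`.  All volumes are finite (compact sets). -/

namespace Vale.Agent.P237B

open MeasureTheory Metric Set
open scoped Pointwise

variable {n : ℕ}

/-- The homogeneous extension of `shadow K`. -/
noncomputable def hh (K : Set (E n)) (a : E n) : ℝ := ‖a‖ * shadow K a

theorem isCompact_add_seg {K : Set (E n)} (hK : IsCompact K) (a b : E n) :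
    IsCompact (K + segment ℝ a b) := by
  refine hK.add ?_
  rw [segment_eq_image]
  exact isCompact_Icc.image (by fun_prop)

namespace Seg

theorem volume_eq {V : Type} [NormedAddCommGroup V] [InnerProductSpace ℝ V]
    [FiniteDimensional ℝ V] [MeasurableSpace V] [BorelSpace V] {a : V} (ha : a ≠ 0) {A : Set V}
    (hA : MeasurableSet A) :
    volume A = ∫⁻ y : (ℝ ∙ a)ᗮ, ‖a‖ₑ * volume {t : ℝ | t • a + (y : V) ∈ A} := by
  have hp := ((ℝ ∙ a).measurePreserving_measurableEquivProd (0 : V)).symm
  rw [InnerProductSpace.euclideanHausdorffMeasure_eq_volume] at hp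
  have hm0 := hp.measurable hA
  rw [← hp.measure_preimage hA.nullMeasurableSet, Measure.volume_eq_prod,
    Measure.prod_apply_symm hm0]
  refine lintegral_congr fun y => ?_
  let v : (ℝ ∙ a) := ⟨a, Submodule.mem_span_singleton_self a⟩
  have hv : v ≠ 0 := fun h => ha (congrArg Subtype.val h)
  have hf : Measurable fun t : ℝ => t • v := (continuous_id.smul continuous_const).measurable
  rw [volume_eq_of_finrank_eq_one (finrank_span_singleton ha) hv, Measure.smul_apply,
    Measure.map_apply hf (measurable_prodMk_right hm0), smul_eq_mul]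
  refine congrArg₂ (· * ·) rfl (congrArg _ ?_)
  ext t
  simp only [mem_preimage, Submodule.measurableEquivProd_symm_apply, vadd_eq_add, add_zero,
    mem_ofPred_eq, v, SetLike.mk_smul_mk]

theorem sec_add {K : Set (E n)} (hK : IsCompact K) (hc : Convex ℝ K) {a : E n} (ha : a ≠ 0)
    (y : E n) (hy : ∃ t : ℝ, t • a + y ∈ K) :
    volume {t : ℝ | t • a + y ∈ K + segment ℝ 0 a} = volume {t : ℝ | t • a + y ∈ K} + 1 := by
  have h1 : IsCompact {t : ℝ | t • a + y ∈ K} := by
    have : Topology.IsClosedEmbedding fun t : ℝ => t • a + y :=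
      (Homeomorph.addRight y).isClosedEmbedding.comp (isClosedEmbedding_smul_left ha)
    exact this.isCompact_preimage hK
  have h2 : Convex ℝ {t : ℝ | t • a + y ∈ K} := by
    intro s hs t ht p q hp hq hpq
    have := hc hs ht hp hq hpq
    have e : (p • s + q • t) • a + y = p • (s • a + y) + q • (t • a + y) := by
      have e1 : y = (p + q) • y := by rw [hpq, one_smul]
      conv_lhs => rw [e1]
      simp only [smul_eq_mul]
      module
    change (p • s + q • t) • a + y ∈ K
    rwa [e]
  obtain ⟨α, β, h3⟩ : ∃ α β, {t : ℝ | t • a + y ∈ K} = Icc α β :=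
    ⟨_, _, eq_Icc_of_connected_compact ⟨hy, h2.isPreconnected⟩ h1⟩
  have hab : α ≤ β := by
    obtain ⟨t, ht⟩ := hy
    have : t ∈ Icc α β := h3 ▸ ht
    exact this.1.trans this.2
  have h4 : ∀ t : ℝ, t • a + y ∈ K ↔ t ∈ Icc α β := fun t => by rw [← h3]; rfl
  have h5 : {t : ℝ | t • a + y ∈ K + segment ℝ 0 a} = Icc α (β + 1) := by
    ext t
    constructor
    · rintro ⟨k, hk, _, ⟨p, q, hp, hq, hpq, rfl⟩, e⟩
      have e1 : k = (t - q) • a + y := by
        rw [smul_zero, zero_add] at e
        rw [sub_smul, add_comm, add_sub, add_comm y, ← e]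
        simp
      have := (h4 _).1 (e1 ▸ hk)
      exact ⟨by linarith [this.1], by linarith [this.2]⟩
    · intro ht
      refine ⟨_, (h4 (min t β)).2 ⟨le_min ht.1 hab, min_le_right _ _⟩, (t - min t β) • a,
        ⟨1 - (t - min t β), t - min t β, ?_, ?_, by ring, by simp⟩, ?_⟩
      · rcases le_total t β with h | h
        · rw [min_eq_left h]; linarith
        · rw [min_eq_right h]; linarith [ht.2]
      · linarith [min_le_left t β]
      · simp only
        module
  rw [h5, h3, Real.volume_Icc, Real.volume_Icc, ← ENNReal.ofReal_one,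
    ← ENNReal.ofReal_add (by linarith) zero_le_one]
  congr 1
  ring

theorem mem_proj {K : Set (E n)} {a : E n} (y : (ℝ ∙ a)ᗮ) :
    y ∈ (ℝ ∙ a)ᗮ.orthogonalProjectionOnto '' K ↔ ∃ t : ℝ, t • a + (y : E n) ∈ K := by
  constructor
  · rintro ⟨k, hk, rfl⟩
    obtain ⟨t, ht⟩ := Submodule.mem_span_singleton.1 ((ℝ ∙ a).starProjection_apply_mem k)
    refine ⟨t, ?_⟩
    rw [ht, Submodule.coe_orthogonalProjectionOnto_apply,
      Submodule.starProjection_add_starProjection_orthogonal]
    exact hk
  · rintro ⟨t, ht⟩
    refine ⟨_, ht, ?_⟩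
    rw [map_add, Submodule.orthogonalProjectionOnto_mem_subspace_eq_self,
      Submodule.orthogonalProjectionOnto_eq_zero_iff.2 ((ℝ ∙ a).le_orthogonal_orthogonal
        (Submodule.smul_mem _ _ (Submodule.mem_span_singleton_self a))), zero_add]

end Seg

theorem vol_add_seg {K : Set (E n)} (hK : IsCompact K) (hc : Convex ℝ K) (a : E n) :
    vol (K + segment ℝ 0 a) = vol K + hh K a := by
  rcases eq_or_ne a 0 with rfl | ha
  · simp [hh, Set.singleton_zero]
  have hP : IsCompact ((ℝ ∙ a)ᗮ.orthogonalProjectionOnto '' K) :=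
    hK.image (ContinuousLinearMap.continuous _)
  have key : volume (K + segment ℝ 0 a) =
      volume K + ‖a‖ₑ * volume ((ℝ ∙ a)ᗮ.orthogonalProjectionOnto '' K) := by
    rw [Seg.volume_eq ha (isCompact_add_seg hK 0 a).measurableSet,
      Seg.volume_eq ha hK.measurableSet, ← lintegral_indicator_const hP.measurableSet,
      ← lintegral_add_right _ (measurable_const.indicator hP.measurableSet)]
    refine lintegral_congr fun y => ?_
    by_cases hy : y ∈ (ℝ ∙ a)ᗮ.orthogonalProjectionOnto '' K
    · rw [indicator_of_mem hy, Seg.sec_add hK hc ha _ ((Seg.mem_proj y).1 hy), mul_add, mul_one]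
    · rw [indicator_of_notMem hy, add_zero]
      rw [Seg.mem_proj] at hy
      congr 2
      ext t
      constructor
      · rintro ⟨k, hk, _, ⟨p, q, -, -, -, rfl⟩, e⟩
        refine absurd ⟨t - q, ?_⟩ hy
        rw [smul_zero, zero_add] at e
        rw [sub_smul, add_comm, add_sub, add_comm (y : E n), ← e]
        simpa using hk
      · intro ht
        exact absurd ⟨t, ht⟩ hy
  unfold vol hh shadow
  rw [key, ENNReal.toReal_add hK.measure_lt_top.ne
    (ENNReal.mul_ne_top enorm_ne_top hP.measure_lt_top.ne), ENNReal.toReal_mul, toReal_enorm]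

theorem vol_mono {A B : Set (E n)} (h : A ⊆ B) (hB : IsCompact B) : vol A ≤ vol B :=
  ENNReal.toReal_mono hB.measure_lt_top.ne (measure_mono h)

theorem vol_nonneg (A : Set (E n)) : 0 ≤ vol A := ENNReal.toReal_nonneg

theorem IsBody.vol_pos {K : Set (E n)} (hK : IsBody K) : 0 < vol K :=
  ENNReal.toReal_pos (Measure.measure_pos_of_nonempty_interior _ hK.2.2).ne'
    hK.1.measure_lt_top.ne

theorem vol_translate (A : Set (E n)) (c : E n) : vol ((fun x => c + x) '' A) = vol A := by
  unfold vol
  rw [image_add_left, measure_preimage_add]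

theorem vol_lin (A : Set (E n)) (T : E n →ₗ[ℝ] E n) :
    vol (T '' A) = |LinearMap.det T| * vol A := by
  unfold vol
  rw [Measure.addHaar_image_linearMap, ENNReal.toReal_mul, ENNReal.toReal_ofReal (abs_nonneg _)]

theorem vol_smul (A : Set (E n)) {c : ℝ} (hc : 0 ≤ c) : vol (c • A) = c ^ n * vol A := by
  unfold vol
  rw [Measure.addHaar_smul_of_nonneg _ hc, ENNReal.toReal_mul,
    ENNReal.toReal_ofReal (pow_nonneg hc _), finrank_euclideanSpace_fin]

theorem vol_closedBall [NeZero n] (x : E n) {r : ℝ} (hr : 0 ≤ r) :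
    vol (closedBall x r) = r ^ n * kappa n := by
  unfold kappa vol
  rw [Measure.addHaar_closedBall' _ x hr, ENNReal.toReal_mul,
    ENNReal.toReal_ofReal (pow_nonneg hr _), finrank_euclideanSpace_fin]

end Vale.Agent.P237B
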