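import Vale.Agent.P237B.Defs

/-! The uniform probability measure `sig n` on the unit sphere, as a measure on `E n`.

PLAN.
* Everything comes from `Measure.measurePreserving_homeomorphUnitSphereProd`,
  `Measure.toSphere_apply'`, `Measure.toSphere_apply_univ` (Mathlib, HaarToSphere); imitate the
  proof of `integral_fun_norm_addHaar`.  `Subtype.val` on the sphere is a measurable embedding, so
  `MeasurableEmbedding.integral_map`, `ae_map_iff`, `map_apply` need no measurability.
* `kappa n = (volume (ball 0 1)).toReal` (`Measure.addHaar_closedBall_eq_addHaar_ball`).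
* sig_iso: for measurable s, toSphere (val ⁻¹' (R ⁻¹' s)) = n * volume (Ioo 0 1 • ..) and
  Ioo 0 1 • (R ⁻¹' s ∩ sphere) = R ⁻¹' (Ioo 0 1 • (s ∩ sphere)); `R.measurePreserving`
  (`MeasurePreserving.measure_preimage_equiv` with `R.toMeasurableEquiv`, arbitrary sets).
* polar: integral over {0}ᶜ, `MeasurePreserving.integral_comp` for the inverse homeomorphism,
  `integral_congr_ae` (`Measure.quasiMeasurePreserving_fst.ae`), `integral_prod_mul`.
* polar_lintegral: same with `lintegral_prod`.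
* ae_sig: N = bad set of the sphere; the preimage of N ×ˢ univ lies in the null set;
  `Measure.prod_prod` and `measure_preimage_equiv` hold for arbitrary sets; volumeIoiPow univ ≠ 0.
* ae_inner_ne: ae_sig and `Measure.addHaar_submodule` for the hyperplane (ℝ ∙ v)ᗮ.
* eq_of_ae_sig: `toSphere.instIsOpenPosMeasure`, `Continuous.ae_eq_iff_eq` on the subtype. -/

namespace Vale.Agent.P237B

open MeasureTheory Metric Set
open scoped RealInnerProductSpace ENNReal

/-- Uniform probability measure on the unit sphere. -/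
noncomputable def sig (n : ℕ) : Measure (E n) :=
  ((volume : Measure (E n)).toSphere univ)⁻¹ • (volume : Measure (E n)).toSphere.map Subtype.val

theorem kappa_pos (m : ℕ) : 0 < kappa m := by
  exact ENNReal.toReal_pos (measure_closedBall_pos _ _ one_pos).ne' measure_closedBall_lt_top.ne

namespace Sph

variable {n : ℕ}

theorem kappa_eq (n : ℕ) : ENNReal.ofReal (kappa n) = volume (ball (0 : E n) 1) := by
  rw [kappa, vol, ENNReal.ofReal_toReal measure_closedBall_lt_top.ne]
  rcases subsingleton_or_nontrivial (E n) with h | h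
  · congr 1
    ext x
    simp [Subsingleton.elim x 0]
  · exact Measure.addHaar_closedBall_eq_addHaar_ball _ _ _

theorem tot (n : ℕ) :
    (volume : Measure (E n)).toSphere univ = ENNReal.ofReal (n * kappa n) := by
  rw [Measure.toSphere_apply_univ, ENNReal.ofReal_mul (Nat.cast_nonneg _), kappa_eq,
    ENNReal.ofReal_natCast, finrank_euclideanSpace_fin]

theorem emb : MeasurableEmbedding (Subtype.val : sphere (0 : E n) 1 → E n) :=
  MeasurableEmbedding.subtype_coe isClosed_sphere.measurableSet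

/-- polar coordinates -/
noncomputable def pm (x : sphere (0 : E n) 1 × Ioi (0 : ℝ)) : E n := x.2.1 • x.1.1

theorem pm_eq : (pm : _ → E n) = Subtype.val ∘ (homeomorphUnitSphereProd (E n)).symm := rfl

theorem pm_emb : MeasurableEmbedding (pm : _ → E n) :=
  pm_eq ▸ (MeasurableEmbedding.subtype_coe (measurableSet_singleton _).compl).comp
    (Homeomorph.measurableEmbedding _)

open scoped Pointwise in
theorem cone_iso (R : E n ≃ₗᵢ[ℝ] E n) (s : Set (E n)) :
    Ioo (0 : ℝ) 1 • (sphere (0 : E n) 1 ∩ R ⁻¹' s) =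
      R ⁻¹' (Ioo (0 : ℝ) 1 • (sphere (0 : E n) 1 ∩ s)) := by
  ext x
  constructor
  · rintro ⟨r, hr, u, ⟨hu, hu'⟩, rfl⟩
    exact ⟨r, hr, R u, ⟨by simpa using hu, hu'⟩, (map_smul R r u).symm⟩
  · rintro ⟨r, hr, u, ⟨hu, hu'⟩, h⟩
    refine ⟨r, hr, R.symm u, ⟨by simpa using hu, by simpa using hu'⟩, R.injective ?_⟩
    rw [← h]
    simp

variable [NeZero n]

theorem nk_pos : 0 < n * kappa n :=
  mul_pos (Nat.cast_pos.2 (Nat.pos_of_ne_zero (NeZero.ne n))) (kappa_pos n)

theorem tot_ne : (volume : Measure (E n)).toSphere univ ≠ 0 := by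
  rw [tot]; exact (ENNReal.ofReal_pos.2 nk_pos).ne'

theorem pm_mp : MeasurePreserving (pm : _ → E n)
    ((volume : Measure (E n)).toSphere.prod (Measure.volumeIoiPow (n - 1))) volume := by
  have h1 := (volume : Measure (E n)).measurePreserving_homeomorphUnitSphereProd
  rw [finrank_euclideanSpace_fin] at h1
  have h2 := MeasurePreserving.symm (homeomorphUnitSphereProd (E n)).toMeasurableEquiv h1
  have h3 : MeasurePreserving (Subtype.val : ({0}ᶜ : Set (E n)) → E n)
      ((volume : Measure (E n)).comap Subtype.val) volume := by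
    refine ⟨measurable_subtype_coe, ?_⟩
    rw [map_comap_subtype_coe (measurableSet_singleton _).compl, restrict_compl_singleton]
  exact h3.comp h2

omit [NeZero n] in
theorem ae_iff' {p : E n → Prop} :
    (∀ᵐ u ∂sig n, p u) ↔ ∀ᵐ u ∂(volume : Measure (E n)).toSphere, p u.1 := by
  rw [sig, Measure.ae_ennreal_smul_measure_iff (ENNReal.inv_ne_zero.2 (measure_ne_top _ _)),
    emb.ae_map_iff]

theorem integral_sig (f : E n → ℝ) :
    ∫ u, f u.1 ∂(volume : Measure (E n)).toSphere = n * kappa n * ∫ u, f u ∂sig n := by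
  rw [sig, integral_smul_measure, emb.integral_map, tot, ENNReal.toReal_inv,
    ENNReal.toReal_ofReal nk_pos.le, smul_eq_mul, mul_inv_cancel_left₀ nk_pos.ne']

theorem lintegral_sig (f : E n → ℝ≥0∞) :
    ∫⁻ u, f u.1 ∂(volume : Measure (E n)).toSphere =
      ENNReal.ofReal (n * kappa n) * ∫⁻ u, f u ∂sig n := by
  rw [sig, lintegral_smul_measure, emb.lintegral_map, smul_eq_mul, ← tot, ← mul_assoc,
    ENNReal.mul_inv_cancel tot_ne (measure_ne_top _ _), one_mul]

omit [NeZero n] in
theorem integral_pow (ρ : ℝ → ℝ) (k : ℕ) :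
    ∫ r, ρ r.1 ∂Measure.volumeIoiPow k = ∫ r in Ioi (0 : ℝ), ρ r * r ^ k := by
  simp only [Measure.volumeIoiPow, ENNReal.ofReal]
  rw [integral_withDensity_eq_integral_smul,
    integral_subtype_comap measurableSet_Ioi fun a => Real.toNNReal (a ^ k) • ρ a,
    setIntegral_congr_fun measurableSet_Ioi fun x hx => ?_]
  · rw [NNReal.smul_def, Real.coe_toNNReal _ (pow_nonneg hx.out.le _), smul_eq_mul, mul_comm]
  · exact (measurable_subtype_coe.pow_const _).real_toNNReal

omit [NeZero n] in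
theorem lintegral_pow {ρ : ℝ → ℝ≥0∞} (hρ : Measurable ρ) (k : ℕ) :
    ∫⁻ r, ρ r.1 ∂Measure.volumeIoiPow k =
      ∫⁻ r in Ioi (0 : ℝ), ρ r * ENNReal.ofReal (r ^ k) := by
  rw [Measure.volumeIoiPow, lintegral_withDensity_eq_lintegral_mul _
    (measurable_subtype_coe.pow_const _).ennreal_ofReal (g := fun r : Ioi (0 : ℝ) => ρ r.1)
      (hρ.comp measurable_subtype_coe),
    ← lintegral_subtype_comap measurableSet_Ioi]
  exact lintegral_congr fun r => mul_comm _ _

omit [NeZero n] in
theorem pow_ne (k : ℕ) : Measure.volumeIoiPow k ≠ 0 := by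
  intro h
  have := Measure.volumeIoiPow_apply_Iio k ⟨1, mem_Ioi.2 one_pos⟩
  rw [h] at this
  simp only [Measure.coe_zero, Pi.zero_apply, one_pow] at this
  exact (ENNReal.ofReal_pos.2 (by positivity)).ne this

end Sph

variable {n : ℕ} [NeZero n]

instance sig_prob : IsProbabilityMeasure (sig n) := by
  constructor
  rw [sig, Measure.smul_apply, Sph.emb.map_apply, preimage_univ, smul_eq_mul,
    ENNReal.inv_mul_cancel Sph.tot_ne (measure_ne_top _ _)]

theorem ae_norm : ∀ᵐ u ∂sig n, ‖u‖ = 1 := by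
  exact Sph.ae_iff'.2 (ae_of_all _ fun u => norm_eq_of_mem_sphere u)

theorem sig_iso (R : E n ≃ₗᵢ[ℝ] E n) : MeasurePreserving R (sig n) (sig n) := by
  refine ⟨R.continuous.measurable, Measure.ext fun s hs => ?_⟩
  have hR := R.continuous.measurable
  rw [Measure.map_apply hR hs, sig, Measure.smul_apply, Measure.smul_apply, Sph.emb.map_apply,
    Sph.emb.map_apply, Measure.toSphere_apply' _ (measurable_subtype_coe (hR hs)),
    Measure.toSphere_apply' _ (measurable_subtype_coe hs), Subtype.image_preimage_coe,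
    Subtype.image_preimage_coe, Sph.cone_iso,
    R.measurePreserving.measure_preimage_emb R.toHomeomorph.measurableEmbedding]

theorem integral_neg_sig (f : E n → ℝ) : ∫ u, f (-u) ∂sig n = ∫ u, f u ∂sig n := by
  exact (sig_iso (LinearIsometryEquiv.neg ℝ)).integral_comp
    (LinearIsometryEquiv.neg ℝ : E n ≃ₗᵢ[ℝ] E n).toHomeomorph.measurableEmbedding f

theorem polar {A a : E n → ℝ} {ρ : ℝ → ℝ}
    (h : ∀ᵐ u ∂sig n, ∀ r : ℝ, 0 < r → A (r • u) = ρ r * a u) :
    ∫ x, A x = n * kappa n * (∫ r in Ioi (0 : ℝ), ρ r * r ^ (n - 1)) * ∫ u, a u ∂sig n := by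
  rw [← Sph.pm_mp.integral_comp Sph.pm_emb]
  have h1 := (Measure.quasiMeasurePreserving_fst (ν := Measure.volumeIoiPow (n - 1))).ae
    (Sph.ae_iff'.1 h)
  rw [integral_congr_ae (f := fun x => A (Sph.pm x)) (g := fun x => a x.1.1 * ρ x.2.1)
    (h1.mono fun x hx => (hx x.2.1 x.2.2).trans (mul_comm _ _)),
    integral_prod_mul (fun u : sphere (0 : E n) 1 => a u.1) (fun r : Ioi (0 : ℝ) => ρ r.1),
    Sph.integral_sig, Sph.integral_pow]
  ring

theorem polar_lintegral {A : E n → ℝ≥0∞} (hA : Measurable A) :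
    ∫⁻ x, A x = ENNReal.ofReal (n * kappa n) *
      ∫⁻ u, ∫⁻ r in Ioi (0 : ℝ), A (r • u) * ENNReal.ofReal (r ^ (n - 1)) ∂volume ∂sig n := by
  rw [← Sph.pm_mp.lintegral_comp_emb Sph.pm_emb,
    lintegral_prod (fun x => A (Sph.pm x)) (hA.comp Sph.pm_emb.measurable).aemeasurable, ← Sph.lintegral_sig]
  refine lintegral_congr fun u => ?_
  exact Sph.lintegral_pow (ρ := fun r => A (r • u.1)) (hA.comp (measurable_id.smul_const _)) _

theorem ae_sig {p : E n → Prop} (hp : ∀ᵐ x, p x)
    (hom : ∀ (x : E n) (r : ℝ), 0 < r → p (r • x) → p x) : ∀ᵐ u ∂sig n, p u := by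
  have := (ae_neBot (μ := Measure.volumeIoiPow (n - 1))).2 (Sph.pow_ne _)
  refine Sph.ae_iff'.2
    ((Measure.ae_ae_of_ae_prod (Sph.pm_mp.quasiMeasurePreserving.ae hp)).mono fun u hu => ?_)
  obtain ⟨r, hr⟩ := hu.exists
  exact hom _ r.1 r.2 hr

theorem ae_inner_ne {v : E n} (hv : v ≠ 0) : ∀ᵐ u ∂sig n, ⟪u, v⟫ ≠ 0 := by
  refine ae_sig ?_ fun x r _ h h' => h (by rw [real_inner_smul_left, h', mul_zero])
  have h1 : (ℝ ∙ v)ᗮ ≠ ⊤ := by
    rw [Ne, Submodule.orthogonal_eq_top_iff, Submodule.span_singleton_eq_bot]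
    exact hv
  have h2 := Measure.addHaar_submodule (volume : Measure (E n)) _ h1
  rw [ae_iff]
  refine measure_mono_null (fun x hx => ?_) h2
  exact Submodule.mem_orthogonal_singleton_iff_inner_left.2 (not_not.1 hx)

theorem eq_of_ae_sig {f g : E n → ℝ} (hf : ContinuousOn f {0}ᶜ) (hg : ContinuousOn g {0}ᶜ)
    (h : ∀ᵐ u ∂sig n, f u = g u) {u : E n} (hu : ‖u‖ = 1) : f u = g u := by
  have hs : ∀ x : sphere (0 : E n) 1, x.1 ∈ ({0}ᶜ : Set (E n)) := fun x =>
    ne_zero_of_mem_unit_sphere x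
  have h1 := (Continuous.ae_eq_iff_eq (volume : Measure (E n)).toSphere
    (hf.comp_continuous continuous_subtype_val hs)
    (hg.comp_continuous continuous_subtype_val hs)).1 (Sph.ae_iff'.1 h)
  exact congrFun h1 ⟨u, mem_sphere_zero_iff_norm.2 hu⟩

theorem memLp_of_bdd {f : E n → ℝ} (hm : AEStronglyMeasurable f (sig n)) {C : ℝ}
    (hb : ∀ u, ‖u‖ = 1 → |f u| ≤ C) (p : ℝ≥0∞) : MemLp f p (sig n) := by
  exact MemLp.of_bound hm C (ae_norm.mono fun u hu => hb u hu)

theorem memLp_of_contOn {f : E n → ℝ} (hf : ContinuousOn f {0}ᶜ) (p : ℝ≥0∞) :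
    MemLp f p (sig n) := by
  have hs : sphere (0 : E n) 1 ⊆ {0}ᶜ := fun x hx => ne_zero_of_mem_unit_sphere ⟨x, hx⟩
  obtain ⟨C, hC⟩ := (isCompact_sphere (0 : E n) 1).exists_bound_of_continuousOn (hf.mono hs)
  exact memLp_of_bdd (measurable_of_continuousOn_compl_singleton 0 hf).aestronglyMeasurable
    (fun u hu => hC u (mem_sphere_zero_iff_norm.2 hu)) p

theorem integrable_of_contOn {f : E n → ℝ} (hf : ContinuousOn f {0}ᶜ) :
    Integrable f (sig n) :=
  memLp_one_iff_integrable.1 (memLp_of_contOn hf 1)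

end Vale.Agent.P237B
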