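import Vale.Agent.P237B.Defs

/-! The projection body, written with short definitions. -/

namespace Vale.Agent.P237B

open MeasureTheory
open scoped RealInnerProductSpace

/-- Euclidean volume (normalised by orthonormal bases) in a finite-dimensional inner product
space, as a real number. -/
noncomputable def eucVol {F : Type} [NormedAddCommGroup F] [InnerProductSpace ℝ F]
    [FiniteDimensional ℝ F] [MeasurableSpace F] [BorelSpace F] (A : Set F) : ℝ :=
  (volume A).toReal

/-- The Euclidean volume, inside the subspace `V`, of the orthogonal projection of `K` onto `V`. -/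
noncomputable def projVol {F : Type} [NormedAddCommGroup F] [InnerProductSpace ℝ F]
    [FiniteDimensional ℝ F] [MeasurableSpace F] [BorelSpace F] (V : Submodule ℝ F) (K : Set F) :
    ℝ :=
  eucVol (F := V) (V.orthogonalProjectionOnto '' K)

/-- The hyperplane orthogonal to `u`. -/
noncomputable def perp {F : Type} [NormedAddCommGroup F] [InnerProductSpace ℝ F] (u : F) :
    Submodule ℝ F := (ℝ ∙ u)ᗮ

/-- The projection body: the set cut out by the half-spaces `⟪x, u⟫ ≤ vol (K | u^⊥)`. -/
def piBody {n : ℕ} (K : Set (E n)) : Set (E n) :=
  {x | ∀ u : E n, ‖u‖ = 1 → ⟪x, u⟫ ≤ projVol (perp u) K}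

theorem projVol_perp {n : ℕ} (K : Set (E n)) (u : E n) : projVol (perp u) K = shadow K u := rfl

theorem piBody_eq {n : ℕ} (K : Set (E n)) : piBody K = projBody K := rfl

end Vale.Agent.P237B
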