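import Vale.Agent.P237B.SubA
import Vale.Agent.P237B.Sph

/-! The function `hh K` is sublinear and is the support function of `projBody K`.

PLAN.
* hh_grow: if closedBall x₀ ρ ⊆ K, K convex, K' ⊆ K + closedBall 0 ε then
  K' ⊆ (c + ·) '' ((1 + ε/ρ) • K) with c = -(ε/ρ) • x₀; hh_mono, hh_translate, hh_smul_set.
* hh_add: K + seg (t(a+b)) ⊆ (K + seg (t a)) + seg (t b); so t hh K (a+b) ≤ t hh K a +
  t hh (K + seg (t a)) b ≤ t hh K a + t (1 + t ‖a‖/ρ)^(n-1) hh K b; let t → 0+.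
* hh_bounds: inner and outer balls, hh_mono, hh_ball, kappa_pos.
* exists_support: `exists_extension_of_le_sublinear` from the line ℝ ∙ a
  (`LinearPMap.mkSpanSingleton`), then represent the functional by `InnerProductSpace.toDual`
  (finite dimension: `LinearMap.toContinuousLinearMap`). -/

namespace Vale.Agent.P237B

open MeasureTheory Metric Set Filter Topology
open scoped Pointwise RealInnerProductSpace

variable {n : ℕ} {K : Set (E n)}

theorem Sub.exists_ball (hK : IsBody K) : ∃ x₀ ρ, 0 < ρ ∧ closedBall x₀ ρ ⊆ K := by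
  obtain ⟨x, hx⟩ := hK.2.2
  obtain ⟨ρ, h1, h2⟩ := nhds_basis_closedBall.mem_iff.1 (mem_interior_iff_mem_nhds.1 hx)
  exact ⟨x, ρ, h1, h2⟩

theorem hh_grow [NeZero n] (hK : IsBody K) : ∃ ρ : ℝ, 0 < ρ ∧ ∀ (ε : ℝ) (K' : Set (E n)),
    0 ≤ ε → K' ⊆ K + closedBall 0 ε → ∀ a, hh K' a ≤ (1 + ε / ρ) ^ (n - 1) * hh K a := by
  obtain ⟨x₀, ρ, hρ, h⟩ := Sub.exists_ball hK
  refine ⟨ρ, hρ, fun ε K' hε h' a => ?_⟩
  have h0 : 0 ≤ ε / ρ := div_nonneg hε hρ.le
  have h1 : IsCompact ((1 + ε / ρ) • K) := hK.1.smul _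
  rw [← hh_smul_set hK.1 hK.2.1 (by linarith),
    ← hh_translate h1 (hK.2.1.smul _) (-((ε / ρ) • x₀))]
  refine hh_mono (h'.trans ?_) (h1.image (by fun_prop)) a
  rintro _ ⟨k, hk, e, he, rfl⟩
  rw [mem_closedBall_zero_iff] at he
  refine ⟨k + (ε / ρ) • (x₀ + (ρ / ε) • e), ?_, ?_⟩
  · rw [hK.2.1.add_smul zero_le_one h0, one_smul]
    refine add_mem_add hk (smul_mem_smul_set (h ?_))
    rw [mem_closedBall_iff_norm, add_sub_cancel_left, norm_smul,
      Real.norm_of_nonneg (div_nonneg hρ.le hε)]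
    exact (mul_le_mul_of_nonneg_left he (div_nonneg hρ.le hε)).trans
      (by rw [div_mul_comm]; exact mul_le_of_le_one_left hρ.le (div_self_le_one ε))
  · rcases hε.eq_or_lt with rfl | h2
    · simp [norm_le_zero_iff.1 he]
    · simp only [smul_add, smul_smul, show ε / ρ * (ρ / ε) = 1 by field_simp, one_smul]
      abel

theorem hh_add [NeZero n] (hK : IsBody K) (a b : E n) : hh K (a + b) ≤ hh K a + hh K b := by
  obtain ⟨ρ, hρ, h⟩ := hh_grow hK
  have h1 : Tendsto (fun t : ℝ => hh K a + (1 + t * ‖a‖ / ρ) ^ (n - 1) * hh K b) (𝓝[>] 0)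
      (𝓝 (hh K a + hh K b)) :=
    (Continuous.tendsto' (by fun_prop) 0 _ (by simp)).mono_left nhdsWithin_le_nhds
  refine ge_of_tendsto h1 (eventually_nhdsWithin_of_forall fun t (ht : 0 < t) => ?_)
  have h2 := isCompact_add_seg hK.1 0 (t • a)
  have h3 : K + segment ℝ 0 (t • (a + b)) ⊆ K + segment ℝ 0 (t • a) + segment ℝ 0 (t • b) := by
    rw [add_assoc]
    refine add_subset_add_left ?_
    rintro _ ⟨u, v, hu, hv, huv, rfl⟩
    exact ⟨_, ⟨u, v, hu, hv, huv, rfl⟩, _, ⟨u, v, hu, hv, huv, rfl⟩, by simp⟩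
  have h4 := vol_mono h3 (isCompact_add_seg h2 0 _)
  rw [vol_add_seg h2 (hK.2.1.add (convex_segment _ _)), vol_add_seg hK.1 hK.2.1,
    vol_add_seg hK.1 hK.2.1, hh_smul_arg, hh_smul_arg, hh_smul_arg, abs_of_pos ht] at h4
  have h5 := h (t * ‖a‖) (K + segment ℝ 0 (t • a)) (by positivity) (add_subset_add_left
    ((convex_closedBall _ _).segment_subset (mem_closedBall_self (by positivity)) (by
      rw [mem_closedBall_zero_iff, norm_smul, Real.norm_of_nonneg ht.le]))) b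
  exact (le_of_mul_le_mul_left (by linarith) ht : _ ≤ hh K a + _).trans (add_le_add_right h5 _)

theorem hh_bounds [NeZero n] (hK : IsBody K) :
    ∃ c C : ℝ, 0 < c ∧ ∀ a, c * ‖a‖ ≤ hh K a ∧ hh K a ≤ C * ‖a‖ := by
  obtain ⟨x₀, ρ, hρ, h⟩ := Sub.exists_ball hK
  obtain ⟨r, hr, h'⟩ := hK.1.isBounded.subset_closedBall_lt 0 0
  exact ⟨ρ ^ (n - 1) * kappa (n - 1), r ^ (n - 1) * kappa (n - 1),
    mul_pos (pow_pos hρ _) (kappa_pos _), fun a => ⟨(hh_ball x₀ hρ a).ge.trans (hh_mono h hK.1 a),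
      (hh_mono h' (isCompact_closedBall _ _) a).trans (hh_ball 0 hr a).le⟩⟩

theorem mem_projBody {x : E n} : x ∈ projBody K ↔ ∀ a, ⟪x, a⟫ ≤ hh K a := by
  refine ⟨fun h a => ?_, fun h u hu => by simpa [hh, hu] using h u⟩
  rcases eq_or_ne a 0 with rfl | ha
  · simp [hh]
  have h1 := norm_pos_iff.2 ha
  have h2 := hh_smul_arg K ‖a‖⁻¹ a
  have h3 := norm_smul_inv_norm (𝕜 := ℝ) ha
  have h4 := h _ h3
  simp only [RCLike.ofReal_real_eq_id, id] at h3 h4
  rw [hh, h3, one_mul, abs_of_pos (inv_pos.2 h1)] at h2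
  rw [h2, real_inner_smul_right] at h4
  exact le_of_mul_le_mul_left h4 (inv_pos.2 h1)

theorem exists_support [NeZero n] (hK : IsBody K) (a : E n) :
    ∃ z ∈ projBody K, ⟪z, a⟫ = hh K a := by
  rcases eq_or_ne a 0 with rfl | ha
  · exact ⟨0, mem_projBody.2 fun b => by simpa using hh_nonneg K b, by simp [hh]⟩
  obtain ⟨g, h1, h2⟩ := exists_extension_of_le_sublinear
    (LinearPMap.mkSpanSingleton (K := ℝ) a (hh K a) ha) (hh K)
    (fun c hc x => by rw [hh_smul_arg, abs_of_pos hc]) (hh_add hK) (by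
      rintro ⟨x, hx⟩
      obtain ⟨c, rfl⟩ := Submodule.mem_span_singleton.1 hx
      rw [LinearPMap.mkSpanSingleton'_apply, hh_smul_arg]
      exact mul_le_mul_of_nonneg_right (le_abs_self c) (hh_nonneg K a))
  have h3 : ∀ x, ⟪(InnerProductSpace.toDual ℝ (E n)).symm (LinearMap.toContinuousLinearMap g), x⟫ =
      g x := fun x => InnerProductSpace.toDual_symm_apply
  refine ⟨_, mem_projBody.2 fun b => (h3 b).trans_le (h2 b), (h3 a).trans ?_⟩
  exact (h1 ⟨a, Submodule.mem_span_singleton_self a⟩).trans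
    (LinearPMap.mkSpanSingleton'_apply_self _ _ _ _)

end Vale.Agent.P237B
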