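import Vale.Agent.P237B.Seg

/-! Elementary properties of the function `hh K`. -/

namespace Vale.Agent.P237B

open MeasureTheory Metric Set Filter Topology
open scoped Pointwise RealInnerProductSpace

variable {n : ℕ} {K : Set (E n)}

theorem hh_nonneg (K : Set (E n)) (a : E n) : 0 ≤ hh K a :=
  mul_nonneg (norm_nonneg _) ENNReal.toReal_nonneg

theorem hh_smul_arg (K : Set (E n)) (t : ℝ) (a : E n) : hh K (t • a) = |t| * hh K a := by
  rcases eq_or_ne t 0 with rfl | ht
  · simp [hh]
  have key : ∀ s s' : Submodule ℝ (E n), s = s' →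
      (volume (sᗮ.orthogonalProjectionOnto '' K)).toReal
        = (volume (s'ᗮ.orthogonalProjectionOnto '' K)).toReal := by
    rintro s _ rfl
    rfl
  rw [hh, hh, shadow, shadow, key _ _ (Submodule.span_singleton_smul_eq ht.isUnit a), norm_smul,
    Real.norm_eq_abs, mul_assoc]

theorem hh_mono {K' : Set (E n)} (h : K ⊆ K') (hK' : IsCompact K') (a : E n) :
    hh K a ≤ hh K' a :=
  mul_le_mul_of_nonneg_left (ENNReal.toReal_mono
    (hK'.image (ContinuousLinearMap.continuous _)).measure_lt_top.ne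
    (measure_mono (image_mono h))) (norm_nonneg _)

theorem hh_translate (hK : IsCompact K) (hc : Convex ℝ K) (c a : E n) :
    hh ((fun x => c + x) '' K) a = hh K a := by
  have h1 := vol_add_seg (hK.image (continuous_const_add c)) (hc.translate c) a
  have e : (fun x => c + x) '' K + segment ℝ 0 a = (fun x => c + x) '' (K + segment ℝ 0 a) := by
    rw [← singleton_add, ← singleton_add, add_assoc]
  rw [e, vol_translate, vol_translate, vol_add_seg hK hc] at h1
  linarith

theorem hh_lin (hK : IsCompact K) (hc : Convex ℝ K) (T : E n →ₗ[ℝ] E n) (a : E n) :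
    hh (T '' K) (T a) = |LinearMap.det T| * hh K a := by
  have h1 := vol_add_seg (hK.image T.continuous_of_finiteDimensional) (hc.linear_image T) (T a)
  have e : T '' K + segment ℝ 0 (T a) = T '' (K + segment ℝ 0 a) := by
    have e1 : T '' segment ℝ 0 a = segment ℝ (T 0) (T a) := image_segment ℝ T.toAffineMap 0 a
    rw [image_add, e1, map_zero]
  rw [e, vol_lin, vol_lin, vol_add_seg hK hc] at h1
  linarith

theorem hh_smul_set [NeZero n] (hK : IsCompact K) (hc : Convex ℝ K) {c : ℝ} (h0 : 0 < c)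
    (a : E n) : hh (c • K) a = c ^ (n - 1) * hh K a := by
  have h1 := hh_lin hK hc (c • LinearMap.id) a
  have e : (c • LinearMap.id : E n →ₗ[ℝ] E n) '' K = c • K := rfl
  rw [e, LinearMap.smul_apply, LinearMap.id_apply] at h1
  obtain ⟨m, rfl⟩ := Nat.exists_eq_succ_of_ne_zero (NeZero.ne n)
  rw [hh_smul_arg, LinearMap.det_smul, LinearMap.det_id, finrank_euclideanSpace_fin, mul_one,
    abs_of_pos h0, abs_of_pos (pow_pos h0 _), pow_succ', mul_assoc] at h1
  exact mul_left_cancel₀ h0.ne' h1

theorem hh_ball [NeZero n] (x : E n) {r : ℝ} (hr : 0 < r) (a : E n) :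
    hh (closedBall x r) a = r ^ (n - 1) * kappa (n - 1) * ‖a‖ := by
  rcases eq_or_ne a 0 with rfl | ha
  · simp [hh]
  obtain ⟨m, rfl⟩ := Nat.exists_eq_succ_of_ne_zero (NeZero.ne n)
  have : Fact (Module.finrank ℝ (E (m + 1)) = m + 1) := ⟨finrank_euclideanSpace_fin⟩
  have e : (ℝ ∙ a)ᗮ.orthogonalProjectionOnto '' closedBall x r
      = closedBall ((ℝ ∙ a)ᗮ.orthogonalProjectionOnto x) r := by
    ext y
    constructor
    · rintro ⟨z, hz, rfl⟩
      rw [mem_closedBall_iff_norm] at hz ⊢
      rw [← map_sub]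
      exact (Submodule.norm_orthogonalProjectionOnto_apply_le _ _).trans hz
    · intro hy
      refine ⟨x + (y - (ℝ ∙ a)ᗮ.orthogonalProjectionOnto x : (ℝ ∙ a)ᗮ), ?_, ?_⟩
      · rw [mem_closedBall_iff_norm] at hy ⊢
        rwa [add_sub_cancel_left]
      · rw [map_add, Submodule.orthogonalProjectionOnto_mem_subspace_eq_self, add_sub_cancel]
  let φ := (OrthonormalBasis.fromOrthogonalSpanSingleton (𝕜 := ℝ) m ha).repr
  have e2 : volume (closedBall (0 : (ℝ ∙ a)ᗮ) 1) = volume (closedBall (0 : E m) 1) := by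
    rw [← φ.measurePreserving.measure_preimage measurableSet_closedBall.nullMeasurableSet,
      φ.preimage_closedBall, map_zero]
  rw [hh, shadow, e, Measure.addHaar_closedBall' _ _ hr.le, e2,
    Submodule.finrank_orthogonal_span_singleton (n := m) ha, ENNReal.toReal_mul,
    ENNReal.toReal_ofReal (pow_pos hr _).le, mul_comm]
  rfl

end Vale.Agent.P237B
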